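import Mathlib

/-!
Definitions for P331 (single-sample matroid prophet inequality against the almighty adversary).
-/

namespace Vale.Agent.Lib.P331

open scoped NNReal

/-- An online selection rule with seed space `R` on a ground set `E`.  Before the arrivals it
receives the samples `s : E → ℝ≥0` and its seed `r : R`.  When an element `e` arrives with value
`x`, the rule sees the set `A` it has accepted so far and the list `h` of the earlier arrivals
with their values (most recent first), and answers whether it accepts `e`:
`accept s r A h e x`. -/
structure Rule (E R : Type*) where
  accept : (E → ℝ≥0) → R → Finset E → List (E × ℝ≥0) → E → ℝ≥0 → Bool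

variable {E R : Type*} [DecidableEq E]

/-- One arrival: `st = (A, h)` is the accepted set and the history so far; element `e` arrives
with value `v e`, is added to `A` exactly if the rule accepts it, and is recorded in `h`. -/
def Rule.step (ρ : Rule E R) (s : E → ℝ≥0) (r : R) (v : E → ℝ≥0)
    (st : Finset E × List (E × ℝ≥0)) (e : E) : Finset E × List (E × ℝ≥0) :=
  (if ρ.accept s r st.1 st.2 e (v e) = true then insert e st.1 else st.1, (e, v e) :: st.2)

/-- The set accepted by the rule `ρ` with samples `s`, seed `r` and values `v`, when the
elements arrive one at a time in the order of the list `π` (head first). -/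
def Rule.accepted (ρ : Rule E R) (s : E → ℝ≥0) (r : R) (v : E → ℝ≥0) (π : List E) : Finset E :=
  (π.foldl (ρ.step s r v) (∅, [])).1

/-- The offline optimum `OPT_M(v) = max { ∑_{e ∈ I} v e : I independent in M }`. -/
noncomputable def opt [Fintype E] (M : Matroid E) (v : E → ℝ≥0) : ℝ≥0 :=
  open Classical in
  (Finset.univ.filter (fun I : Finset E => M.Indep (I : Set E))).sup (fun I => ∑ e ∈ I, v e)

end Vale.Agent.Lib.P331
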