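import Mathlib
import Vale.Agent.Lib.P331.Defs

/-!
The rule used for P331 and what it accepts, for every arrival order.
-/

namespace Vale.Agent.Lib.P331

open scoped NNReal

variable {E : Type*} [Fintype E] [DecidableEq E]

/-- The value `x` of `e` beats every sample of a non-loop element; ties with the own sample are
decided by the seed bit `b e`, ties with other samples by the injective labelling `ord`. -/
def Beats (M : Matroid E) (ord : E → ℕ) (s : E → ℝ≥0) (b : E → Bool) (e : E) (x : ℝ≥0) : Prop :=
  (s e < x ∨ (s e = x ∧ b e = true)) ∧
    ∀ f, f ≠ e → M.Indep {f} → (s f < x ∨ (s f = x ∧ ord f < ord e))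

/-- The largest sample of a non-loop element. -/
noncomputable def maxS (M : Matroid E) (s : E → ℝ≥0) : ℝ≥0 :=
  open Classical in (Finset.univ.filter (fun f : E => M.Indep {f})).sup s

/-- The value `x` lies in the `j`-th bucket `(m / 2^j, m / 2^(j-1)]` below `m`. -/
def InBucket (m : ℝ≥0) (j : ℕ) (x : ℝ≥0) : Prop := m / 2 ^ j < x ∧ x ≤ m / 2 ^ (j - 1)

/-- The rule.  The seed is a pair `(b, j)`.  If `j = 0`, accept the first non-loop element whose
value beats all samples, and nothing else.  If `j ≥ 1`, accept greedily every element whose
value lies in the `j`-th bucket below the largest sample, as long as independence is kept. -/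
noncomputable def theRule (M : Matroid E) (ord : E → ℕ) (L : ℕ) :
    Rule E ((E → Bool) × Fin (L + 1)) where
  accept s r A _ e x :=
    open Classical in
    if (r.2 : ℕ) = 0 then decide (A = ∅ ∧ M.Indep {e} ∧ Beats M ord s r.1 e x)
    else decide (InBucket (maxS M s) r.2 x ∧ M.Indep (insert e (A : Set E)))

lemma foldl_indep (M : Matroid E) (ord : E → ℕ) (L : ℕ) (s : E → ℝ≥0)
    (r : (E → Bool) × Fin (L + 1)) (v : E → ℝ≥0) :
    ∀ (l : List E) (st : Finset E × List (E × ℝ≥0)),
      M.Indep (st.1 : Set E) →
      M.Indep ((l.foldl ((theRule M ord L).step s r v) st).1 : Set E) := by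
  classical
  intro l
  induction l with
  | nil => intro st h; exact h
  | cons e l ih =>
    intro st h
    rw [List.foldl_cons]
    apply ih
    unfold Rule.step
    dsimp only
    split_ifs with hacc
    · simp only [theRule] at hacc
      split_ifs at hacc with hj
      · rw [decide_eq_true_eq] at hacc
        obtain ⟨hA, hNL, _⟩ := hacc
        rw [hA]
        simpa using hNL
      · rw [decide_eq_true_eq] at hacc
        simpa [Finset.coe_insert] using hacc.2
    · exact h

/-- The accepted set is always independent. -/
lemma accepted_indep (M : Matroid E) (ord : E → ℕ) (L : ℕ) (s : E → ℝ≥0)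
    (r : (E → Bool) × Fin (L + 1)) (v : E → ℝ≥0) (π : List E) :
    M.Indep (((theRule M ord L).accepted s r v π : Finset E) : Set E) := by
  unfold Rule.accepted
  apply foldl_indep
  simp

lemma single_run (M : Matroid E) (ord : E → ℕ) (L : ℕ) (s : E → ℝ≥0) (b : E → Bool)
    (v : E → ℝ≥0) (j : Fin (L + 1)) (hj : (j : ℕ) = 0) (e : E)
    (he : M.Indep {e} ∧ Beats M ord s b e (v e))
    (hothers : ∀ f, f ≠ e → ¬(M.Indep {f} ∧ Beats M ord s b f (v f))) :
    ∀ (l : List E) (st : Finset E × List (E × ℝ≥0)), (st.1 = ∅ ∨ st.1 = {e}) →
      (l.foldl ((theRule M ord L).step s (b, j) v) st).1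
        = if (e ∈ l ∨ st.1 = {e}) then {e} else ∅ := by
  classical
  intro l
  induction l with
  | nil =>
    intro st hst
    rcases hst with h | h
    · have hne : st.1 ≠ {e} := by rw [h]; exact (Finset.singleton_ne_empty e).symm
      simp [h]
    · simp [h]
  | cons f l ih =>
    intro st hst
    rw [List.foldl_cons]
    by_cases hfe : f = e
    · subst hfe
      have hst' : ((theRule M ord L).step s (b, j) v st f).1 = {f} := by
        unfold Rule.step
        dsimp only
        rcases hst with h | h
        · have hacc : (theRule M ord L).accept s (b, j) st.1 st.2 f (v f) = true := by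
            simp only [theRule, hj, if_true]
            rw [decide_eq_true_eq]
            exact ⟨h, he.1, he.2⟩
          rw [if_pos hacc, h]
          simp
        · have hacc : ¬ (theRule M ord L).accept s (b, j) st.1 st.2 f (v f) = true := by
            simp only [theRule, hj, if_true]
            rw [decide_eq_true_eq]
            intro hh
            rw [h] at hh
            exact Finset.singleton_ne_empty f hh.1
          rw [if_neg hacc, h]
      rw [ih _ (Or.inr hst')]
      simp [hst']
    · have hst' : ((theRule M ord L).step s (b, j) v st f).1 = st.1 := by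
        unfold Rule.step
        dsimp only
        have hacc : ¬ (theRule M ord L).accept s (b, j) st.1 st.2 f (v f) = true := by
          simp only [theRule, hj, if_true]
          rw [decide_eq_true_eq]
          intro hh
          exact hothers f hfe ⟨hh.2.1, hh.2.2⟩
        rw [if_neg hacc]
      rw [ih _ (by rw [hst']; exact hst), hst']
      have : e ∈ f :: l ↔ e ∈ l := by
        rw [List.mem_cons]
        constructor
        · rintro (h | h)
          · exact absurd h.symm hfe
          · exact h
        · exact Or.inr
      simp only [this]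

/-- In the single mode, a unique element that is a non-loop and beats all samples is the
accepted set, whatever the arrival order. -/
lemma single_accepted (M : Matroid E) (ord : E → ℕ) (L : ℕ) (s : E → ℝ≥0) (b : E → Bool)
    (v : E → ℝ≥0) (j : Fin (L + 1)) (hj : (j : ℕ) = 0) (e : E)
    (he : M.Indep {e} ∧ Beats M ord s b e (v e))
    (hothers : ∀ f, f ≠ e → ¬(M.Indep {f} ∧ Beats M ord s b f (v f)))
    (π : List E) (hπ : e ∈ π) :
    (theRule M ord L).accepted s (b, j) v π = {e} := by
  unfold Rule.accepted
  rw [single_run M ord L s b v j hj e he hothers π _ (Or.inl rfl)]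
  simp [hπ]

lemma bucket_run (M : Matroid E) (ord : E → ℕ) (L : ℕ) (s : E → ℝ≥0) (b : E → Bool)
    (v : E → ℝ≥0) (j : Fin (L + 1)) (hj : (j : ℕ) ≠ 0) :
    ∀ (l : List E) (st : Finset E × List (E × ℝ≥0)) (P : Finset E),
      (M.Indep (st.1 : Set E) ∧ (∀ f ∈ st.1, InBucket (maxS M s) j (v f)) ∧
        ∀ f ∈ P, InBucket (maxS M s) j (v f) → f ∉ st.1 →
          ¬ M.Indep (insert f (st.1 : Set E))) →
      (M.Indep ((l.foldl ((theRule M ord L).step s (b, j) v) st).1 : Set E) ∧
        (∀ f ∈ (l.foldl ((theRule M ord L).step s (b, j) v) st).1,
          InBucket (maxS M s) j (v f)) ∧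
        ∀ f, (f ∈ P ∨ f ∈ l) → InBucket (maxS M s) j (v f) →
          f ∉ (l.foldl ((theRule M ord L).step s (b, j) v) st).1 →
          ¬ M.Indep (insert f ((l.foldl ((theRule M ord L).step s (b, j) v) st).1 : Set E))) := by
  classical
  intro l
  induction l with
  | nil =>
    intro st P h
    refine ⟨h.1, h.2.1, ?_⟩
    intro f hf
    rcases hf with hf | hf
    · exact h.2.2 f hf
    · simp at hf
  | cons e l ih =>
    intro st P h
    rw [List.foldl_cons]
    obtain ⟨hind, hbk, hmax⟩ := h
    have key : (M.Indep (((theRule M ord L).step s (b, j) v st e).1 : Set E) ∧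
        (∀ f ∈ ((theRule M ord L).step s (b, j) v st e).1, InBucket (maxS M s) j (v f)) ∧
        ∀ f ∈ insert e P, InBucket (maxS M s) j (v f) →
          f ∉ ((theRule M ord L).step s (b, j) v st e).1 →
          ¬ M.Indep (insert f (((theRule M ord L).step s (b, j) v st e).1 : Set E))) := by
      unfold Rule.step
      dsimp only
      by_cases hacc : (theRule M ord L).accept s (b, j) st.1 st.2 e (v e) = true
      · rw [if_pos hacc]
        have hacc' := hacc
        simp only [theRule, hj, if_false] at hacc'
        rw [decide_eq_true_eq] at hacc'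
        refine ⟨?_, ?_, ?_⟩
        · simpa [Finset.coe_insert] using hacc'.2
        · intro f hf
          rw [Finset.mem_insert] at hf
          rcases hf with rfl | hf
          · exact hacc'.1
          · exact hbk f hf
        · intro f hf hfb hfA hcon
          rw [Finset.mem_insert] at hf hfA
          push Not at hfA
          rcases hf with rfl | hf
          · exact hfA.1 rfl
          · apply hmax f hf hfb hfA.2
            apply hcon.subset
            rw [Finset.coe_insert]
            exact Set.insert_subset_insert (Set.subset_insert _ _)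
      · rw [if_neg hacc]
        refine ⟨hind, hbk, ?_⟩
        intro f hf hfb hfA hcon
        rw [Finset.mem_insert] at hf
        rcases hf with rfl | hf
        · apply hacc
          simp only [theRule, hj, if_false]
          rw [decide_eq_true_eq]
          exact ⟨hfb, hcon⟩
        · exact hmax f hf hfb hfA hcon
    have := ih _ (insert e P) key
    refine ⟨this.1, this.2.1, ?_⟩
    intro f hf
    apply this.2.2 f
    rcases hf with hf | hf
    · exact Or.inl (Finset.mem_insert_of_mem hf)
    · rw [List.mem_cons] at hf
      rcases hf with rfl | hf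
      · exact Or.inl (Finset.mem_insert_self _ _)
      · exact Or.inr hf

/-- In bucket mode, for an order containing every element, the accepted set is independent,
lies in the bucket and cannot be extended inside the bucket. -/
lemma bucket_accepted (M : Matroid E) (ord : E → ℕ) (L : ℕ) (s : E → ℝ≥0) (b : E → Bool)
    (v : E → ℝ≥0) (j : Fin (L + 1)) (hj : (j : ℕ) ≠ 0) (π : List E) (hπ : ∀ e, e ∈ π) :
    M.Indep (((theRule M ord L).accepted s (b, j) v π : Finset E) : Set E) ∧
      (∀ f ∈ (theRule M ord L).accepted s (b, j) v π, InBucket (maxS M s) j (v f)) ∧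
      ∀ f, InBucket (maxS M s) j (v f) → f ∉ (theRule M ord L).accepted s (b, j) v π →
        ¬ M.Indep (insert f (((theRule M ord L).accepted s (b, j) v π : Finset E) : Set E)) := by
  unfold Rule.accepted
  have := bucket_run M ord L s b v j hj π (∅, []) ∅ (by simp)
  refine ⟨this.1, this.2.1, ?_⟩
  intro f hfb hfA
  exact this.2.2 f (Or.inr (hπ f)) hfb hfA

end Vale.Agent.Lib.P331
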