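import Mathlib
import Vale.Agent.Lib.P331.Defs
import Vale.Agent.Lib.P331.Run

/-!
Pointwise (per outcome) comparisons between the optimum and what the rule collects.
-/

namespace Vale.Agent.Lib.P331

open scoped NNReal

variable {E : Type*} [Fintype E] [DecidableEq E]

omit [Fintype E] in
lemma card_le_of_maximal (M : Matroid E) (X : Set E) (A I : Finset E)
    (hA : M.Indep (A : Set E)) (hAX : (A : Set E) ⊆ X)
    (hmax : ∀ f ∈ X, f ∉ A → ¬ M.Indep (insert f (A : Set E)))
    (hI : M.Indep (I : Set E)) (hIX : (I : Set E) ⊆ X) : I.card ≤ A.card := by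
  have hbasis : M.IsBasis' (A : Set E) X := by
    refine ⟨⟨hA, hAX⟩, ?_⟩
    intro J hJ hAJ f hf
    by_contra hfA
    exact hmax f (hJ.2 hf) (by simpa using hfA) (hJ.1.subset (Set.insert_subset hf hAJ))
  have h1 := hbasis.encard_eq_eRk
  have h2 := hI.encard_le_eRk_of_subset hIX
  rw [← h1, Set.encard_coe_eq_coe_finsetCard, Set.encard_coe_eq_coe_finsetCard] at h2
  exact_mod_cast h2

omit [Fintype E] [DecidableEq E] in
lemma bucket_value (m : ℝ≥0) (j : ℕ) (hj : j ≠ 0) (v : E → ℝ≥0) (A I : Finset E)
    (hA : ∀ f ∈ A, InBucket m j (v f)) (hI : ∀ f ∈ I, InBucket m j (v f))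
    (hcard : I.card ≤ A.card) :
    ∑ e ∈ I, v e ≤ 2 * ∑ e ∈ A, v e := by
  have h2 : m / 2 ^ (j - 1) = 2 * (m / 2 ^ j) := by
    obtain ⟨k, rfl⟩ := Nat.exists_eq_succ_of_ne_zero hj
    simp only [Nat.succ_sub_one, pow_succ]
    field_simp
  have hc : (I.card : ℝ≥0) ≤ (A.card : ℝ≥0) := by exact_mod_cast hcard
  calc ∑ e ∈ I, v e ≤ ∑ _e ∈ I, m / 2 ^ (j - 1) := Finset.sum_le_sum (fun e he => (hI e he).2)
    _ = I.card * (m / 2 ^ (j - 1)) := by rw [Finset.sum_const, nsmul_eq_mul]
    _ ≤ A.card * (m / 2 ^ (j - 1)) := mul_le_mul_of_nonneg_right hc zero_le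
    _ = 2 * (A.card * (m / 2 ^ j)) := by rw [h2]; ring
    _ = 2 * ∑ _e ∈ A, m / 2 ^ j := by rw [Finset.sum_const, nsmul_eq_mul]
    _ ≤ 2 * ∑ e ∈ A, v e :=
        mul_le_mul_of_nonneg_left (Finset.sum_le_sum (fun e he => (hA e he).1.le)) zero_le

/-- In bucket mode the rule collects at least half of the optimum of the values restricted to
its bucket, whatever the arrival order. -/
lemma bucket_gain (M : Matroid E) (ord : E → ℕ) (L : ℕ) (s : E → ℝ≥0) (b : E → Bool)
    (v : E → ℝ≥0) (j : Fin (L + 1)) (hj : (j : ℕ) ≠ 0) (π : List E) (hπ : ∀ e, e ∈ π) :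
    opt M (fun e => open Classical in if InBucket (maxS M s) j (v e) then v e else 0)
      ≤ 2 * ∑ e ∈ (theRule M ord L).accepted s (b, j) v π, v e := by
  classical
  obtain ⟨hA, hAb, hAmax⟩ := bucket_accepted M ord L s b v j hj π hπ
  unfold opt
  apply Finset.sup_le
  intro I hI
  rw [Finset.mem_filter] at hI
  have h1 : ∑ e ∈ I, (if InBucket (maxS M s) j (v e) then v e else 0)
      = ∑ e ∈ I.filter (fun e => InBucket (maxS M s) j (v e)), v e := by
    rw [Finset.sum_filter]
  rw [h1]
  have hI' : M.Indep ((I.filter (fun e => InBucket (maxS M s) j (v e)) : Finset E) : Set E) :=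
    hI.2.subset (by exact_mod_cast Finset.filter_subset _ _)
  have hcard := card_le_of_maximal M {e | InBucket (maxS M s) j (v e)} _ _ hA
    (fun f hf => hAb f (by exact_mod_cast hf)) (fun f hf hfA => hAmax f hf hfA) hI'
    (fun f hf => (Finset.mem_filter.mp (by exact_mod_cast hf)).2)
  exact bucket_value _ _ hj v _ _ hAb (fun f hf => (Finset.mem_filter.mp hf).2) hcard

lemma exists_bucket (m x : ℝ≥0) (L : ℕ) (h1 : x ≤ m) (h2 : m / 2 ^ L < x) :
    ∃ j ∈ Finset.Icc 1 L, InBucket m j x := by
  classical
  have hex : ∃ j, m / 2 ^ j < x := ⟨L, h2⟩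
  have hjL : Nat.find hex ≤ L := Nat.find_min' hex h2
  have hjspec : m / 2 ^ (Nat.find hex) < x := Nat.find_spec hex
  have hj0 : Nat.find hex ≠ 0 := by
    intro h0
    rw [h0] at hjspec
    simp only [pow_zero, div_one] at hjspec
    exact absurd hjspec (not_lt.mpr h1)
  refine ⟨Nat.find hex, Finset.mem_Icc.mpr ⟨Nat.one_le_iff_ne_zero.mpr hj0, hjL⟩, hjspec, ?_⟩
  have := Nat.find_min hex (Nat.sub_lt (Nat.pos_of_ne_zero hj0) Nat.one_pos)
  exact not_lt.mp this

/-- The total value of the non-loop elements whose value beats the samples of all other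
non-loop elements. -/
noncomputable def topSum (M : Matroid E) (ord : E → ℕ) (s v : E → ℝ≥0) : ℝ≥0 :=
  open Classical in
  ∑ e, if (M.Indep {e} ∧ ∀ f, f ≠ e → M.Indep {f} → (s f < v e ∨ (s f = v e ∧ ord f < ord e)))
    then v e else 0

omit [DecidableEq E] in
lemma card_le_rank (M : Matroid E) (I : Finset E) (hI : M.Indep (I : Set E)) :
    I.card ≤ M.eRank.toNat := by
  have h1 : (I : Set E).encard ≤ M.eRank := hI.encard_le_eRank
  rw [Set.encard_coe_eq_coe_finsetCard] at h1
  have hfin : M.eRank ≠ ⊤ := by
    have h2 : M.eRank ≤ M.E.encard := M.eRank_le_encard_ground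
    have h3 : M.E.encard ≠ ⊤ := by
      rw [Set.encard_ne_top_iff]
      exact Set.toFinite _
    exact ne_top_of_le_ne_top h3 h2
  have := ENat.toNat_le_toNat h1 hfin
  simpa using this

/-- The optimum is at most the top part, plus the largest sample, plus the bucket optima. -/
lemma opt_decomp (M : Matroid E) (ord : E → ℕ) (L : ℕ) (hL : M.eRank.toNat ≤ 2 ^ L)
    (s v : E → ℝ≥0) :
    opt M v ≤ topSum M ord s v + maxS M s
      + ∑ j ∈ Finset.Icc 1 L,
          opt M (fun e => open Classical in if InBucket (maxS M s) j (v e) then v e else 0) := by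
  classical
  set m := maxS M s with hm
  have hbuck : ∀ j, ∀ I : Finset E, M.Indep (I : Set E) →
      ∑ e ∈ I, (if InBucket m j (v e) then v e else 0)
        ≤ opt M (fun e => if InBucket m j (v e) then v e else 0) := by
    intro j I hI
    unfold opt
    exact Finset.le_sup (f := fun I : Finset E => ∑ e ∈ I, (if InBucket m j (v e) then v e else 0))
      (Finset.mem_filter.mpr ⟨Finset.mem_univ I, hI⟩)
  have hmain : ∀ I : Finset E, M.Indep (I : Set E) →
      ∑ e ∈ I, v e ≤ topSum M ord s v + m
        + ∑ j ∈ Finset.Icc 1 L, opt M (fun e => if InBucket m j (v e) then v e else 0) := by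
    intro I hI
    have key : ∀ e, v e ≤ (if m < v e then v e else 0) + (if v e ≤ m / 2 ^ L then v e else 0)
        + ∑ j ∈ Finset.Icc 1 L, (if InBucket m j (v e) then v e else 0) := by
      intro e
      by_cases h1 : m < v e
      · rw [if_pos h1]
        exact le_trans le_self_add le_self_add
      · by_cases h2 : v e ≤ m / 2 ^ L
        · rw [if_pos h2]
          exact le_trans le_add_self le_self_add
        · obtain ⟨j, hj, hjb⟩ := exists_bucket m (v e) L (not_lt.mp h1) (not_le.mp h2)
          have : v e ≤ ∑ j ∈ Finset.Icc 1 L, (if InBucket m j (v e) then v e else 0) := by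
            have h3 := Finset.single_le_sum
              (f := fun j => (if InBucket m j (v e) then v e else 0))
              (fun j _ => zero_le) hj
            simpa [if_pos hjb] using h3
          exact le_trans this le_add_self
    have hA : ∑ e ∈ I, (if m < v e then v e else 0) ≤ topSum M ord s v := by
      unfold topSum
      refine le_trans (Finset.sum_le_sum ?_) (Finset.sum_le_sum_of_subset (Finset.subset_univ I))
      intro e he
      by_cases h1 : m < v e
      · rw [if_pos h1]
        have hcond : M.Indep {e} ∧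
            ∀ f, f ≠ e → M.Indep {f} → (s f < v e ∨ (s f = v e ∧ ord f < ord e)) := by
          refine ⟨hI.subset (by simpa using he), ?_⟩
          intro f _ hf
          left
          have : s f ≤ m := by
            rw [hm]
            unfold maxS
            exact Finset.le_sup (f := s) (Finset.mem_filter.mpr ⟨Finset.mem_univ f, hf⟩)
          exact lt_of_le_of_lt this h1
        rw [if_pos hcond]
      · rw [if_neg h1]
        exact zero_le
    have hB : ∑ e ∈ I, (if v e ≤ m / 2 ^ L then v e else 0) ≤ m := by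
      have h1 : ∑ e ∈ I, (if v e ≤ m / 2 ^ L then v e else 0) ≤ ∑ _e ∈ I, m / 2 ^ L := by
        apply Finset.sum_le_sum
        intro e _
        split_ifs with h
        · exact h
        · exact zero_le
      have h2 : (I.card : ℝ≥0) ≤ 2 ^ L := by
        have := (card_le_rank M I hI).trans hL
        exact_mod_cast this
      calc ∑ e ∈ I, (if v e ≤ m / 2 ^ L then v e else 0) ≤ ∑ _e ∈ I, m / 2 ^ L := h1
        _ = I.card * (m / 2 ^ L) := by rw [Finset.sum_const, nsmul_eq_mul]
        _ ≤ 2 ^ L * (m / 2 ^ L) := mul_le_mul_of_nonneg_right h2 zero_le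
        _ = m := by field_simp
    have hC : ∑ e ∈ I, ∑ j ∈ Finset.Icc 1 L, (if InBucket m j (v e) then v e else 0)
        ≤ ∑ j ∈ Finset.Icc 1 L, opt M (fun e => if InBucket m j (v e) then v e else 0) := by
      rw [Finset.sum_comm]
      exact Finset.sum_le_sum (fun j _ => hbuck j I hI)
    calc ∑ e ∈ I, v e
        ≤ ∑ e ∈ I, ((if m < v e then v e else 0) + (if v e ≤ m / 2 ^ L then v e else 0)
          + ∑ j ∈ Finset.Icc 1 L, (if InBucket m j (v e) then v e else 0)) :=
          Finset.sum_le_sum (fun e _ => key e)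
      _ = ∑ e ∈ I, (if m < v e then v e else 0) + ∑ e ∈ I, (if v e ≤ m / 2 ^ L then v e else 0)
          + ∑ e ∈ I, ∑ j ∈ Finset.Icc 1 L, (if InBucket m j (v e) then v e else 0) := by
          rw [Finset.sum_add_distrib, Finset.sum_add_distrib]
      _ ≤ topSum M ord s v + m
          + ∑ j ∈ Finset.Icc 1 L, opt M (fun e => if InBucket m j (v e) then v e else 0) :=
          add_le_add (add_le_add hA hB) hC
  have : opt M v ≤ topSum M ord s v + m
      + ∑ j ∈ Finset.Icc 1 L, opt M (fun e => if InBucket m j (v e) then v e else 0) := by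
    unfold opt
    apply Finset.sup_le
    intro I hI
    rw [Finset.mem_filter] at hI
    have := hmain I hI.2
    unfold opt at this
    exact this
  exact this

/-- `e` is the only non-loop element whose value beats all samples. -/
def UniqueActive (M : Matroid E) (ord : E → ℕ) (s : E → ℝ≥0) (b : E → Bool) (v : E → ℝ≥0)
    (e : E) : Prop :=
  (M.Indep {e} ∧ Beats M ord s b e (v e)) ∧
    ∀ f, f ≠ e → ¬(M.Indep {f} ∧ Beats M ord s b f (v f))

/-- In single mode the rule collects the value of the unique active element, if there is one,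
whatever the arrival order. -/
lemma single_gain (M : Matroid E) (ord : E → ℕ) (L : ℕ) (s : E → ℝ≥0) (b : E → Bool)
    (v : E → ℝ≥0) (j : Fin (L + 1)) (hj : (j : ℕ) = 0) (π : List E) (hπ : ∀ e, e ∈ π) :
    (∑ e, open Classical in if UniqueActive M ord s b v e then v e else 0)
      ≤ ∑ e ∈ (theRule M ord L).accepted s (b, j) v π, v e := by
  classical
  by_cases h : ∃ e, UniqueActive M ord s b v e
  · obtain ⟨e, he⟩ := h
    rw [single_accepted M ord L s b v j hj e he.1 he.2 π (hπ e), Finset.sum_singleton]
    have hoth : ∀ f, f ≠ e → ¬ UniqueActive M ord s b v f := by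
      intro f hf hUf
      exact hUf.2 e (Ne.symm hf) he.1
    rw [Finset.sum_eq_single e]
    · rw [if_pos he]
    · intro f _ hf
      rw [if_neg (hoth f hf)]
    · intro h
      exact absurd (Finset.mem_univ e) h
  · push Not at h
    have : (∑ e, if UniqueActive M ord s b v e then v e else 0) = 0 :=
      Finset.sum_eq_zero (fun e _ => if_neg (h e))
    rw [this]
    exact zero_le

end Vale.Agent.Lib.P331
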