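import Mathlib
import Vale.Agent.Lib.P331.Defs
import Vale.Agent.Lib.P331.Run
import Vale.Agent.Lib.P331.Pointwise

/-!
Exchanging samples and values: the symmetry behind the single-sample analysis.
-/

namespace Vale.Agent.Lib.P331

open MeasureTheory
open scoped NNReal ENNReal

variable {E : Type*} [Fintype E] [DecidableEq E]

/-- The samples after exchanging sample and value at the elements where `F` holds. -/
def sw1 (F : E → Prop) [DecidablePred F] (s v : E → ℝ≥0) : E → ℝ≥0 :=
  fun f => if F f then v f else s f

/-- The values after exchanging sample and value at the elements where `F` holds. -/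
def sw2 (F : E → Prop) [DecidablePred F] (s v : E → ℝ≥0) : E → ℝ≥0 :=
  fun f => if F f then s f else v f

/-- Flip the seed bits at the elements where `F` holds. -/
def flipOn (F : E → Prop) [DecidablePred F] (b : E → Bool) : E → Bool :=
  fun f => if F f then !b f else b f

/-- Exchange sample and value at the elements where `F` holds. -/
def swapFun (F : E → Prop) [DecidablePred F] (ω : E → ℝ≥0 × ℝ≥0) : E → ℝ≥0 × ℝ≥0 :=
  fun e => if F e then (ω e).swap else ω e

omit [Fintype E] [DecidableEq E] in
lemma swapFun_invol (F : E → Prop) [DecidablePred F] : Function.Involutive (swapFun F) := by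
  intro ω
  funext e
  unfold swapFun
  split_ifs <;> simp

omit [Fintype E] [DecidableEq E] in
lemma flipOn_invol (F : E → Prop) [DecidablePred F] : Function.Involutive (flipOn F) := by
  intro b
  funext e
  unfold flipOn
  split_ifs <;> simp

omit [Fintype E] [DecidableEq E] in
lemma measurable_swapFun (F : E → Prop) [DecidablePred F] : Measurable (swapFun F) := by
  apply measurable_pi_lambda
  intro e
  unfold swapFun
  split_ifs
  · exact measurable_swap.comp (measurable_pi_apply e)
  · exact measurable_pi_apply e

/-- `swapFun F` as a measurable equivalence. -/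
def swapEquiv (F : E → Prop) [DecidablePred F] : (E → ℝ≥0 × ℝ≥0) ≃ᵐ (E → ℝ≥0 × ℝ≥0) where
  toFun := swapFun F
  invFun := swapFun F
  left_inv := swapFun_invol F
  right_inv := swapFun_invol F
  measurable_toFun := measurable_swapFun F
  measurable_invFun := measurable_swapFun F

omit [DecidableEq E] in
lemma swap_mp (D : E → Measure ℝ≥0) [∀ e, IsProbabilityMeasure (D e)]
    (F : E → Prop) [DecidablePred F] :
    MeasurePreserving (swapFun F) (Measure.pi fun e => (D e).prod (D e))
      (Measure.pi fun e => (D e).prod (D e)) := by
  have h := measurePreserving_pi (fun e => (D e).prod (D e)) (fun e => (D e).prod (D e))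
    (f := fun e => if F e then Prod.swap else id)
    (fun e => by
      split_ifs
      · exact Measure.measurePreserving_swap
      · exact MeasurePreserving.id _)
  have heq : swapFun F = fun (a : E → ℝ≥0 × ℝ≥0) i => (if F i then Prod.swap else id) (a i) := by
    funext a i
    unfold swapFun
    split_ifs <;> rfl
  rw [heq]
  exact h

omit [DecidableEq E] in
lemma lintegral_swap (D : E → Measure ℝ≥0) [∀ e, IsProbabilityMeasure (D e)]
    (F : E → Prop) [DecidablePred F] (g : (E → ℝ≥0 × ℝ≥0) → ℝ≥0∞) :
    ∫⁻ ω, g (swapFun F ω) ∂(Measure.pi fun e => (D e).prod (D e))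
      = ∫⁻ ω, g ω ∂(Measure.pi fun e => (D e).prod (D e)) :=
  (MeasurePreserving.lintegral_map_equiv g (swapEquiv F) (swap_mp D F)).symm

lemma sum_lintegral_swap (D : E → Measure ℝ≥0) [∀ e, IsProbabilityMeasure (D e)]
    (F : E → Prop) [DecidablePred F] (G : (E → ℝ≥0 × ℝ≥0) → (E → Bool) → ℝ≥0∞) :
    ∑ b : E → Bool, ∫⁻ ω, G (swapFun F ω) (flipOn F b) ∂(Measure.pi fun e => (D e).prod (D e))
      = ∑ b : E → Bool, ∫⁻ ω, G ω b ∂(Measure.pi fun e => (D e).prod (D e)) := by
  have h1 : ∀ b : E → Bool,
      ∫⁻ ω, G (swapFun F ω) (flipOn F b) ∂(Measure.pi fun e => (D e).prod (D e))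
        = ∫⁻ ω, G ω (flipOn F b) ∂(Measure.pi fun e => (D e).prod (D e)) :=
    fun b => lintegral_swap D F (fun ω => G ω (flipOn F b))
  simp_rw [h1]
  exact Equiv.sum_comp (flipOn_invol F).toPerm
    (fun b => ∫⁻ ω, G ω b ∂(Measure.pi fun e => (D e).prod (D e)))

omit [Fintype E] [DecidableEq E] in
lemma smp_swap (F : E → Prop) [DecidablePred F] (ω : E → ℝ≥0 × ℝ≥0) :
    (fun e => (swapFun F ω e).1) = sw1 F (fun e => (ω e).1) (fun e => (ω e).2) := by
  funext e
  unfold swapFun sw1
  split_ifs <;> simp

omit [Fintype E] [DecidableEq E] in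
lemma val_swap (F : E → Prop) [DecidablePred F] (ω : E → ℝ≥0 × ℝ≥0) :
    (fun e => (swapFun F ω e).2) = sw2 F (fun e => (ω e).1) (fun e => (ω e).2) := by
  funext e
  unfold swapFun sw2
  split_ifs <;> simp

/-- `e` is active: a non-loop whose value beats all samples. -/
def Act (M : Matroid E) (ord : E → ℕ) (s v : E → ℝ≥0) (b : E → Bool) (e : E) : Prop :=
  M.Indep {e} ∧ Beats M ord s b e (v e)

/-- The value of `e` beats the values of all other non-loop elements. -/
def AboveVals (M : Matroid E) (ord : E → ℕ) (v : E → ℝ≥0) (e : E) : Prop :=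
  ∀ f, f ≠ e → M.Indep {f} → (v f < v e ∨ (v f = v e ∧ ord f < ord e))

/-- The value of `e` is the top among all samples and values of non-loop elements. -/
def Top (M : Matroid E) (ord : E → ℕ) (s v : E → ℝ≥0) (b : E → Bool) (e : E) : Prop :=
  Act M ord s v b e ∧ AboveVals M ord v e

/-- The value of `e` is the top, and no other element is active. -/
def TopU (M : Matroid E) (ord : E → ℕ) (s v : E → ℝ≥0) (b : E → Bool) (e : E) : Prop :=
  Top M ord s v b e ∧ ∀ f, f ≠ e → ¬ Act M ord s v b f

omit [Fintype E] [DecidableEq E] in
lemma topU_unique (M : Matroid E) (ord : E → ℕ) (s v : E → ℝ≥0) (b : E → Bool) (e : E)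
    (h : TopU M ord s v b e) : UniqueActive M ord s b v e :=
  ⟨h.1.1, fun f hf hA => h.2 f hf hA⟩

omit [Fintype E] in
lemma top_swap_ne (M : Matroid E) (ord : E → ℕ) (s v : E → ℝ≥0) (b : E → Bool) (e : E) :
    Top M ord (sw1 (fun f => f ≠ e) s v) (sw2 (fun f => f ≠ e) s v) (flipOn (fun f => f ≠ e) b) e
      ↔ Top M ord s v b e := by
  unfold Top Act Beats AboveVals sw1 sw2 flipOn
  simp only [ne_eq, not_true_eq_false, if_false]
  constructor
  · rintro ⟨⟨h1, h2, h3⟩, h4⟩
    refine ⟨⟨h1, h2, ?_⟩, ?_⟩
    · intro f hf hN
      have := h4 f hf hN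
      simpa [hf] using this
    · intro f hf hN
      have := h3 f hf hN
      simpa [hf] using this
  · rintro ⟨⟨h1, h2, h3⟩, h4⟩
    refine ⟨⟨h1, h2, ?_⟩, ?_⟩
    · intro f hf hN
      have := h4 f hf hN
      simpa [hf] using this
    · intro f hf hN
      have := h3 f hf hN
      simpa [hf] using this

omit [Fintype E] in
/-- If the value of `e` is the top, then in the outcome or in the outcome with all other
elements exchanged, no other element is active. -/
lemma topU_or (M : Matroid E) (ord : E → ℕ) (s v : E → ℝ≥0) (b : E → Bool) (e : E)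
    (h : Top M ord s v b e) :
    TopU M ord s v b e ∨
      TopU M ord (sw1 (fun f => f ≠ e) s v) (sw2 (fun f => f ≠ e) s v)
        (flipOn (fun f => f ≠ e) b) e := by
  by_cases hall : ∀ f, f ≠ e → ¬ Act M ord s v b f
  · exact Or.inl ⟨h, hall⟩
  · right
    push Not at hall
    obtain ⟨f, hfe, hAf⟩ := hall
    refine ⟨(top_swap_ne M ord s v b e).mpr h, ?_⟩
    intro g hge hAg
    unfold Act Beats at hAf hAg
    obtain ⟨hNf, hownf, hothf⟩ := hAf
    obtain ⟨hNg, howng, hothg⟩ := hAg
    by_cases hgf : g = f
    · subst hgf
      simp only [sw1, sw2, flipOn, ne_eq, hge, not_false_eq_true, if_true] at howng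
      rcases hownf with h1 | ⟨h1, h2⟩
      · rcases howng with h3 | ⟨h3, h4⟩
        · exact lt_asymm h1 h3
        · rw [h3] at h1
          exact lt_irrefl _ h1
      · rcases howng with h3 | ⟨h3, h4⟩
        · rw [h1] at h3
          exact lt_irrefl _ h3
        · rw [h2] at h4
          simp at h4
    · have h5 := hothg f (fun h => hgf h.symm) hNf
      have h6 := hothf g hgf hNg
      simp only [sw1, sw2, ne_eq, hge, hfe, not_false_eq_true, if_true] at h5
      rcases h5 with h5 | ⟨h5, h5'⟩
      · rcases h6 with h6 | ⟨h6, h6'⟩
        · exact lt_asymm h5 h6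
        · rw [h6] at h5
          exact lt_irrefl _ h5
      · rcases h6 with h6 | ⟨h6, h6'⟩
        · rw [h5] at h6
          exact lt_irrefl _ h6
        · exact lt_asymm h5' h6'

omit [Fintype E] [DecidableEq E] in
lemma sw1_true (s v : E → ℝ≥0) : sw1 (fun _ => True) s v = v := by
  funext f; simp [sw1]

omit [Fintype E] [DecidableEq E] in
lemma sw2_true (s v : E → ℝ≥0) : sw2 (fun _ => True) s v = s := by
  funext f; simp [sw2]

omit [Fintype E] [DecidableEq E] in
lemma flipOn_true (b : E → Bool) : flipOn (fun _ => True) b = fun f => !b f := by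
  funext f; simp [flipOn]

omit [DecidableEq E] in
/-- Either a value or a sample is the top of everything, and it is at least every value of a
non-loop element. -/
lemma maxV_le_top (M : Matroid E) (ord : E → ℕ) (hord : Function.Injective ord)
    (s v : E → ℝ≥0) (b : E → Bool) :
    maxS M v ≤ ∑ e, ((open Classical in if Top M ord s v b e then v e else 0)
      + (open Classical in if Top M ord v s (fun f => !b f) e then s e else 0)) := by
  classical
  by_cases hne : (Finset.univ.filter (fun f : E => M.Indep {f})).Nonempty
  · obtain ⟨e0, he0, hmax0⟩ := Finset.exists_max_image _ (fun f => max (s f) (v f)) hne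
    set x := max (s e0) (v e0) with hx
    have hne2 : ((Finset.univ.filter (fun f : E => M.Indep {f})).filter
        (fun f => max (s f) (v f) = x)).Nonempty := ⟨e0, Finset.mem_filter.mpr ⟨he0, rfl⟩⟩
    obtain ⟨e, he, hmaxe⟩ := Finset.exists_max_image _ ord hne2
    rw [Finset.mem_filter, Finset.mem_filter] at he
    obtain ⟨⟨_, hNe⟩, hxe⟩ := he
    -- every slot of another non-loop element is below `x` in the tie-broken order
    have hbelow : ∀ f, f ≠ e → M.Indep {f} → ∀ y, y ≤ max (s f) (v f) →
        (y < x ∨ (y = x ∧ ord f < ord e)) := by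
      intro f hfe hNf y hy
      have h1 : max (s f) (v f) ≤ x := hmax0 f (Finset.mem_filter.mpr ⟨Finset.mem_univ f, hNf⟩)
      rcases lt_or_eq_of_le (hy.trans h1) with h2 | h2
      · exact Or.inl h2
      · right
        refine ⟨h2, ?_⟩
        have hfx : max (s f) (v f) = x := le_antisymm h1 (h2 ▸ hy)
        have h3 : ord f ≤ ord e := hmaxe f (Finset.mem_filter.mpr
          ⟨Finset.mem_filter.mpr ⟨Finset.mem_univ f, hNf⟩, hfx⟩)
        exact lt_of_le_of_ne h3 (fun h => hfe (hord h))
    have hmaxle : maxS M v ≤ x := by
      unfold maxS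
      apply Finset.sup_le
      intro f hf
      exact (le_max_right (s f) (v f)).trans (hmax0 f hf)
    by_cases hcase : s e < v e ∨ (s e = v e ∧ b e = true)
    · -- the value of `e` is the top
      have hxv : x = v e := by
        rw [← hxe]
        apply max_eq_right
        rcases hcase with h | h
        · exact h.le
        · exact h.1.le
      have hTop : Top M ord s v b e := by
        refine ⟨⟨hNe, hcase, ?_⟩, ?_⟩
        · intro f hfe hNf
          have := hbelow f hfe hNf (s f) (le_max_left _ _)
          rwa [hxv] at this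
        · intro f hfe hNf
          have := hbelow f hfe hNf (v f) (le_max_right _ _)
          rwa [hxv] at this
      have h1 : v e ≤ (if Top M ord s v b e then v e else 0)
          + (if Top M ord v s (fun f => !b f) e then s e else 0) := by
        rw [if_pos hTop]
        exact le_self_add
      have h2 := Finset.single_le_sum
        (f := fun e => (if Top M ord s v b e then v e else 0)
          + (if Top M ord v s (fun f => !b f) e then s e else 0))
        (fun _ _ => zero_le) (Finset.mem_univ e)
      exact hmaxle.trans (hxv ▸ (h1.trans h2))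
    · -- the sample of `e` is the top
      push Not at hcase
      have hvs : v e ≤ s e := hcase.1
      have hxs : x = s e := by
        rw [← hxe]
        exact max_eq_left hvs
      have hown : v e < s e ∨ (v e = s e ∧ (!b e) = true) := by
        rcases lt_or_eq_of_le hvs with h | h
        · exact Or.inl h
        · right
          refine ⟨h, ?_⟩
          have := hcase.2 h.symm
          simpa using this
      have hTop : Top M ord v s (fun f => !b f) e := by
        refine ⟨⟨hNe, hown, ?_⟩, ?_⟩
        · intro f hfe hNf
          have := hbelow f hfe hNf (v f) (le_max_right _ _)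
          rwa [hxs] at this
        · intro f hfe hNf
          have := hbelow f hfe hNf (s f) (le_max_left _ _)
          rwa [hxs] at this
      have h1 : s e ≤ (if Top M ord s v b e then v e else 0)
          + (if Top M ord v s (fun f => !b f) e then s e else 0) := by
        rw [if_pos hTop]
        exact le_add_self
      have h2 := Finset.single_le_sum
        (f := fun e => (if Top M ord s v b e then v e else 0)
          + (if Top M ord v s (fun f => !b f) e then s e else 0))
        (fun _ _ => zero_le) (Finset.mem_univ e)
      exact hmaxle.trans (hxs ▸ (h1.trans h2))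
  · rw [Finset.not_nonempty_iff_eq_empty] at hne
    unfold maxS
    rw [hne, Finset.sup_empty]
    exact bot_le

end Vale.Agent.Lib.P331
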