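import Mathlib
import Vale.Agent.Lib.P331.Defs
import Vale.Agent.Lib.P331.Run
import Vale.Agent.Lib.P331.Pointwise
import Vale.Agent.Lib.P331.Swap

/-!
Integral inequalities for a measure on outcomes that is invariant under exchanging the sample
and the value of any set of elements.
-/

namespace Vale.Agent.Lib.P331

open MeasureTheory
open scoped NNReal ENNReal

variable {E : Type*} [Fintype E] [DecidableEq E]

/-- The measure `μ` on outcomes is invariant under exchanging sample and value on any set of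
elements. -/
def SwapInv (μ : Measure (E → ℝ≥0 × ℝ≥0)) : Prop :=
  ∀ (F : E → Prop) (_ : DecidablePred F) (g : (E → ℝ≥0 × ℝ≥0) → ℝ≥0∞),
    ∫⁻ ω, g (swapFun F ω) ∂μ = ∫⁻ ω, g ω ∂μ

lemma sum_lintegral_swapInv (μ : Measure (E → ℝ≥0 × ℝ≥0)) (hμ : SwapInv μ)
    (F : E → Prop) [DecidablePred F] (G : (E → ℝ≥0 × ℝ≥0) → (E → Bool) → ℝ≥0∞) :
    ∑ b : E → Bool, ∫⁻ ω, G (swapFun F ω) (flipOn F b) ∂μ
      = ∑ b : E → Bool, ∫⁻ ω, G ω b ∂μ := by
  have h1 : ∀ b : E → Bool,
      ∫⁻ ω, G (swapFun F ω) (flipOn F b) ∂μ = ∫⁻ ω, G ω (flipOn F b) ∂μ :=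
    fun b => hμ F inferInstance (fun ω => G ω (flipOn F b))
  simp_rw [h1]
  exact Equiv.sum_comp (flipOn_invol F).toPerm (fun b => ∫⁻ ω, G ω b ∂μ)

lemma measurable_finset_sup {α ι : Type*} [MeasurableSpace α] (t : Finset ι)
    (f : ι → α → ℝ≥0) (hf : ∀ i ∈ t, Measurable (f i)) :
    Measurable (fun a => t.sup (fun i => f i a)) := by
  classical
  induction t using Finset.induction_on with
  | empty =>
    simp only [Finset.sup_empty]
    exact measurable_const
  | insert i t hi ih =>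
    simp only [Finset.sup_insert]
    exact (hf i (Finset.mem_insert_self i t)).sup
      (ih (fun k hk => hf k (Finset.mem_insert_of_mem hk)))

omit [DecidableEq E] in
lemma measurable_maxS_smp (M : Matroid E) :
    Measurable (fun ω : E → ℝ≥0 × ℝ≥0 => maxS M (fun e => (ω e).1)) := by
  unfold maxS
  apply measurable_finset_sup
  intro i _
  fun_prop

omit [DecidableEq E] in
lemma measurable_maxS_val (M : Matroid E) :
    Measurable (fun ω : E → ℝ≥0 × ℝ≥0 => maxS M (fun e => (ω e).2)) := by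
  unfold maxS
  apply measurable_finset_sup
  intro i _
  fun_prop

omit [DecidableEq E] in
lemma lintegral_maxS_smp (M : Matroid E) (μ : Measure (E → ℝ≥0 × ℝ≥0)) (hμ : SwapInv μ) :
    ∫⁻ ω, (maxS M (fun e => (ω e).1) : ℝ≥0∞) ∂μ
      = ∫⁻ ω, (maxS M (fun e => (ω e).2) : ℝ≥0∞) ∂μ := by
  classical
  have h := hμ (fun _ => True) inferInstance (fun ω => (maxS M (fun e => (ω e).1) : ℝ≥0∞))
  rw [← h]
  apply lintegral_congr
  intro ω
  rw [smp_swap, sw1_true]

omit [Fintype E] [DecidableEq E] in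
lemma aboveVals_unique (M : Matroid E) (ord : E → ℕ) (v : E → ℝ≥0) (e e' : E) (hne : e ≠ e')
    (h : M.Indep {e} ∧ AboveVals M ord v e) (h' : M.Indep {e'} ∧ AboveVals M ord v e') :
    False := by
  have h1 := h.2 e' (Ne.symm hne) h'.1
  have h2 := h'.2 e hne h.1
  rcases h1 with h1 | ⟨h1, h1'⟩
  · rcases h2 with h2 | ⟨h2, h2'⟩
    · exact lt_asymm h1 h2
    · rw [h2] at h1
      exact lt_irrefl _ h1
  · rcases h2 with h2 | ⟨h2, h2'⟩
    · rw [h1] at h2
      exact lt_irrefl _ h2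
    · exact lt_asymm h1' h2'

omit [DecidableEq E] in
lemma sum_aboveVals_le (M : Matroid E) (ord : E → ℕ) (v : E → ℝ≥0) :
    (∑ e, open Classical in if (M.Indep {e} ∧ AboveVals M ord v e) then v e else 0)
      ≤ maxS M v := by
  classical
  by_cases h : ∃ e, M.Indep {e} ∧ AboveVals M ord v e
  · obtain ⟨e, he⟩ := h
    rw [Finset.sum_eq_single e]
    · rw [if_pos he]
      unfold maxS
      exact Finset.le_sup (f := v) (Finset.mem_filter.mpr ⟨Finset.mem_univ e, he.1⟩)
    · intro f _ hf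
      rw [if_neg (fun hf' => aboveVals_unique M ord v f e hf hf' he)]
    · intro h
      exact absurd (Finset.mem_univ e) h
  · push Not at h
    rw [Finset.sum_eq_zero (fun e _ => if_neg (fun he => h e he.1 he.2))]
    exact zero_le

lemma measurable_topSum_term (M : Matroid E) (ord : E → ℕ) (e : E) :
    Measurable (fun ω : E → ℝ≥0 × ℝ≥0 => open Classical in
      if (M.Indep {e} ∧ ∀ f, f ≠ e → M.Indep {f} →
          ((ω f).1 < (ω e).2 ∨ ((ω f).1 = (ω e).2 ∧ ord f < ord e)))
        then ((ω e).2 : ℝ≥0∞) else 0) := by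
  classical
  refine Measurable.ite (Measurable.setOf ?_) (by fun_prop) measurable_const
  fun_prop

omit [DecidableEq E] in
lemma measurable_aboveVals_term (M : Matroid E) (ord : E → ℕ) (e : E) :
    Measurable (fun ω : E → ℝ≥0 × ℝ≥0 => open Classical in
      if (M.Indep {e} ∧ AboveVals M ord (fun f => (ω f).2) e)
        then ((ω e).2 : ℝ≥0∞) else 0) := by
  classical
  refine Measurable.ite (Measurable.setOf ?_) (by fun_prop) measurable_const
  unfold AboveVals
  fun_prop

/-- The expected top part is at most the expected largest value. -/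
lemma lintegral_topSum_le (M : Matroid E) (ord : E → ℕ) (μ : Measure (E → ℝ≥0 × ℝ≥0))
    (hμ : SwapInv μ) :
    ∫⁻ ω, (topSum M ord (fun e => (ω e).1) (fun e => (ω e).2) : ℝ≥0∞) ∂μ
      ≤ ∫⁻ ω, (maxS M (fun e => (ω e).2) : ℝ≥0∞) ∂μ := by
  classical
  have h1 : ∀ ω : E → ℝ≥0 × ℝ≥0,
      (topSum M ord (fun e => (ω e).1) (fun e => (ω e).2) : ℝ≥0∞)
        = ∑ e, if (M.Indep {e} ∧ ∀ f, f ≠ e → M.Indep {f} →
            ((ω f).1 < (ω e).2 ∨ ((ω f).1 = (ω e).2 ∧ ord f < ord e)))
          then ((ω e).2 : ℝ≥0∞) else 0 := by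
    intro ω
    unfold topSum
    rw [ENNReal.ofNNReal_finsetSum]
    apply Finset.sum_congr rfl
    intro e _
    split_ifs <;> simp
  simp_rw [h1]
  rw [lintegral_finsetSum _ (fun e _ => measurable_topSum_term M ord e)]
  have h2 : ∀ e : E,
      ∫⁻ ω, (if (M.Indep {e} ∧ ∀ f, f ≠ e → M.Indep {f} →
            ((ω f).1 < (ω e).2 ∨ ((ω f).1 = (ω e).2 ∧ ord f < ord e)))
          then ((ω e).2 : ℝ≥0∞) else 0) ∂μ
        = ∫⁻ ω, (if (M.Indep {e} ∧ AboveVals M ord (fun f => (ω f).2) e)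
          then ((ω e).2 : ℝ≥0∞) else 0) ∂μ := by
    intro e
    have h := hμ (fun f => f ≠ e) inferInstance
      (fun ω => if (M.Indep {e} ∧ ∀ f, f ≠ e → M.Indep {f} →
            ((ω f).1 < (ω e).2 ∨ ((ω f).1 = (ω e).2 ∧ ord f < ord e)))
          then ((ω e).2 : ℝ≥0∞) else 0)
    rw [← h]
    apply lintegral_congr
    intro ω
    have hP : (M.Indep {e} ∧ ∀ f, f ≠ e → M.Indep {f} →
          ((swapFun (fun f => f ≠ e) ω f).1 < (swapFun (fun f => f ≠ e) ω e).2 ∨
            ((swapFun (fun f => f ≠ e) ω f).1 = (swapFun (fun f => f ≠ e) ω e).2 ∧ ord f < ord e)))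
        ↔ (M.Indep {e} ∧ AboveVals M ord (fun f => (ω f).2) e) := by
      unfold AboveVals swapFun
      simp only [ne_eq, not_true_eq_false, if_false]
      constructor
      · rintro ⟨h1, h2⟩
        refine ⟨h1, fun f hf hN => ?_⟩
        have := h2 f hf hN
        simpa [hf] using this
      · rintro ⟨h1, h2⟩
        refine ⟨h1, fun f hf hN => ?_⟩
        have := h2 f hf hN
        simpa [hf] using this
    have hv : (swapFun (fun f => f ≠ e) ω e).2 = (ω e).2 := by
      simp [swapFun]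
    rw [hv] at hP ⊢
    by_cases hc : (M.Indep {e} ∧ AboveVals M ord (fun f => (ω f).2) e)
    · rw [if_pos hc, if_pos (hP.mpr hc)]
    · rw [if_neg hc, if_neg (fun h => hc (hP.mp h))]
  simp_rw [h2]
  rw [← lintegral_finsetSum _ (fun e _ => measurable_aboveVals_term M ord e)]
  apply lintegral_mono
  intro ω
  beta_reduce
  have h3 := sum_aboveVals_le M ord (fun f => (ω f).2)
  have h4 : (∑ e, if (M.Indep {e} ∧ AboveVals M ord (fun f => (ω f).2) e)
        then ((ω e).2 : ℝ≥0∞) else 0)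
      = ((∑ e, if (M.Indep {e} ∧ AboveVals M ord (fun f => (ω f).2) e)
        then (ω e).2 else 0 : ℝ≥0) : ℝ≥0∞) := by
    rw [ENNReal.ofNNReal_finsetSum]
    apply Finset.sum_congr rfl
    intro e _
    split_ifs <;> simp
  rw [h4]
  exact ENNReal.coe_le_coe.mpr h3

end Vale.Agent.Lib.P331
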