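import Mathlib
import Vale.Agent.Lib.P331.Defs
import Vale.Agent.Lib.P331.Run

/-!
Definitions for the window rule for P331: dyadic value classes below the largest sample,
windows of classes at several scales, and span tests against the flats spanned by the samples.
-/

namespace Vale.Agent.Lib.P331

open scoped NNReal

variable {E : Type*} [Fintype E] [DecidableEq E]

/-- The class of the value `x` below `m`: the `j ∈ [1, L]` with `m / 2^j < x ≤ m / 2^(j-1)`,
and `0` if there is no such `j`. -/
noncomputable def cls (m : ℝ≥0) (L : ℕ) (x : ℝ≥0) : ℕ :=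
  open Classical in ∑ j ∈ Finset.Icc 1 L, if InBucket m j x then j else 0

/-- The non-loop elements whose sample is above `m / 2^x`; all non-loop elements if `L ≤ x`. -/
def Klev (M : Matroid E) (L : ℕ) (m : ℝ≥0) (s : E → ℝ≥0) (x : ℕ) : Set E :=
  {f | M.Indep {f} ∧ (L ≤ x ∨ m / 2 ^ x < s f)}

/-- The class `c` lies in a window: windows have length `ℓ`, period `P` and offset `o`. -/
def inWin (ℓ P o c : ℕ) : Prop := 1 ≤ c ∧ (c + o) % P < ℓ

/-- The index of the window (or gap) of the class `c`. -/
def widx (P o c : ℕ) : ℕ := (c + o) / P

/-- The largest class below window `k` (classes `c` with `c + o < k * P`). -/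
def loLev (P o k : ℕ) : ℕ := k * P - 1 - o

/-- The sample elements of the classes below window `k`. -/
def Glev (M : Matroid E) (L : ℕ) (s : E → ℝ≥0) (P o k : ℕ) : Set E :=
  Klev M L (maxS M s) s (loLev P o k)

/-- The window rule with parameters `(ℓ, P, o)`: an element `e` arriving with value `x`, when
`A` is accepted so far, is accepted iff the class of `x` lies in a window, say window `k`,
`e` is spanned by the sample elements of the classes below window `k + 1`, and `e` is not
spanned by the sample elements of the classes below window `k` together with the accepted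
elements lying in the span of the sample elements of the classes below window `k + 1`. -/
def SchemeAcc (M : Matroid E) (L ℓ P o : ℕ) (s : E → ℝ≥0) (A : Finset E) (e : E) (x : ℝ≥0) :
    Prop :=
  inWin ℓ P o (cls (maxS M s) L x) ∧
    e ∈ M.closure (Glev M L s P o (widx P o (cls (maxS M s) L x) + 1)) ∧
    e ∉ M.closure (Glev M L s P o (widx P o (cls (maxS M s) L x)) ∪
      ((A : Set E) ∩ M.closure (Glev M L s P o (widx P o (cls (maxS M s) L x) + 1))))

/-- The element `e` is certain to be accepted by the window rule `(ℓ, P, o)`, whatever the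
arrival order: its class lies in window `k`, it is spanned by the sample elements of the
classes below window `k + 1`, and it is not spanned by the sample elements of the classes below
window `k` together with all other non-loop elements whose value class lies in window `k`. -/
def Certain (M : Matroid E) (L ℓ P o : ℕ) (s v : E → ℝ≥0) (e : E) : Prop :=
  inWin ℓ P o (cls (maxS M s) L (v e)) ∧
    e ∈ M.closure (Glev M L s P o (widx P o (cls (maxS M s) L (v e)) + 1)) ∧
    e ∉ M.closure (Glev M L s P o (widx P o (cls (maxS M s) L (v e))) ∪
      {f | f ≠ e ∧ M.Indep {f} ∧ inWin ℓ P o (cls (maxS M s) L (v f)) ∧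
        widx P o (cls (maxS M s) L (v f)) = widx P o (cls (maxS M s) L (v e))})

/-- The total value of the elements that are certain to be accepted by the window rule. -/
noncomputable def QS (M : Matroid E) (L ℓ P o : ℕ) (s v : E → ℝ≥0) : ℝ≥0 :=
  open Classical in ∑ e, if Certain M L ℓ P o s v e then v e else 0

/-- The weight of the item `(e, β)`: the value of `e` if `β = b e`, else the sample of `e`. -/
def Wof (s v : E → ℝ≥0) (b : E → Bool) (i : E × Bool) : ℝ≥0 :=
  if i.2 = b i.1 then v i.1 else s i.1

/-- The samples when the item `(e, b e)` is the value of `e` and `(e, !b e)` its sample. -/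
def sOf (W : E × Bool → ℝ≥0) (b : E → Bool) : E → ℝ≥0 := fun e => W (e, !b e)

/-- The values when the item `(e, b e)` is the value of `e`. -/
def vOf (W : E × Bool → ℝ≥0) (b : E → Bool) : E → ℝ≥0 := fun e => W (e, b e)

/-- The tie-breaking label of an item. -/
def tbk (ord : E → ℕ) (i : E × Bool) : ℕ := 2 * ord i.1 + (if i.2 = true then 1 else 0)

/-- The item `i` is heavier than the item `j` (ties broken by the labels). -/
def Hv (ord : E → ℕ) (W : E × Bool → ℝ≥0) (i j : E × Bool) : Prop :=
  W j < W i ∨ (W j = W i ∧ tbk ord j < tbk ord i)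

/-- The item `i` belongs to the greedy basis of all items: its element is a non-loop that is
not spanned by the elements having a heavier item. -/
def InB (M : Matroid E) (ord : E → ℕ) (W : E × Bool → ℝ≥0) (i : E × Bool) : Prop :=
  M.Indep {i.1} ∧ i.1 ∉ M.closure {f | ∃ β, Hv ord W (f, β) i}

/-- The largest weight of an item of a non-loop element. -/
noncomputable def wstar (M : Matroid E) (W : E × Bool → ℝ≥0) : ℝ≥0 :=
  maxS M (fun e => max (W (e, true)) (W (e, false)))

/-- The total value of the elements whose value item is in the greedy basis of all items, has a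
class `c ≥ 1`, and which are spanned by the sample elements of the classes up to `c`. -/
noncomputable def QD (M : Matroid E) (ord : E → ℕ) (L : ℕ) (s v : E → ℝ≥0) (b : E → Bool) :
    ℝ≥0 :=
  open Classical in
  ∑ e, if (InB M ord (Wof s v b) (e, b e) ∧ 1 ≤ cls (maxS M s) L (v e) ∧
      e ∈ M.closure (Klev M L (maxS M s) s (cls (maxS M s) L (v e)))) then v e else 0

/-- The rule.  The seed is `(b, t, o)`.  Mode `t = 0`: accept the first non-loop element whose
value beats all samples, and nothing else.  Mode `t = 1`: the window rule with windows of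
length `1`, period `1`.  Mode `t = j + 2`: the window rule with windows of length `2^j`,
period `3 * 2^j` and offset `o`. -/
noncomputable def llRule (M : Matroid E) (ord : E → ℕ) (L Jn : ℕ) :
    Rule E ((E → Bool) × Fin (Jn + 2) × Fin (3 * 2 ^ Jn)) where
  accept s r A _ e x :=
    open Classical in
    if (r.2.1 : ℕ) = 0 then decide (A = ∅ ∧ M.Indep {e} ∧ Beats M ord s r.1 e x)
    else if (r.2.1 : ℕ) = 1 then decide (SchemeAcc M L 1 1 0 s A e x)
    else decide (SchemeAcc M L (2 ^ ((r.2.1 : ℕ) - 2)) (3 * 2 ^ ((r.2.1 : ℕ) - 2)) r.2.2 s A e x)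

/-- The configurations `b` in which the item `(e₁, β₁)` is the sample of `e₁` and the item
`(e, β)` is the value of `e`. -/
def Tset (e₁ : E) (β₁ : Bool) (e : E) (β : Bool) : Finset (E → Bool) :=
  Finset.univ.filter (fun b => b e₁ = !β₁ ∧ b e = β)

/-- The number of configurations in `Tset` in which `e` is spanned by the non-loop elements
whose sample is above `wstar / 2^x` (all non-loop elements if `L ≤ x`). -/
noncomputable def nlev (M : Matroid E) (L : ℕ) (W : E × Bool → ℝ≥0) (e₁ : E) (β₁ : Bool)
    (e : E) (β : Bool) (x : ℕ) : ℕ :=
  open Classical in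
  ((Tset e₁ β₁ e β).filter
    (fun b => e ∈ M.closure (Klev M L (wstar M W) (sOf W b) x))).card

/-- The number of configurations in `Tset` in which `e` is certain to be accepted by the
window rule `(ℓ, P, o)`. -/
noncomputable def ncert (M : Matroid E) (L : ℕ) (W : E × Bool → ℝ≥0) (e₁ : E) (β₁ : Bool)
    (e : E) (β : Bool) (ℓ P o : ℕ) : ℕ :=
  open Classical in
  ((Tset e₁ β₁ e β).filter (fun b => Certain M L ℓ P o (sOf W b) (vOf W b) e)).card

/-- The items of the greedy basis, other than those of `e₁`, of weight above `wstar / 2^L`. -/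
noncomputable def Bo (M : Matroid E) (ord : E → ℕ) (L : ℕ) (W : E × Bool → ℝ≥0) (e₁ : E) :
    Finset (E × Bool) :=
  open Classical in
  Finset.univ.filter (fun i => InB M ord W i ∧ i.1 ≠ e₁ ∧ wstar M W / 2 ^ L < W i)

/-- The rule `ρ`, with samples `s` and seed `r`, acts as the window rule `(ℓ, P, o)`. -/
def ActsAs {R : Type*} (ρ : Rule E R) (s : E → ℝ≥0) (r : R) (M : Matroid E) (L ℓ P o : ℕ) :
    Prop :=
  ∀ (A : Finset E) (h : List (E × ℝ≥0)) (e : E) (x : ℝ≥0),
    ρ.accept s r A h e x = true ↔ SchemeAcc M L ℓ P o s A e x

end Vale.Agent.Lib.P331
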