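import Mathlib
import Vale.Agent.Lib.P331.Defs
import Vale.Agent.Lib.P331.Run
import Vale.Agent.Lib.P331.Pointwise
import Vale.Agent.Lib.P331.LLDefs

/-!
Basic facts on value classes `cls`, the level sets `Klev` and the window arithmetic.
-/

namespace Vale.Agent.Lib.P331

open scoped NNReal

variable {E : Type*} [Fintype E] [DecidableEq E]

private lemma llcls_div_anti (m : ℝ≥0) {j j' : ℕ} (h : j ≤ j') : m / 2 ^ j' ≤ m / 2 ^ j := by
  have h2 : (2 : ℝ≥0) ^ j ≤ 2 ^ j' := pow_le_pow_right₀ (by norm_num) h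
  have hpos : (0 : ℝ≥0) < 2 ^ j := by positivity
  exact div_le_div_of_nonneg_left zero_le hpos h2

private lemma llcls_bucket_lt (m x : ℝ≥0) (j j' : ℕ) (hlt : j < j')
    (h : InBucket m j x) (h' : InBucket m j' x) : False := by
  have h1 : x ≤ m / 2 ^ (j' - 1) := h'.2
  have h2 : m / 2 ^ (j' - 1) ≤ m / 2 ^ j := llcls_div_anti m (by omega)
  have h3 : m / 2 ^ j < x := h.1
  exact absurd (lt_of_le_of_lt (le_trans h1 h2) h3) (lt_irrefl x)

lemma inBucket_unique (m x : ℝ≥0) (j j' : ℕ) (hj : 1 ≤ j) (hj' : 1 ≤ j')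
    (h : InBucket m j x) (h' : InBucket m j' x) : j = j' := by
  rcases lt_trichotomy j j' with hlt | heq | hgt
  · exact (llcls_bucket_lt m x j j' hlt h h').elim
  · exact heq
  · exact (llcls_bucket_lt m x j' j hgt h' h).elim

lemma cls_eq_of_inBucket (m : ℝ≥0) (L : ℕ) (x : ℝ≥0) (j : ℕ) (hj : j ∈ Finset.Icc 1 L)
    (h : InBucket m j x) : cls m L x = j := by
  classical
  unfold cls
  rw [Finset.sum_eq_single j]
  · rw [if_pos h]
  · intro b hb hbj
    by_cases hbb : InBucket m b x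
    · exact absurd (inBucket_unique m x b j (Finset.mem_Icc.mp hb).1 (Finset.mem_Icc.mp hj).1
        hbb h) hbj
    · rw [if_neg hbb]
  · intro hnot
    exact absurd hj hnot

private lemma llcls_exists (m : ℝ≥0) (L : ℕ) (x : ℝ≥0) (h : 1 ≤ cls m L x) :
    ∃ j ∈ Finset.Icc 1 L, InBucket m j x := by
  classical
  by_contra hcon
  push Not at hcon
  have h0 : cls m L x = 0 := by
    unfold cls
    refine Finset.sum_eq_zero fun j hj => ?_
    rw [if_neg (hcon j hj)]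
  omega

lemma cls_spec (m : ℝ≥0) (L : ℕ) (x : ℝ≥0) (h : 1 ≤ cls m L x) :
    cls m L x ≤ L ∧ InBucket m (cls m L x) x := by
  obtain ⟨j, hj, hb⟩ := llcls_exists m L x h
  rw [cls_eq_of_inBucket m L x j hj hb]
  exact ⟨(Finset.mem_Icc.mp hj).2, hb⟩

lemma cls_le (m : ℝ≥0) (L : ℕ) (x : ℝ≥0) : cls m L x ≤ L := by
  rcases Nat.eq_zero_or_pos (cls m L x) with h0 | hpos
  · rw [h0]
    exact Nat.zero_le L
  · exact (cls_spec m L x hpos).1

lemma cls_pos_of (m : ℝ≥0) (L : ℕ) (x : ℝ≥0) (h1 : x ≤ m) (h2 : m / 2 ^ L < x) :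
    1 ≤ cls m L x := by
  obtain ⟨j, hj, hb⟩ := exists_bucket m x L h1 h2
  rw [cls_eq_of_inBucket m L x j hj hb]
  exact (Finset.mem_Icc.mp hj).1

/-- A value with a class `c ≥ 1` satisfies `m / 2^c < x ≤ m / 2^(c-1)`; in particular
`0 < m`, `m / 2^L < x` and `x ≤ m`. -/
lemma cls_pos_imp (m : ℝ≥0) (L : ℕ) (x : ℝ≥0) (h : 1 ≤ cls m L x) :
    0 < m ∧ m / 2 ^ L < x ∧ x ≤ m ∧ m / 2 ^ (cls m L x) < x ∧
      x ≤ m / 2 ^ (cls m L x - 1) := by
  obtain ⟨hL, hb⟩ := cls_spec m L x h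
  have hx : 0 < x := lt_of_le_of_lt zero_le hb.1
  have hxm : x ≤ m := by
    have h1 : m / 2 ^ (cls m L x - 1) ≤ m / 2 ^ 0 := llcls_div_anti m (Nat.zero_le _)
    have h2 : m / 2 ^ 0 = m := by simp
    rw [h2] at h1
    exact le_trans hb.2 h1
  refine ⟨lt_of_lt_of_le hx hxm, ?_, hxm, hb.1, hb.2⟩
  exact lt_of_le_of_lt (llcls_div_anti m hL) hb.1

omit [Fintype E] [DecidableEq E] in
lemma Klev_mono (M : Matroid E) (L : ℕ) (m : ℝ≥0) (s : E → ℝ≥0) {x y : ℕ} (h : x ≤ y) :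
    Klev M L m s x ⊆ Klev M L m s y := by
  rintro f ⟨hf, hor⟩
  refine ⟨hf, ?_⟩
  rcases hor with hL | hlt
  · exact Or.inl (le_trans hL h)
  · exact Or.inr (lt_of_le_of_lt (llcls_div_anti m h) hlt)

omit [Fintype E] [DecidableEq E] in
lemma Klev_subset_ground (M : Matroid E) (L : ℕ) (m : ℝ≥0) (s : E → ℝ≥0) (x : ℕ) :
    Klev M L m s x ⊆ M.E := by
  rintro f ⟨hf, -⟩
  exact Set.singleton_subset_iff.mp hf.subset_ground

omit [Fintype E] [DecidableEq E] in
lemma closure_Klev_top (M : Matroid E) (L : ℕ) (m : ℝ≥0) (s : E → ℝ≥0) (x : ℕ) (h : L ≤ x) :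
    M.closure (Klev M L m s x) = M.E := by
  apply Set.Subset.antisymm (M.closure_subset_ground _)
  intro e he
  rcases M.isLoop_or_isNonloop e he with hloop | hnon
  · exact hloop.mem_closure _
  · have hmem : e ∈ Klev M L m s x := ⟨Matroid.indep_singleton.mpr hnon, Or.inl h⟩
    exact M.mem_closure_of_mem hmem (Klev_subset_ground M L m s x)

omit [Fintype E] [DecidableEq E] in
lemma closure_Klev_mono (M : Matroid E) (L : ℕ) (m : ℝ≥0) (s : E → ℝ≥0) {x y : ℕ}
    (h : x ≤ y) : M.closure (Klev M L m s x) ⊆ M.closure (Klev M L m s y) :=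
  M.closure_subset_closure (Klev_mono M L m s h)

lemma loLev_mono (P o : ℕ) {k k' : ℕ} (h : k ≤ k') : loLev P o k ≤ loLev P o k' := by
  unfold loLev
  have h1 : k * P ≤ k' * P := Nat.mul_le_mul_right P h
  omega

/-- A class in window `k` is above the classes below window `k`, and at most the top class
`k * P + ℓ - 1 - o` of window `k`. -/
lemma win_bounds (ℓ P o c : ℕ) (h : inWin ℓ P o c) :
    loLev P o (widx P o c) < c ∧ c ≤ widx P o c * P + ℓ - 1 - o ∧
      loLev P o (widx P o c) ≤ widx P o c * P + ℓ - 1 - o := by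
  obtain ⟨h1, h2⟩ := h
  unfold loLev widx
  have h3 := Nat.div_add_mod (c + o) P
  have h4 : (c + o) / P * P = P * ((c + o) / P) := Nat.mul_comm _ _
  rw [h4]
  generalize P * ((c + o) / P) = t at h3 ⊢
  generalize (c + o) % P = r at h2 h3
  omega

lemma widx_le (P o c : ℕ) (hP : 0 < P) : widx P o c ≤ c + o := by
  unfold widx
  exact Nat.div_le_self _ _

end Vale.Agent.Lib.P331
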