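import Mathlib
import Vale.Agent.Lib.P331.Defs
import Vale.Agent.Lib.P331.Run
import Vale.Agent.Lib.P331.Pointwise
import Vale.Agent.Lib.P331.LLDefs
import Vale.Agent.Lib.P331.LLCls

/-!
Configurations: basic facts on `sOf`, `vOf`, `Tset` and `nlev`.
-/

namespace Vale.Agent.Lib.P331

open scoped NNReal

variable {E : Type*} [Fintype E] [DecidableEq E]

omit [Fintype E] [DecidableEq E] in
lemma wof_sOf_vOf (W : E × Bool → ℝ≥0) (b : E → Bool) : Wof (sOf W b) (vOf W b) b = W := by
  funext ⟨e, β⟩
  unfold Wof sOf vOf
  cases β <;> cases h : b e <;> simp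

omit [DecidableEq E] in
/-- If the sample of the non-loop element `e₁` is an item of the largest weight `wstar`, then
the largest sample of a non-loop element is `wstar`. -/
lemma maxS_sOf (M : Matroid E) (W : E × Bool → ℝ≥0) (e₁ : E) (β₁ : Bool) (he₁ : M.Indep {e₁})
    (hβ₁ : W (e₁, β₁) = wstar M W) (b : E → Bool) (hb : b e₁ = !β₁) :
    maxS M (sOf W b) = wstar M W := by
  classical
  apply le_antisymm
  · unfold wstar maxS
    apply Finset.sup_mono_fun
    intro f _
    unfold sOf
    cases b f
    · exact le_max_left _ _
    · exact le_max_right _ _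
  · rw [← hβ₁]
    have h1 : sOf W b e₁ = W (e₁, β₁) := by
      unfold sOf
      rw [hb, Bool.not_not]
    rw [← h1]
    unfold maxS
    exact Finset.le_sup (f := sOf W b) (Finset.mem_filter.2 ⟨Finset.mem_univ _, he₁⟩)

lemma mem_Tset (e₁ : E) (β₁ : Bool) (e : E) (β : Bool) (b : E → Bool) :
    b ∈ Tset e₁ β₁ e β ↔ (b e₁ = !β₁ ∧ b e = β) := by
  simp [Tset]

/-- A quarter of all configurations are in `Tset`. -/
lemma card_Tset (e₁ : E) (β₁ : Bool) (e : E) (β : Bool) (hne : e ≠ e₁) :
    4 * (Tset e₁ β₁ e β).card = 2 ^ Fintype.card E := by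
  classical
  have hne' : e₁ ≠ e := fun h => hne h.symm
  have hfib : ∀ p : Bool × Bool,
      (Finset.univ.filter (fun b : E → Bool => (b e₁, b e) = p)).card
        = (Tset e₁ β₁ e β).card := by
    intro p
    refine Finset.card_nbij' (fun b => Function.update (Function.update b e₁ (!β₁)) e β)
      (fun b => Function.update (Function.update b e₁ p.1) e p.2) ?_ ?_ ?_ ?_
    · intro b _
      simp only [Finset.mem_coe, mem_Tset]
      refine ⟨?_, ?_⟩
      · rw [Function.update_of_ne hne', Function.update_self]
      · rw [Function.update_self]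
    · intro b _
      simp only [Finset.mem_coe, Finset.mem_filter, Finset.mem_univ, true_and]
      rw [Function.update_of_ne hne', Function.update_self, Function.update_self]
    · intro b hb
      simp only [Finset.mem_coe, Finset.mem_filter, Finset.mem_univ, true_and] at hb
      have h1 : b e₁ = p.1 := by rw [← hb]
      have h2 : b e = p.2 := by rw [← hb]
      funext f
      by_cases hfe : f = e
      · subst hfe
        simp only [Function.update_self, h2]
      · by_cases hf1 : f = e₁
        · subst hf1
          simp only [Function.update_of_ne hfe, Function.update_self, h1]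
        · simp only [Function.update_of_ne hfe, Function.update_of_ne hf1]
    · intro b hb
      simp only [Finset.mem_coe, mem_Tset] at hb
      funext f
      by_cases hfe : f = e
      · subst hfe
        simp only [Function.update_self, hb.2]
      · by_cases hf1 : f = e₁
        · subst hf1
          simp only [Function.update_of_ne hfe, Function.update_self, hb.1]
        · simp only [Function.update_of_ne hfe, Function.update_of_ne hf1]
  have h1 : (Finset.univ : Finset (E → Bool)).card
      = ∑ p : Bool × Bool, (Finset.univ.filter (fun b : E → Bool => (b e₁, b e) = p)).card :=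
    Finset.card_eq_sum_card_fiberwise (fun b _ => Finset.mem_univ _)
  rw [Finset.sum_congr rfl (fun p _ => hfib p), Finset.sum_const, Finset.card_univ,
    Finset.card_univ, Fintype.card_fun, Fintype.card_bool, Fintype.card_prod, Fintype.card_bool,
    smul_eq_mul] at h1
  omega

lemma nlev_mono (M : Matroid E) (L : ℕ) (W : E × Bool → ℝ≥0) (e₁ : E) (β₁ : Bool)
    (e : E) (β : Bool) {x y : ℕ} (h : x ≤ y) :
    nlev M L W e₁ β₁ e β x ≤ nlev M L W e₁ β₁ e β y := by
  classical
  unfold nlev
  apply Finset.card_le_card
  intro b hb
  rw [Finset.mem_filter] at hb ⊢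
  exact ⟨hb.1, closure_Klev_mono M L _ _ h hb.2⟩

lemma nlev_top (M : Matroid E) (L : ℕ) (W : E × Bool → ℝ≥0) (e₁ : E) (β₁ : Bool)
    (e : E) (β : Bool) (he : M.Indep {e}) (x : ℕ) (hx : L ≤ x) :
    nlev M L W e₁ β₁ e β x = (Tset e₁ β₁ e β).card := by
  classical
  unfold nlev
  rw [Finset.filter_true_of_mem]
  intro b _
  rw [closure_Klev_top M L _ _ x hx]
  exact he.subset_ground (Set.mem_singleton e)

end Vale.Agent.Lib.P331
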