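import Mathlib

/-!
Matroid facts for P331: an independent set inside the span of a finite set is no larger; a set
that is independent step by step along an increasing chain of sets is independent.
-/

namespace Vale.Agent.Lib.P331

open Matroid

variable {E : Type*}

/-- An independent finite set contained in the closure of a finite set `S` has at most
`S.card` elements. -/
lemma card_le_of_subset_closure (M : Matroid E) (I S : Finset E) (hI : M.Indep (I : Set E))
    (hIS : (I : Set E) ⊆ M.closure (S : Set E)) : I.card ≤ S.card := by
  have h1 : M.eRk (I : Set E) = (I.card : ℕ∞) := by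
    rw [hI.eRk_eq_encard, Set.encard_coe_eq_coe_finsetCard]
  have h2 : M.eRk (I : Set E) ≤ M.eRk (M.closure (S : Set E)) := M.eRk_mono hIS
  have h3 : M.eRk (M.closure (S : Set E)) = M.eRk (S : Set E) := M.eRk_closure_eq S
  have h4 : M.eRk (S : Set E) ≤ (S.card : ℕ∞) := by
    have h5 := M.eRk_le_encard (S : Set E)
    rwa [Set.encard_coe_eq_coe_finsetCard] at h5
  have h6 : (I.card : ℕ∞) ≤ (S.card : ℕ∞) := by
    rw [← h1]
    rw [h3] at h2
    exact h2.trans h4
  exact_mod_cast h6

/-- If `I ⊆ C` is independent in `M` and `J` is independent in the contraction `M ／ C`, then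
`I ∪ J` is independent in `M`. -/
lemma indep_union_of_contract (M : Matroid E) (C I J : Set E) (hI : M.Indep I) (hIC : I ⊆ C)
    (hJ : (M ／ C).Indep J) : M.Indep (I ∪ J) := by
  obtain ⟨I', hI', hII'⟩ := hI.subset_isBasis'_of_subset hIC
  have h := hI'.contract_indep_iff.mp hJ
  exact h.1.subset (Set.union_subset (hII'.trans Set.subset_union_right) Set.subset_union_left)

/-- Let `G 0 ⊆ G 1 ⊆ ...` be sets, and `A ⊆ G n` a set that avoids `G 0` and such that, for
every `k`, the elements of `A` in `G (k + 1)` but not in `G k` are independent in the contraction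
`M ／ G k`.  Then `A` is independent. -/
lemma indep_of_chain (M : Matroid E) (G : ℕ → Set E) (hG : ∀ k, G k ⊆ G (k + 1)) (A : Set E)
    (h0 : A ∩ G 0 = ∅) (hstep : ∀ k, (M ／ G k).Indep ((A ∩ G (k + 1)) \ G k))
    (n : ℕ) (hn : A ⊆ G n) : M.Indep A := by
  have key : ∀ k, M.Indep (A ∩ G k) := by
    intro k
    induction k with
    | zero =>
      rw [h0]
      exact M.empty_indep
    | succ k ih =>
      have h := indep_union_of_contract M (G k) (A ∩ G k) ((A ∩ G (k + 1)) \ G k) ih
        Set.inter_subset_right (hstep k)
      have e : (A ∩ G k) ∪ ((A ∩ G (k + 1)) \ G k) = A ∩ G (k + 1) := by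
        ext x
        constructor
        · rintro (hx | hx)
          · exact ⟨hx.1, hG k hx.2⟩
          · exact hx.1
        · intro hx
          by_cases hxk : x ∈ G k
          · exact Or.inl ⟨hx.1, hxk⟩
          · exact Or.inr ⟨hx, hxk⟩
      rw [e] at h
      exact h
  have e : A ∩ G n = A := Set.inter_eq_left.mpr hn
  rw [← e]
  exact key n

/-- If `J` is independent in `M ／ M.closure K`, `e` is in the ground set and `e` is not in the
closure of `K ∪ J`, then `insert e J` is independent in `M ／ M.closure K`. -/
lemma contract_insert_indep (M : Matroid E) (K J : Set E) (e : E)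
    (hJ : (M ／ M.closure K).Indep J) (he : e ∈ M.E) (hcl : e ∉ M.closure (K ∪ J)) :
    (M ／ M.closure K).Indep (insert e J) := by
  rw [hJ.insert_indep_iff]
  left
  rw [contract_ground, contract_closure_eq, closure_union_closure_right_eq, Set.union_comm J K]
  exact ⟨⟨he, fun h => hcl (M.closure_subset_closure Set.subset_union_left h)⟩,
    fun h => hcl h.1⟩

/-- If `e ∉ J` and `e` is in the closure of `K ∪ J`, then `insert e J` is not independent in
`M ／ M.closure K`. -/
lemma contract_insert_not_indep (M : Matroid E) (K J : Set E) (e : E) (heJ : e ∉ J)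
    (hcl : e ∈ M.closure (K ∪ J)) : ¬ (M ／ M.closure K).Indep (insert e J) := by
  intro h
  have hJ : (M ／ M.closure K).Indep J := h.subset (Set.subset_insert e J)
  rw [hJ.insert_indep_iff_of_notMem heJ, contract_ground, contract_closure_eq,
    closure_union_closure_right_eq, Set.union_comm J K] at h
  exact h.2 ⟨hcl, h.1.2⟩

/-- A set independent in `M ／ M.closure K` is disjoint from `M.closure K` and inside the ground
set of `M`. -/
lemma contract_indep_disjoint (M : Matroid E) (K J : Set E)
    (hJ : (M ／ M.closure K).Indep J) : J ⊆ M.E ∧ Disjoint J (M.closure K) := by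
  have h := hJ.subset_ground
  rw [contract_ground] at h
  exact ⟨fun x hx => (h hx).1, Set.disjoint_left.mpr (fun x hx hx' => (h hx).2 hx')⟩

end Vale.Agent.Lib.P331
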