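import Mathlib
import Vale.Agent.Lib.P331.Defs
import Vale.Agent.Lib.P331.Run
import Vale.Agent.Lib.P331.Pointwise
import Vale.Agent.Lib.P331.LLDefs
import Vale.Agent.Lib.P331.LLCls
import Vale.Agent.Lib.P331.LLMatA

/-!
The greedy basis `InB` of all items: it spans every item by heavier-or-equal items, and so for
every threshold it has at least as many items above the threshold as any independent set of
values.
-/

namespace Vale.Agent.Lib.P331

open Matroid
open scoped NNReal

variable {E : Type*} [Fintype E] [DecidableEq E]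

omit [Fintype E] [DecidableEq E] in
lemma Hv_trans (ord : E → ℕ) (W : E × Bool → ℝ≥0) (i j k : E × Bool)
    (h1 : Hv ord W i j) (h2 : Hv ord W j k) : Hv ord W i k := by
  unfold Hv at h1 h2 ⊢
  rcases h1 with h1 | ⟨h1, h1'⟩
  · rcases h2 with h2 | ⟨h2, -⟩
    · exact Or.inl (lt_trans h2 h1)
    · exact Or.inl (by rw [h2]; exact h1)
  · rcases h2 with h2 | ⟨h2, h2'⟩
    · exact Or.inl (by rw [← h1]; exact h2)
    · exact Or.inr ⟨h2.trans h1, lt_trans h2' h1'⟩

omit [Fintype E] [DecidableEq E] in
lemma Hv_irrefl (ord : E → ℕ) (W : E × Bool → ℝ≥0) (i : E × Bool) : ¬ Hv ord W i i := by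
  unfold Hv
  rintro (h | ⟨-, h⟩)
  · exact lt_irrefl _ h
  · exact lt_irrefl _ h

omit [Fintype E] [DecidableEq E] in
/-- A heavier item weighs at least as much. -/
lemma Hv_weight (ord : E → ℕ) (W : E × Bool → ℝ≥0) (i j : E × Bool) (h : Hv ord W i j) :
    W j ≤ W i := by
  unfold Hv at h
  rcases h with h | ⟨h, -⟩
  · exact le_of_lt h
  · exact le_of_eq h

omit [Fintype E] [DecidableEq E] in
/-- The two items of an element are comparable. -/
lemma Hv_twin (ord : E → ℕ) (W : E × Bool → ℝ≥0) (e : E) (β : Bool) :
    Hv ord W (e, β) (e, !β) ∨ Hv ord W (e, !β) (e, β) := by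
  unfold Hv
  rcases lt_trichotomy (W (e, !β)) (W (e, β)) with h | h | h
  · exact Or.inl (Or.inl h)
  · cases β
    · right
      right
      refine ⟨h.symm, ?_⟩
      simp [tbk]
    · left
      right
      refine ⟨h, ?_⟩
      simp [tbk]
  · exact Or.inr (Or.inl h)

omit [DecidableEq E] in
open Classical in
/-- The items heavier than a heavier item are fewer. -/
private lemma llGreedyA_card_lt (ord : E → ℕ) (W : E × Bool → ℝ≥0) (i j : E × Bool)
    (h : Hv ord W i j) :
    (Finset.univ.filter (fun k : E × Bool => Hv ord W k i)).card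
      < (Finset.univ.filter (fun k : E × Bool => Hv ord W k j)).card := by
  classical
  apply Finset.card_lt_card
  rw [Finset.ssubset_iff_of_subset]
  · refine ⟨i, Finset.mem_filter.mpr ⟨Finset.mem_univ _, h⟩, ?_⟩
    intro hi
    exact Hv_irrefl ord W i (Finset.mem_filter.mp hi).2
  · intro k hk
    rw [Finset.mem_filter] at hk ⊢
    exact ⟨hk.1, Hv_trans ord W k i j hk.2 h⟩

omit [DecidableEq E] in
open Classical in
/-- The statement of `inB_span`, by induction on the number of heavier items. -/
private lemma llGreedyA_span_aux (M : Matroid E) (ord : E → ℕ) (W : E × Bool → ℝ≥0) :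
    ∀ (n : ℕ) (j : E × Bool), j.1 ∈ M.E →
      (Finset.univ.filter (fun k : E × Bool => Hv ord W k j)).card = n →
      j.1 ∈ M.closure {e | ∃ β, InB M ord W (e, β) ∧ (Hv ord W (e, β) j ∨ (e, β) = j)} := by
  classical
  intro n
  induction n using Nat.strong_induction_on with
  | _ n ih =>
    intro j hj hn
    by_cases hind : M.Indep {j.1}
    · by_cases hB : InB M ord W j
      · exact M.mem_closure_of_mem' ⟨j.2, hB, Or.inr rfl⟩ hj
      · have hcl : j.1 ∈ M.closure {f | ∃ β, Hv ord W (f, β) j} := by
          by_contra hnot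
          exact hB ⟨hind, hnot⟩
        rw [← Matroid.closure_inter_ground] at hcl
        refine M.closure_subset_closure_of_subset_closure ?_ hcl
        rintro f ⟨⟨β', hf⟩, hfE⟩
        have hlt := llGreedyA_card_lt ord W (f, β') j hf
        rw [hn] at hlt
        have h1 := ih _ hlt (f, β') hfE rfl
        refine M.closure_subset_closure ?_ h1
        rintro e ⟨β, hBe, he⟩
        refine ⟨β, hBe, Or.inl ?_⟩
        rcases he with he | he
        · exact Hv_trans ord W (e, β) (f, β') j he hf
        · rw [he]
          exact hf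
    · exact ((Matroid.singleton_not_indep hj).mp hind).mem_closure _

/-- The element of every item `j` (in the ground set) is spanned by the elements of the items
of the greedy basis that are `j` itself or heavier than `j`. -/
lemma inB_span (M : Matroid E) (ord : E → ℕ) (W : E × Bool → ℝ≥0) (j : E × Bool)
    (hj : j.1 ∈ M.E) :
    j.1 ∈ M.closure {e | ∃ β, InB M ord W (e, β) ∧ (Hv ord W (e, β) j ∨ (e, β) = j)} :=
  llGreedyA_span_aux M ord W _ j hj rfl

open Classical in
/-- For every threshold `t`, an independent set has at most as many elements with value above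
`t` as the greedy basis has items of weight above `t`. -/
lemma count_le (M : Matroid E) (ord : E → ℕ) (W : E × Bool → ℝ≥0) (b : E → Bool)
    (I : Finset E) (hI : M.Indep (I : Set E)) (t : ℝ≥0) :
    (I.filter (fun e => t < vOf W b e)).card
      ≤ ((Finset.univ : Finset (E × Bool)).filter (fun i => InB M ord W i ∧ t < W i)).card := by
  have hsub : ((I.filter (fun e => t < vOf W b e) : Finset E) : Set E) ⊆ (I : Set E) := by
    intro e he
    exact (Finset.mem_filter.mp (Finset.mem_coe.mp he)).1
  have hI' : M.Indep ((I.filter (fun e => t < vOf W b e) : Finset E) : Set E) :=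
    hI.subset hsub
  have hcl : ((I.filter (fun e => t < vOf W b e) : Finset E) : Set E) ⊆
      M.closure ((((Finset.univ : Finset (E × Bool)).filter
        (fun i => InB M ord W i ∧ t < W i)).image Prod.fst : Finset E) : Set E) := by
    intro e he
    have he' := Finset.mem_filter.mp (Finset.mem_coe.mp he)
    have heE : e ∈ M.E := hI.subset_ground (Finset.mem_coe.mpr he'.1)
    have hspan := inB_span M ord W (e, b e) heE
    refine M.closure_subset_closure ?_ hspan
    rintro e' ⟨β, hB, hh⟩
    rw [Finset.mem_coe, Finset.mem_image]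
    refine ⟨(e', β), Finset.mem_filter.mpr ⟨Finset.mem_univ _, hB, ?_⟩, rfl⟩
    have ht : t < W (e, b e) := he'.2
    rcases hh with hh | hh
    · exact lt_of_lt_of_le ht (Hv_weight ord W (e', β) (e, b e) hh)
    · rw [hh]
      exact ht
  exact le_trans (card_le_of_subset_closure M _ _ hI' hcl) Finset.card_image_le

/-- At most one of the two items of an element is in the greedy basis. -/
lemma inB_twin (M : Matroid E) (ord : E → ℕ) (W : E × Bool → ℝ≥0) (e : E) (β : Bool)
    (h1 : InB M ord W (e, β)) (h2 : InB M ord W (e, !β)) : False := by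
  have heE : e ∈ M.E := h1.1.subset_ground (Set.mem_singleton e)
  rcases Hv_twin ord W e β with h | h
  · exact h2.2 (M.mem_closure_of_mem' ⟨β, h⟩ heE)
  · exact h1.2 (M.mem_closure_of_mem' ⟨!β, h⟩ heE)

omit [DecidableEq E] in
/-- The weight of an item of a non-loop element is at most `wstar`. -/
lemma le_wstar (M : Matroid E) (W : E × Bool → ℝ≥0) (i : E × Bool) (hi : M.Indep {i.1}) :
    W i ≤ wstar M W := by
  classical
  have h1 : W i ≤ max (W (i.1, true)) (W (i.1, false)) := by
    obtain ⟨e, β⟩ := i
    cases β
    · exact le_max_right _ _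
    · exact le_max_left _ _
  unfold wstar maxS
  exact le_trans h1 (Finset.le_sup (f := fun e => max (W (e, true)) (W (e, false)))
    (Finset.mem_filter.mpr ⟨Finset.mem_univ _, hi⟩))

end Vale.Agent.Lib.P331
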