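import Mathlib

/-!
A layer-cake comparison of two finite sums of nonnegative reals.
-/

namespace Vale.Agent.Lib.P331

open scoped NNReal

/-- A nonnegative real as the integral of the indicator of `[0, a)`. -/
lemma layer_cake_coe_eq (a : ℝ≥0) :
    (a : ENNReal) = ∫⁻ t : ℝ, (Set.Ico (0 : ℝ) (a : ℝ)).indicator (fun _ => (1 : ENNReal)) t := by
  rw [MeasureTheory.lintegral_indicator measurableSet_Ico, MeasureTheory.setLIntegral_one,
    Real.volume_Ico, sub_zero, ENNReal.ofReal_coe_nnreal]

open Classical in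
/-- The pointwise layer count. -/
lemma layer_cake_pointwise {α : Type*} (X : Finset α) (f : α → ℝ≥0) (t : ℝ) :
    ∑ x ∈ X, (Set.Ico (0 : ℝ) (f x : ℝ)).indicator (fun _ => (1 : ENNReal)) t
      = if 0 ≤ t then ((X.filter (fun x => t.toNNReal < f x)).card : ENNReal) else 0 := by
  by_cases ht : 0 ≤ t
  · rw [if_pos ht]
    have h1 : ∀ x ∈ X, (Set.Ico (0 : ℝ) (f x : ℝ)).indicator (fun _ => (1 : ENNReal)) t
        = if t.toNNReal < f x then (1 : ENNReal) else 0 := by
      intro x _
      by_cases hx : t.toNNReal < f x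
      · rw [if_pos hx]
        have hmem : t ∈ Set.Ico (0 : ℝ) (f x : ℝ) := ⟨ht, (Real.toNNReal_lt_iff_lt_coe ht).mp hx⟩
        exact Set.indicator_of_mem hmem _
      · rw [if_neg hx]
        refine Set.indicator_of_notMem ?_ _
        intro hmem
        exact hx ((Real.toNNReal_lt_iff_lt_coe ht).mpr hmem.2)
    rw [Finset.sum_congr rfl h1, Finset.sum_boole]
  · rw [if_neg ht]
    refine Finset.sum_eq_zero ?_
    intro x _
    refine Set.indicator_of_notMem ?_ _
    intro hmem
    exact ht hmem.1

/-- A finite sum of nonnegative reals as the integral of the layer counts. -/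
lemma layer_cake_sum_eq {α : Type*} (X : Finset α) (f : α → ℝ≥0) :
    ((∑ x ∈ X, f x : ℝ≥0) : ENNReal)
      = ∫⁻ t : ℝ, ∑ x ∈ X, (Set.Ico (0 : ℝ) (f x : ℝ)).indicator (fun _ => (1 : ENNReal)) t := by
  rw [ENNReal.ofNNReal_finsetSum, MeasureTheory.lintegral_finsetSum]
  · exact Finset.sum_congr rfl (fun x _ => layer_cake_coe_eq (f x))
  · intro x _
    exact measurable_const.indicator measurableSet_Ico

open Classical in
/-- If for every threshold `t` the family `f` on `X` has at most as many members above `t` as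
the family `g` on `Y`, then the sum of `f` over `X` is at most the sum of `g` over `Y`. -/
lemma layer_cake {α β : Type*} (X : Finset α) (Y : Finset β) (f : α → ℝ≥0) (g : β → ℝ≥0)
    (h : ∀ t : ℝ≥0, (X.filter (fun x => t < f x)).card ≤ (Y.filter (fun y => t < g y)).card) :
    ∑ x ∈ X, f x ≤ ∑ y ∈ Y, g y := by
  rw [← ENNReal.coe_le_coe, layer_cake_sum_eq X f, layer_cake_sum_eq Y g]
  refine MeasureTheory.lintegral_mono ?_
  intro t
  show ∑ x ∈ X, (Set.Ico (0 : ℝ) (f x : ℝ)).indicator (fun _ => (1 : ENNReal)) t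
    ≤ ∑ y ∈ Y, (Set.Ico (0 : ℝ) (g y : ℝ)).indicator (fun _ => (1 : ENNReal)) t
  rw [layer_cake_pointwise X f t, layer_cake_pointwise Y g t]
  by_cases ht : 0 ≤ t
  · rw [if_pos ht, if_pos ht]
    exact_mod_cast h t.toNNReal
  · rw [if_neg ht, if_neg ht]

open Classical in
/-- The same with both families cut off below a level `θ`. -/
lemma layer_cake_cut {α β : Type*} (X : Finset α) (Y : Finset β) (f : α → ℝ≥0) (g : β → ℝ≥0)
    (θ : ℝ≥0)
    (h : ∀ t : ℝ≥0, (X.filter (fun x => t < f x)).card ≤ (Y.filter (fun y => t < g y)).card) :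
    ∑ x ∈ X.filter (fun x => θ < f x), f x ≤ ∑ y ∈ Y.filter (fun y => θ < g y), g y := by
  refine layer_cake _ _ f g ?_
  intro t
  have hX : (X.filter (fun x => θ < f x)).filter (fun x => t < f x)
      = X.filter (fun x => max t θ < f x) := by
    rw [Finset.filter_filter]
    refine Finset.filter_congr ?_
    intro x _
    rw [max_lt_iff]
    exact and_comm
  have hY : (Y.filter (fun y => θ < g y)).filter (fun y => t < g y)
      = Y.filter (fun y => max t θ < g y) := by
    rw [Finset.filter_filter]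
    refine Finset.filter_congr ?_
    intro y _
    rw [max_lt_iff]
    exact and_comm
  rw [hX, hY]
  exact h (max t θ)

end Vale.Agent.Lib.P331
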