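import Mathlib
import Vale.Agent.Lib.P331.Defs
import Vale.Agent.Lib.P331.Run
import Vale.Agent.Lib.P331.Pointwise
import Vale.Agent.Lib.P331.LLDefs
import Vale.Agent.Lib.P331.LLCls
import Vale.Agent.Lib.P331.LLMatA
import Vale.Agent.Lib.P331.LLGreedyA
import Vale.Agent.Lib.P331.LLLayer

/-!
The optimum of the values is at most twice the largest weight plus the weight of the items of
the greedy basis `Bo`.
-/

namespace Vale.Agent.Lib.P331

open Matroid
open scoped NNReal

variable {E : Type*} [Fintype E] [DecidableEq E]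

/-- A set of items of the greedy basis that all belong to one element weighs at most
`wstar`. -/
lemma sum_twin_le (M : Matroid E) (ord : E → ℕ) (W : E × Bool → ℝ≥0) (e₁ : E)
    (T : Finset (E × Bool)) (hT : ∀ i ∈ T, InB M ord W i ∧ i.1 = e₁) :
    ∑ i ∈ T, W i ≤ wstar M W := by
  have hbool : ∀ a c : Bool, a ≠ c → c = !a := by
    intro a c h
    cases a <;> cases c <;> simp at h ⊢
  have hcard : T.card ≤ 1 := by
    rw [Finset.card_le_one]
    intro i hi j hj
    obtain ⟨hi1, hi2⟩ := hT i hi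
    obtain ⟨hj1, hj2⟩ := hT j hj
    obtain ⟨ei, βi⟩ := i
    obtain ⟨ej, βj⟩ := j
    have hi2' : ei = e₁ := hi2
    have hj2' : ej = e₁ := hj2
    by_cases hβ : βi = βj
    · rw [hi2', hj2', hβ]
    · exfalso
      rw [hi2'] at hi1
      rw [hj2', hbool βi βj hβ] at hj1
      exact inB_twin M ord W e₁ βi hi1 hj1
  have hcard' : (T.card : ℝ≥0) ≤ 1 := by exact_mod_cast hcard
  calc ∑ i ∈ T, W i ≤ ∑ _i ∈ T, wstar M W := by
        refine Finset.sum_le_sum ?_
        intro i hi
        exact le_wstar M W i (hT i hi).1.1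
    _ = T.card * wstar M W := by rw [Finset.sum_const, nsmul_eq_mul]
    _ ≤ 1 * wstar M W := mul_le_mul_of_nonneg_right hcard' zero_le
    _ = wstar M W := one_mul _

/-- For every independent set `I`, the total value over `I` is at most `2 * wstar` plus the
weight of `Bo`. -/
lemma sum_le_B (M : Matroid E) (ord : E → ℕ) (L : ℕ) (hL : M.eRank.toNat ≤ 2 ^ L)
    (W : E × Bool → ℝ≥0) (e₁ : E) (b : E → Bool) (I : Finset E) (hI : M.Indep (I : Set E)) :
    ∑ e ∈ I, vOf W b e ≤ 2 * wstar M W + ∑ i ∈ Bo M ord L W e₁, W i := by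
  classical
  obtain ⟨θ, hθ⟩ : ∃ θ : ℝ≥0, θ = wstar M W / 2 ^ L := ⟨_, rfl⟩
  obtain ⟨Y, hY⟩ : ∃ Y : Finset (E × Bool),
      Y = Finset.univ.filter (fun i => InB M ord W i) := ⟨_, rfl⟩
  have h1 : ∑ e ∈ I.filter (fun e => ¬ θ < vOf W b e), vOf W b e ≤ wstar M W := by
    have hc : ((I.filter (fun e => ¬ θ < vOf W b e)).card : ℝ≥0) ≤ 2 ^ L := by
      have h := (Finset.card_filter_le I (fun e => ¬ θ < vOf W b e)).trans
        ((card_le_rank M I hI).trans hL)
      exact_mod_cast h
    calc ∑ e ∈ I.filter (fun e => ¬ θ < vOf W b e), vOf W b e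
        ≤ ∑ _e ∈ I.filter (fun e => ¬ θ < vOf W b e), θ := by
          refine Finset.sum_le_sum ?_
          intro e he
          exact not_lt.mp (Finset.mem_filter.mp he).2
      _ = (I.filter (fun e => ¬ θ < vOf W b e)).card * θ := by
          rw [Finset.sum_const, nsmul_eq_mul]
      _ ≤ 2 ^ L * θ := mul_le_mul_of_nonneg_right hc zero_le
      _ = wstar M W := by
          rw [hθ]
          field_simp
  have h2 : ∑ e ∈ I.filter (fun e => θ < vOf W b e), vOf W b e
      ≤ ∑ i ∈ Y.filter (fun i => θ < W i), W i := by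
    refine layer_cake_cut I Y (vOf W b) W θ ?_
    intro t
    refine le_trans (count_le M ord W b I hI t) (Finset.card_le_card ?_)
    intro i hi
    rw [Finset.mem_filter] at hi
    rw [Finset.mem_filter, hY, Finset.mem_filter]
    exact ⟨⟨Finset.mem_univ i, hi.2.1⟩, hi.2.2⟩
  have h3 : ∑ i ∈ Y.filter (fun i => θ < W i), W i
      ≤ ∑ i ∈ Bo M ord L W e₁, W i + wstar M W := by
    rw [← Finset.sum_filter_add_sum_filter_not (Y.filter (fun i => θ < W i))
      (fun i => i.1 ≠ e₁)]
    refine add_le_add ?_ ?_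
    · refine Finset.sum_le_sum_of_subset ?_
      intro i hi
      rw [Finset.mem_filter, Finset.mem_filter, hY, Finset.mem_filter] at hi
      unfold Bo
      rw [Finset.mem_filter]
      refine ⟨Finset.mem_univ i, hi.1.1.2, hi.2, ?_⟩
      rw [← hθ]
      exact hi.1.2
    · refine sum_twin_le M ord W e₁ _ ?_
      intro i hi
      rw [Finset.mem_filter, Finset.mem_filter, hY, Finset.mem_filter] at hi
      exact ⟨hi.1.1.2, not_not.mp hi.2⟩
  calc ∑ e ∈ I, vOf W b e
      = ∑ e ∈ I.filter (fun e => θ < vOf W b e), vOf W b e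
        + ∑ e ∈ I.filter (fun e => ¬ θ < vOf W b e), vOf W b e :=
        (Finset.sum_filter_add_sum_filter_not I (fun e => θ < vOf W b e) (vOf W b)).symm
    _ ≤ (∑ i ∈ Bo M ord L W e₁, W i + wstar M W) + wstar M W := add_le_add (h2.trans h3) h1
    _ = 2 * wstar M W + ∑ i ∈ Bo M ord L W e₁, W i := by ring

/-- The optimum of the values is at most `2 * wstar` plus the weight of `Bo`. -/
lemma opt_le_B (M : Matroid E) (ord : E → ℕ) (L : ℕ) (hL : M.eRank.toNat ≤ 2 ^ L)
    (W : E × Bool → ℝ≥0) (e₁ : E) (b : E → Bool) :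
    opt M (vOf W b) ≤ 2 * wstar M W + ∑ i ∈ Bo M ord L W e₁, W i := by
  classical
  unfold opt
  apply Finset.sup_le
  intro I hI
  rw [Finset.mem_filter] at hI
  exact sum_le_B M ord L hL W e₁ b I hI.2

end Vale.Agent.Lib.P331
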