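import Mathlib
import Vale.Agent.Lib.P331.Defs
import Vale.Agent.Lib.P331.Run
import Vale.Agent.Lib.P331.LLDefs

/-!
Arithmetic of the windows of length `2^j` and period `3 * 2^j`.
-/

namespace Vale.Agent.Lib.P331

/-- In a block of `P` consecutive numbers exactly `ℓ` have residue below `ℓ` modulo `P`. -/
private lemma block_count (P ℓ a : ℕ) (hℓ : ℓ ≤ P) :
    ((Finset.Ico a (a + P)).filter (fun m => m % P < ℓ)).card = ℓ := by
  have hper : Function.Periodic (fun m : ℕ => m % P < ℓ) P := by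
    intro m
    simp only [Nat.add_mod_right]
  rw [Nat.filter_Ico_card_eq_of_periodic a P (fun m => m % P < ℓ) hper,
    Nat.count_eq_card_filter_range]
  have hset : (Finset.range P).filter (fun m => m % P < ℓ) = Finset.range ℓ := by
    ext m
    simp only [Finset.mem_filter, Finset.mem_range]
    constructor
    · rintro ⟨h1, h2⟩
      rwa [Nat.mod_eq_of_lt h1] at h2
    · intro h
      have h1 : m < P := lt_of_lt_of_le h hℓ
      exact ⟨h1, by rwa [Nat.mod_eq_of_lt h1]⟩
  rw [hset, Finset.card_range]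

/-- In `q` consecutive blocks of length `P` exactly `ℓ * q` numbers have residue below `ℓ`. -/
private lemma ico_count (P ℓ a : ℕ) (hℓ : ℓ ≤ P) (q : ℕ) :
    ((Finset.Ico a (a + P * q)).filter (fun m => m % P < ℓ)).card = ℓ * q := by
  induction q with
  | zero => simp
  | succ q ih =>
    have hsplit : Finset.Ico a (a + P * (q + 1)) =
        Finset.Ico a (a + P * q) ∪ Finset.Ico (a + P * q) (a + P * q + P) := by
      rw [Finset.Ico_union_Ico_eq_Ico (by omega) (by omega)]
      congr 1
      ring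
    rw [hsplit, Finset.filter_union, Finset.card_union_of_disjoint, ih,
      block_count P ℓ (a + P * q) hℓ]
    · ring
    · exact Finset.disjoint_filter_filter
        (Finset.Ico_disjoint_Ico_consecutive a (a + P * q) (a + P * q + P))

private lemma range_count (P ℓ c : ℕ) (hℓ : ℓ ≤ P) (q : ℕ) :
    ((Finset.range (P * q)).filter (fun o => (c + o) % P < ℓ)).card = ℓ * q := by
  rw [← ico_count P ℓ c hℓ q]
  apply Finset.card_bij (fun o _ => c + o)
  · intro o ho
    rw [Finset.mem_filter, Finset.mem_range] at ho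
    rw [Finset.mem_filter, Finset.mem_Ico]
    exact ⟨⟨by omega, by omega⟩, ho.2⟩
  · intro o1 _ o2 _ h
    omega
  · intro m hm
    rw [Finset.mem_filter, Finset.mem_Ico] at hm
    refine ⟨m - c, ?_, by omega⟩
    rw [Finset.mem_filter, Finset.mem_range]
    refine ⟨by omega, ?_⟩
    have e : c + (m - c) = m := by omega
    rw [e]
    exact hm.2

/-- Exactly a third of the offsets below `3 * 2^Jn` put the class `c` in a window. -/
lemma offset_count (c j Jn : ℕ) (hj : j < Jn) :
    ((Finset.range (3 * 2 ^ Jn)).filter (fun o => (c + o) % (3 * 2 ^ j) < 2 ^ j)).card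
      = 2 ^ Jn := by
  have hpow : 2 ^ Jn = 2 ^ j * 2 ^ (Jn - j) := by
    rw [← pow_add]
    congr 1
    omega
  have h := range_count (3 * 2 ^ j) (2 ^ j) c (by omega) (2 ^ (Jn - j))
  have e : 3 * 2 ^ j * 2 ^ (Jn - j) = 3 * 2 ^ Jn := by
    rw [hpow]
    ring
  rw [e] at h
  rw [h, hpow]

/-- If the class `c` is in a window, the classes below the next window reach `c + 2^(j+1) - 1`
and the top class of its window is at most `c + 2^j - 1`. -/
lemma window_arith (c j o : ℕ) (hc : 1 ≤ c) (h : (c + o) % (3 * 2 ^ j) < 2 ^ j) :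
    c + 2 ^ (j + 1) - 1 ≤ loLev (3 * 2 ^ j) o (widx (3 * 2 ^ j) o c + 1) ∧
      widx (3 * 2 ^ j) o c * (3 * 2 ^ j) + 2 ^ j - 1 - o ≤ c + 2 ^ j - 1 := by
  unfold loLev widx
  have h2 : 2 ^ (j + 1) = 2 * 2 ^ j := by ring
  rw [h2]
  have hdm := Nat.div_add_mod (c + o) (3 * 2 ^ j)
  generalize 2 ^ j = ℓ at h hdm ⊢
  generalize (c + o) / (3 * ℓ) = k at hdm ⊢
  generalize (c + o) % (3 * ℓ) = r at h hdm
  have e1 : (k + 1) * (3 * ℓ) = 3 * (k * ℓ) + 3 * ℓ := by ring
  have e2 : k * (3 * ℓ) = 3 * (k * ℓ) := by ring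
  have e3 : 3 * ℓ * k = 3 * (k * ℓ) := by ring
  rw [e1, e2]
  rw [e3] at hdm
  generalize k * ℓ = X at hdm ⊢
  omega

end Vale.Agent.Lib.P331
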