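import Mathlib
import Vale.Agent.Lib.P331.Defs
import Vale.Agent.Lib.P331.Run
import Vale.Agent.Lib.P331.Pointwise
import Vale.Agent.Lib.P331.LLDefs
import Vale.Agent.Lib.P331.LLCls
import Vale.Agent.Lib.P331.LLCountA

/-!
The window lemma: flipping the coins of the elements with an item in the window maps the
configurations where the element is blocked into those where it is spanned by the samples of
the classes up to the top of the window.
-/

namespace Vale.Agent.Lib.P331

open scoped NNReal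

variable {E : Type*} [Fintype E] [DecidableEq E]

/-- The flip: change the coin of every element other than `e` and `e₁` that has an item whose
class lies in window `k`. -/
noncomputable def winFlip (M : Matroid E) (L : ℕ) (W : E × Bool → ℝ≥0) (e₁ e : E)
    (ℓ P o k : ℕ) (b : E → Bool) : E → Bool :=
  open Classical in
  fun f => if f ≠ e ∧ f ≠ e₁ ∧ (∃ β', inWin ℓ P o (cls (wstar M W) L (W (f, β'))) ∧
      widx P o (cls (wstar M W) L (W (f, β'))) = k) then !b f else b f

lemma winFlip_pos (M : Matroid E) (L : ℕ) (W : E × Bool → ℝ≥0) (e₁ e : E)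
    (ℓ P o k : ℕ) (b : E → Bool) (f : E)
    (h : f ≠ e ∧ f ≠ e₁ ∧ (∃ β', inWin ℓ P o (cls (wstar M W) L (W (f, β'))) ∧
      widx P o (cls (wstar M W) L (W (f, β'))) = k)) :
    winFlip M L W e₁ e ℓ P o k b f = !b f := by
  unfold winFlip
  exact if_pos h

lemma winFlip_neg (M : Matroid E) (L : ℕ) (W : E × Bool → ℝ≥0) (e₁ e : E)
    (ℓ P o k : ℕ) (b : E → Bool) (f : E)
    (h : ¬ (f ≠ e ∧ f ≠ e₁ ∧ (∃ β', inWin ℓ P o (cls (wstar M W) L (W (f, β'))) ∧
      widx P o (cls (wstar M W) L (W (f, β'))) = k))) :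
    winFlip M L W e₁ e ℓ P o k b f = b f := by
  unfold winFlip
  exact if_neg h

lemma winFlip_invol (M : Matroid E) (L : ℕ) (W : E × Bool → ℝ≥0) (e₁ e : E)
    (ℓ P o k : ℕ) : Function.Involutive (winFlip M L W e₁ e ℓ P o k) := by
  intro b
  funext f
  by_cases h : f ≠ e ∧ f ≠ e₁ ∧ (∃ β', inWin ℓ P o (cls (wstar M W) L (W (f, β'))) ∧
      widx P o (cls (wstar M W) L (W (f, β'))) = k)
  · rw [winFlip_pos M L W e₁ e ℓ P o k _ f h, winFlip_pos M L W e₁ e ℓ P o k _ f h,
      Bool.not_not]
  · rw [winFlip_neg M L W e₁ e ℓ P o k _ f h, winFlip_neg M L W e₁ e ℓ P o k _ f h]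

/-- The flip does not change the coins of `e₁` and `e`. -/
lemma winFlip_mem_Tset (M : Matroid E) (L : ℕ) (W : E × Bool → ℝ≥0) (e₁ : E) (β₁ : Bool)
    (e : E) (β : Bool) (ℓ P o k : ℕ) (b : E → Bool) (hb : b ∈ Tset e₁ β₁ e β) :
    winFlip M L W e₁ e ℓ P o k b ∈ Tset e₁ β₁ e β := by
  rw [mem_Tset] at hb ⊢
  refine ⟨?_, ?_⟩
  · rw [winFlip_neg M L W e₁ e ℓ P o k b e₁ (fun h => h.2.1 rfl)]
    exact hb.1
  · rw [winFlip_neg M L W e₁ e ℓ P o k b e (fun h => h.1 rfl)]
    exact hb.2

lemma llw_div_pow_anti (m : ℝ≥0) {x y : ℕ} (h : x ≤ y) : m / 2 ^ y ≤ m / 2 ^ x := by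
  rw [div_eq_mul_inv, div_eq_mul_inv]
  have h2 : (2 : ℝ≥0) ^ x ≤ 2 ^ y := pow_le_pow_right₀ (by norm_num) h
  have h3 : ((2 : ℝ≥0) ^ y)⁻¹ ≤ (2 ^ x)⁻¹ := inv_anti₀ (by positivity) h2
  exact mul_le_mul_of_nonneg_left h3 (by positivity)

lemma llw_div_pow_lt_self (m : ℝ≥0) (hm : 0 < m) {x : ℕ} (h : 1 ≤ x) : m / 2 ^ x < m := by
  calc m / 2 ^ x ≤ m / 2 ^ 1 := llw_div_pow_anti m h
    _ = m / 2 := by rw [pow_one]
    _ < m := NNReal.half_lt_self hm.ne'

/-- The set blocking `e` in the configuration `b` is contained, after the flip, in the sample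
elements of the classes up to the top `k * P + ℓ - 1 - o` of the window. -/
lemma block_subset (M : Matroid E) (L : ℕ) (W : E × Bool → ℝ≥0) (e₁ : E) (β₁ : Bool)
    (he₁ : M.Indep {e₁}) (hβ₁ : W (e₁, β₁) = wstar M W) (e : E) (β : Bool) (hne : e ≠ e₁)
    (ℓ P o : ℕ) (hin : inWin ℓ P o (cls (wstar M W) L (W (e, β))))
    (b : E → Bool) (hb : b ∈ Tset e₁ β₁ e β) :
    Glev M L (sOf W b) P o (widx P o (cls (wstar M W) L (W (e, β)))) ∪
        {f | f ≠ e ∧ M.Indep {f} ∧ inWin ℓ P o (cls (maxS M (sOf W b)) L (vOf W b f)) ∧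
          widx P o (cls (maxS M (sOf W b)) L (vOf W b f))
            = widx P o (cls (wstar M W) L (W (e, β)))}
      ⊆ Klev M L (wstar M W)
          (sOf W (winFlip M L W e₁ e ℓ P o (widx P o (cls (wstar M W) L (W (e, β)))) b))
          (widx P o (cls (wstar M W) L (W (e, β))) * P + ℓ - 1 - o) := by
  have _hne := hne
  obtain ⟨hb1, -⟩ := (mem_Tset e₁ β₁ e β b).1 hb
  have hmax : maxS M (sOf W b) = wstar M W := maxS_sOf M W e₁ β₁ he₁ hβ₁ b hb1
  have hwpos : 0 < wstar M W := (cls_pos_imp _ L _ hin.1).1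
  obtain ⟨-, -, hlotop⟩ := win_bounds ℓ P o _ hin
  generalize widx P o (cls (wstar M W) L (W (e, β))) = k at hlotop ⊢
  generalize htop : k * P + ℓ - 1 - o = top at hlotop ⊢
  intro f hf
  rcases hf with hf | hf
  · -- `f` is a sample element of a class below the window
    obtain ⟨hfi, hfs⟩ : M.Indep {f} ∧
        (L ≤ loLev P o k ∨ maxS M (sOf W b) / 2 ^ loLev P o k < sOf W b f) := hf
    refine ⟨hfi, ?_⟩
    rcases hfs with hL | hs
    · exact Or.inl (hL.trans hlotop)
    · right
      rw [hmax] at hs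
      have hs' : wstar M W / 2 ^ loLev P o k < W (f, !b f) := hs
      by_cases hcond : f ≠ e ∧ f ≠ e₁ ∧ (∃ β', inWin ℓ P o (cls (wstar M W) L (W (f, β'))) ∧
          widx P o (cls (wstar M W) L (W (f, β'))) = k)
      · have hfl : winFlip M L W e₁ e ℓ P o k b f = !b f :=
          winFlip_pos M L W e₁ e ℓ P o k b f hcond
        obtain ⟨-, -, β', hw, hwk⟩ := hcond
        obtain ⟨hlo', hctop', -⟩ := win_bounds ℓ P o _ hw
        rw [hwk] at hlo' hctop'
        rw [htop] at hctop'
        obtain ⟨-, -, -, hgt, hle⟩ := cls_pos_imp (wstar M W) L (W (f, β')) hw.1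
        have h1 : W (f, β') < W (f, !b f) := by
          calc W (f, β') ≤ wstar M W / 2 ^ (cls (wstar M W) L (W (f, β')) - 1) := hle
            _ ≤ wstar M W / 2 ^ loLev P o k := llw_div_pow_anti _ (by omega)
            _ < W (f, !b f) := hs'
        have hβ' : β' = b f := by
          by_contra hne'
          have h2 : β' = !b f := by
            cases β' <;> cases hbf : b f <;> simp_all
          rw [h2] at h1
          exact lt_irrefl _ h1
        show wstar M W / 2 ^ top < W (f, !(winFlip M L W e₁ e ℓ P o k b f))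
        rw [hfl, Bool.not_not, ← hβ']
        exact lt_of_le_of_lt (llw_div_pow_anti _ hctop') hgt
      · have hfl : winFlip M L W e₁ e ℓ P o k b f = b f :=
          winFlip_neg M L W e₁ e ℓ P o k b f hcond
        show wstar M W / 2 ^ top < W (f, !(winFlip M L W e₁ e ℓ P o k b f))
        rw [hfl]
        exact lt_of_le_of_lt (llw_div_pow_anti _ hlotop) hs'
  · -- the value of `f` has its class in the window
    obtain ⟨hfe, hfi, hw, hwk⟩ := hf
    rw [hmax] at hw hwk
    have hv : vOf W b f = W (f, b f) := rfl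
    rw [hv] at hw hwk
    refine ⟨hfi, Or.inr ?_⟩
    obtain ⟨-, hctop', -⟩ := win_bounds ℓ P o _ hw
    rw [hwk, htop] at hctop'
    obtain ⟨-, -, -, hgt, -⟩ := cls_pos_imp (wstar M W) L (W (f, b f)) hw.1
    show wstar M W / 2 ^ top < W (f, !(winFlip M L W e₁ e ℓ P o k b f))
    by_cases hfe1 : f = e₁
    · have hfl : winFlip M L W e₁ e ℓ P o k b f = b f :=
        winFlip_neg M L W e₁ e ℓ P o k b f (fun h => h.2.1 hfe1)
      rw [hfl, hfe1, hb1, Bool.not_not, hβ₁]
      exact llw_div_pow_lt_self _ hwpos (le_trans hw.1 hctop')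
    · have hfl : winFlip M L W e₁ e ℓ P o k b f = !b f :=
        winFlip_pos M L W e₁ e ℓ P o k b f ⟨hfe, hfe1, b f, hw, hwk⟩
      rw [hfl, Bool.not_not]
      exact lt_of_le_of_lt (llw_div_pow_anti _ hctop') hgt

/-- The window lemma: the number of configurations where `e` is spanned by the sample elements
of the classes below the next window is at most the number where `e` is certain to be accepted
plus the number where `e` is spanned by the sample elements of the classes up to the top of its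
window. -/
lemma window_count (M : Matroid E) (L : ℕ) (W : E × Bool → ℝ≥0) (e₁ : E) (β₁ : Bool)
    (he₁ : M.Indep {e₁}) (hβ₁ : W (e₁, β₁) = wstar M W) (e : E) (β : Bool) (hne : e ≠ e₁)
    (ℓ P o : ℕ) (hin : inWin ℓ P o (cls (wstar M W) L (W (e, β)))) :
    nlev M L W e₁ β₁ e β (loLev P o (widx P o (cls (wstar M W) L (W (e, β))) + 1))
      ≤ ncert M L W e₁ β₁ e β ℓ P o
        + nlev M L W e₁ β₁ e β
            (widx P o (cls (wstar M W) L (W (e, β))) * P + ℓ - 1 - o) := by
  classical
  unfold nlev ncert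
  have hsub : (Tset e₁ β₁ e β).filter (fun b => e ∈ M.closure (Klev M L (wstar M W) (sOf W b)
        (loLev P o (widx P o (cls (wstar M W) L (W (e, β))) + 1))))
      ⊆ (Tset e₁ β₁ e β).filter (fun b => Certain M L ℓ P o (sOf W b) (vOf W b) e) ∪
        (Tset e₁ β₁ e β).filter (fun b => e ∈ M.closure
          (Glev M L (sOf W b) P o (widx P o (cls (wstar M W) L (W (e, β)))) ∪
            {f | f ≠ e ∧ M.Indep {f} ∧ inWin ℓ P o (cls (maxS M (sOf W b)) L (vOf W b f)) ∧
              widx P o (cls (maxS M (sOf W b)) L (vOf W b f))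
                = widx P o (cls (wstar M W) L (W (e, β)))})) := by
    intro b hb
    rw [Finset.mem_filter] at hb
    obtain ⟨hbT, hX⟩ := hb
    rw [Finset.mem_union, Finset.mem_filter, Finset.mem_filter]
    by_cases hY : e ∈ M.closure
          (Glev M L (sOf W b) P o (widx P o (cls (wstar M W) L (W (e, β)))) ∪
            {f | f ≠ e ∧ M.Indep {f} ∧ inWin ℓ P o (cls (maxS M (sOf W b)) L (vOf W b f)) ∧
              widx P o (cls (maxS M (sOf W b)) L (vOf W b f))
                = widx P o (cls (wstar M W) L (W (e, β)))})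
    · exact Or.inr ⟨hbT, hY⟩
    · left
      refine ⟨hbT, ?_⟩
      obtain ⟨hb1, hb2⟩ := (mem_Tset e₁ β₁ e β b).1 hbT
      have hmax : maxS M (sOf W b) = wstar M W := maxS_sOf M W e₁ β₁ he₁ hβ₁ b hb1
      have hve : vOf W b e = W (e, β) := by
        show W (e, b e) = W (e, β)
        rw [hb2]
      have hc : cls (maxS M (sOf W b)) L (vOf W b e) = cls (wstar M W) L (W (e, β)) := by
        rw [hmax, hve]
      unfold Certain
      rw [hc]
      refine ⟨hin, ?_, hY⟩
      show e ∈ M.closure (Klev M L (maxS M (sOf W b)) (sOf W b)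
        (loLev P o (widx P o (cls (wstar M W) L (W (e, β))) + 1)))
      rw [hmax]
      exact hX
  have hinj : ((Tset e₁ β₁ e β).filter (fun b => e ∈ M.closure
          (Glev M L (sOf W b) P o (widx P o (cls (wstar M W) L (W (e, β)))) ∪
            {f | f ≠ e ∧ M.Indep {f} ∧ inWin ℓ P o (cls (maxS M (sOf W b)) L (vOf W b f)) ∧
              widx P o (cls (maxS M (sOf W b)) L (vOf W b f))
                = widx P o (cls (wstar M W) L (W (e, β)))}))).card
      ≤ ((Tset e₁ β₁ e β).filter (fun b => e ∈ M.closure (Klev M L (wstar M W) (sOf W b)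
        (widx P o (cls (wstar M W) L (W (e, β))) * P + ℓ - 1 - o)))).card := by
    refine Finset.card_le_card_of_injOn
      (winFlip M L W e₁ e ℓ P o (widx P o (cls (wstar M W) L (W (e, β))))) ?_ ?_
    · intro b hb
      have hb' := Finset.mem_filter.1 (Finset.mem_coe.1 hb)
      refine Finset.mem_coe.2 (Finset.mem_filter.2 ⟨?_, ?_⟩)
      · exact winFlip_mem_Tset M L W e₁ β₁ e β ℓ P o _ b hb'.1
      · exact M.closure_subset_closure
          (block_subset M L W e₁ β₁ he₁ hβ₁ e β hne ℓ P o hin b hb'.1) hb'.2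
    · exact (winFlip_invol M L W e₁ e ℓ P o _).injective.injOn
  exact (Finset.card_le_card hsub).trans ((Finset.card_union_le _ _).trans
    (Nat.add_le_add_left hinj _))

end Vale.Agent.Lib.P331
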