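import Mathlib
import Vale.Agent.Lib.P331.Defs
import Vale.Agent.Lib.P331.Run
import Vale.Agent.Lib.P331.Pointwise
import Vale.Agent.Lib.P331.LLDefs
import Vale.Agent.Lib.P331.LLCls
import Vale.Agent.Lib.P331.LLCountA
import Vale.Agent.Lib.P331.LLWindow
import Vale.Agent.Lib.P331.LLOffset

/-!
Per item: summed over the scales and offsets, the configurations where the element is certain
to be accepted, plus those where it is spanned by the samples of its own and higher classes,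
cover all configurations.
-/

namespace Vale.Agent.Lib.P331

open scoped NNReal

variable {E : Type*} [Fintype E] [DecidableEq E]

/-- One scale `j`: summed over the offsets. -/
lemma scale_count (M : Matroid E) (L : ℕ) (W : E × Bool → ℝ≥0) (e₁ : E) (β₁ : Bool)
    (he₁ : M.Indep {e₁}) (hβ₁ : W (e₁, β₁) = wstar M W) (e : E) (β : Bool) (hne : e ≠ e₁)
    (hc : 1 ≤ cls (wstar M W) L (W (e, β))) (j Jn : ℕ) (hj : j < Jn) :
    2 ^ Jn * nlev M L W e₁ β₁ e β (cls (wstar M W) L (W (e, β)) + 2 ^ (j + 1) - 1)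
      ≤ ∑ o ∈ Finset.range (3 * 2 ^ Jn), ncert M L W e₁ β₁ e β (2 ^ j) (3 * 2 ^ j) o
        + 2 ^ Jn * nlev M L W e₁ β₁ e β (cls (wstar M W) L (W (e, β)) + 2 ^ j - 1) := by
  have hcard : ((Finset.range (3 * 2 ^ Jn)).filter
      (fun o => (cls (wstar M W) L (W (e, β)) + o) % (3 * 2 ^ j) < 2 ^ j)).card = 2 ^ Jn :=
    offset_count (cls (wstar M W) L (W (e, β))) j Jn hj
  have hpt : ∀ o ∈ (Finset.range (3 * 2 ^ Jn)).filter
      (fun o => (cls (wstar M W) L (W (e, β)) + o) % (3 * 2 ^ j) < 2 ^ j),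
      nlev M L W e₁ β₁ e β (cls (wstar M W) L (W (e, β)) + 2 ^ (j + 1) - 1)
        ≤ ncert M L W e₁ β₁ e β (2 ^ j) (3 * 2 ^ j) o
          + nlev M L W e₁ β₁ e β (cls (wstar M W) L (W (e, β)) + 2 ^ j - 1) := by
    intro o ho
    have h : (cls (wstar M W) L (W (e, β)) + o) % (3 * 2 ^ j) < 2 ^ j :=
      (Finset.mem_filter.mp ho).2
    have hin : inWin (2 ^ j) (3 * 2 ^ j) o (cls (wstar M W) L (W (e, β))) := ⟨hc, h⟩
    have hw := window_count M L W e₁ β₁ he₁ hβ₁ e β hne (2 ^ j) (3 * 2 ^ j) o hin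
    have ha := window_arith (cls (wstar M W) L (W (e, β))) j o hc h
    have h1 := nlev_mono M L W e₁ β₁ e β ha.1
    have h2 := nlev_mono M L W e₁ β₁ e β ha.2
    exact h1.trans (hw.trans (Nat.add_le_add_left h2 _))
  have hsum := Finset.sum_le_sum hpt
  rw [Finset.sum_const, smul_eq_mul, Finset.sum_add_distrib, Finset.sum_const, smul_eq_mul,
    hcard] at hsum
  have hsub : ∑ o ∈ (Finset.range (3 * 2 ^ Jn)).filter
        (fun o => (cls (wstar M W) L (W (e, β)) + o) % (3 * 2 ^ j) < 2 ^ j),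
        ncert M L W e₁ β₁ e β (2 ^ j) (3 * 2 ^ j) o
      ≤ ∑ o ∈ Finset.range (3 * 2 ^ Jn), ncert M L W e₁ β₁ e β (2 ^ j) (3 * 2 ^ j) o :=
    Finset.sum_le_sum_of_subset (Finset.filter_subset _ _)
  exact hsum.trans (Nat.add_le_add_right hsub _)

/-- All scales: telescoping. -/
lemma item_count (M : Matroid E) (L : ℕ) (W : E × Bool → ℝ≥0) (e₁ : E) (β₁ : Bool)
    (he₁ : M.Indep {e₁}) (hβ₁ : W (e₁, β₁) = wstar M W) (e : E) (β : Bool) (hne : e ≠ e₁)
    (he : M.Indep {e}) (hc : 1 ≤ cls (wstar M W) L (W (e, β))) (Jn : ℕ) (hJ : L ≤ 2 ^ Jn) :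
    2 ^ Jn * (Tset e₁ β₁ e β).card
      ≤ ∑ j ∈ Finset.range Jn, ∑ o ∈ Finset.range (3 * 2 ^ Jn),
          ncert M L W e₁ β₁ e β (2 ^ j) (3 * 2 ^ j) o
        + 2 ^ Jn * nlev M L W e₁ β₁ e β (cls (wstar M W) L (W (e, β))) := by
  have key : ∀ n : ℕ, n ≤ Jn →
      2 ^ Jn * nlev M L W e₁ β₁ e β (cls (wstar M W) L (W (e, β)) + 2 ^ n - 1)
        ≤ ∑ j ∈ Finset.range n, ∑ o ∈ Finset.range (3 * 2 ^ Jn),
            ncert M L W e₁ β₁ e β (2 ^ j) (3 * 2 ^ j) o
          + 2 ^ Jn * nlev M L W e₁ β₁ e β (cls (wstar M W) L (W (e, β))) := by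
    intro n
    induction n with
    | zero =>
      intro _
      have e0 : cls (wstar M W) L (W (e, β)) + 2 ^ 0 - 1 = cls (wstar M W) L (W (e, β)) := by
        simp
      rw [e0]
      exact Nat.le_add_left _ _
    | succ n ih =>
      intro hn
      have h1 := scale_count M L W e₁ β₁ he₁ hβ₁ e β hne hc n Jn (by omega)
      have h2 := ih (by omega)
      rw [Finset.sum_range_succ]
      omega
  have hfin := key Jn le_rfl
  have hpos : 1 ≤ 2 ^ Jn := Nat.one_le_two_pow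
  have htop : nlev M L W e₁ β₁ e β (cls (wstar M W) L (W (e, β)) + 2 ^ Jn - 1)
      = (Tset e₁ β₁ e β).card :=
    nlev_top M L W e₁ β₁ e β he _ (by omega)
  rw [htop] at hfin
  exact hfin

end Vale.Agent.Lib.P331
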