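import Mathlib
import Vale.Agent.Lib.P331.Defs
import Vale.Agent.Lib.P331.Run
import Vale.Agent.Lib.P331.Pointwise
import Vale.Agent.Lib.P331.LLDefs
import Vale.Agent.Lib.P331.LLCls
import Vale.Agent.Lib.P331.LLCountA
import Vale.Agent.Lib.P331.LLGreedyA

/-!
Exchanging sums: the weighted counts over the items of `Bo` are at most the sums of `QS` and
`QD` over all configurations.
-/

namespace Vale.Agent.Lib.P331

open scoped NNReal

variable {E : Type*} [Fintype E] [DecidableEq E]

/-- A weight times the number of elements of a filtered finset, as a sum. -/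
private lemma mul_card_filter_eq {α : Type*} (s : Finset α) (p : α → Prop) [DecidablePred p]
    (w : ℝ≥0) : w * ((s.filter p).card : ℝ≥0) = ∑ b ∈ s, if p b then w else 0 := by
  rw [Finset.card_filter, Nat.cast_sum, Finset.mul_sum]
  refine Finset.sum_congr rfl ?_
  intro b _
  by_cases h : p b <;> simp [h]

omit [DecidableEq E] in
/-- The sum over all items that are the value of their element in the configuration `b` is a
sum over the elements. -/
private lemma item_sum_collapse (W : E × Bool → ℝ≥0) (b : E → Bool) (C : E → Prop)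
    [DecidablePred C] :
    ∑ i : E × Bool, (if (i.2 = b i.1 ∧ C i.1) then W i else 0)
      = ∑ e, if C e then W (e, b e) else 0 := by
  rw [Fintype.sum_prod_type]
  refine Finset.sum_congr rfl ?_
  intro e _
  by_cases h : C e
  · simp [h]
  · simp [h]

/-- The exchange of sums behind both lemmas. -/
private lemma exchange_le (S : Finset (E × Bool)) (W : E × Bool → ℝ≥0)
    (T : E × Bool → Finset (E → Bool)) (p : E × Bool → (E → Bool) → Prop)
    [∀ i, DecidablePred (p i)] (C : (E → Bool) → E → Prop) [∀ b, DecidablePred (C b)]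
    (h : ∀ i ∈ S, ∀ b ∈ T i, p i b → (i.2 = b i.1 ∧ C b i.1)) :
    ∑ i ∈ S, W i * (((T i).filter (p i)).card : ℝ≥0)
      ≤ ∑ b : E → Bool, ∑ e, if C b e then W (e, b e) else 0 := by
  calc ∑ i ∈ S, W i * (((T i).filter (p i)).card : ℝ≥0)
      = ∑ i ∈ S, ∑ b ∈ T i, if p i b then W i else 0 := by
        refine Finset.sum_congr rfl ?_
        intro i _
        exact mul_card_filter_eq _ _ _
    _ ≤ ∑ i ∈ S, ∑ b : E → Bool, if (i.2 = b i.1 ∧ C b i.1) then W i else 0 := by
        refine Finset.sum_le_sum ?_
        intro i hi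
        have h1 : ∑ b ∈ T i, (if p i b then W i else 0)
            ≤ ∑ b ∈ T i, if (i.2 = b i.1 ∧ C b i.1) then W i else 0 := by
          refine Finset.sum_le_sum ?_
          intro b hb
          by_cases hp : p i b
          · rw [if_pos hp, if_pos (h i hi b hb hp)]
          · rw [if_neg hp]
            exact zero_le
        exact h1.trans (Finset.sum_le_sum_of_subset (Finset.subset_univ _))
    _ = ∑ b : E → Bool, ∑ i ∈ S, if (i.2 = b i.1 ∧ C b i.1) then W i else 0 := Finset.sum_comm
    _ ≤ ∑ b : E → Bool, ∑ i : E × Bool, if (i.2 = b i.1 ∧ C b i.1) then W i else 0 := by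
        refine Finset.sum_le_sum ?_
        intro b _
        exact Finset.sum_le_sum_of_subset (Finset.subset_univ _)
    _ = ∑ b : E → Bool, ∑ e, if C b e then W (e, b e) else 0 := by
        refine Finset.sum_congr rfl ?_
        intro b _
        exact item_sum_collapse W b (C b)

/-- The weighted number of configurations where an item of `Bo` is the value of its element and
that element is certain to be accepted is at most the sum of `QS` over all configurations. -/
lemma sum_ncert_le (M : Matroid E) (ord : E → ℕ) (L : ℕ) (W : E × Bool → ℝ≥0) (e₁ : E)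
    (β₁ : Bool) (ℓ P o : ℕ) :
    ∑ i ∈ Bo M ord L W e₁, W i * (ncert M L W e₁ β₁ i.1 i.2 ℓ P o : ℝ≥0)
      ≤ ∑ b : E → Bool, QS M L ℓ P o (sOf W b) (vOf W b) := by
  classical
  have key := exchange_le (Bo M ord L W e₁) W (fun i => Tset e₁ β₁ i.1 i.2)
    (fun i b => Certain M L ℓ P o (sOf W b) (vOf W b) i.1)
    (fun b e => Certain M L ℓ P o (sOf W b) (vOf W b) e) ?_
  · exact key
  · intro i _ b hb hp
    exact ⟨(((mem_Tset e₁ β₁ i.1 i.2 b).1 hb).2).symm, hp⟩

/-- The weighted number of configurations where an item of `Bo` is the value of its element and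
that element is spanned by the sample elements of its own and higher classes is at most the
sum of `QD` over all configurations. -/
lemma sum_nlev_le (M : Matroid E) (ord : E → ℕ) (L : ℕ) (W : E × Bool → ℝ≥0) (e₁ : E)
    (β₁ : Bool) (he₁ : M.Indep {e₁}) (hβ₁ : W (e₁, β₁) = wstar M W) :
    ∑ i ∈ Bo M ord L W e₁,
        W i * (nlev M L W e₁ β₁ i.1 i.2 (cls (wstar M W) L (W i)) : ℝ≥0)
      ≤ ∑ b : E → Bool, QD M ord L (sOf W b) (vOf W b) b := by
  classical
  have key := exchange_le (Bo M ord L W e₁) W (fun i => Tset e₁ β₁ i.1 i.2)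
    (fun i b => i.1 ∈ M.closure (Klev M L (wstar M W) (sOf W b) (cls (wstar M W) L (W i))))
    (fun b e => InB M ord (Wof (sOf W b) (vOf W b) b) (e, b e) ∧
      1 ≤ cls (maxS M (sOf W b)) L (vOf W b e) ∧
      e ∈ M.closure (Klev M L (maxS M (sOf W b)) (sOf W b)
        (cls (maxS M (sOf W b)) L (vOf W b e)))) ?_
  · exact key
  · rintro ⟨e, β⟩ hi b hb hp
    obtain ⟨hb1, hb2⟩ := (mem_Tset e₁ β₁ e β b).1 hb
    have hi' : InB M ord W (e, β) ∧ e ≠ e₁ ∧ wstar M W / 2 ^ L < W (e, β) := by
      have hi2 := hi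
      unfold Bo at hi2
      exact (Finset.mem_filter.1 hi2).2
    obtain ⟨hInB, _, hlt⟩ := hi'
    have hW : Wof (sOf W b) (vOf W b) b = W := wof_sOf_vOf W b
    have hmax : maxS M (sOf W b) = wstar M W := maxS_sOf M W e₁ β₁ he₁ hβ₁ b hb1
    have hv : vOf W b e = W (e, β) := by
      show W (e, b e) = W (e, β)
      rw [hb2]
    have hpos : 1 ≤ cls (wstar M W) L (W (e, β)) :=
      cls_pos_of _ _ _ (le_wstar M W (e, β) hInB.1) hlt
    refine ⟨hb2.symm, ?_, ?_, ?_⟩
    · show InB M ord (Wof (sOf W b) (vOf W b) b) (e, b e)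
      rw [hW, hb2]
      exact hInB
    · show 1 ≤ cls (maxS M (sOf W b)) L (vOf W b e)
      rw [hmax, hv]
      exact hpos
    · show e ∈ M.closure (Klev M L (maxS M (sOf W b)) (sOf W b)
        (cls (maxS M (sOf W b)) L (vOf W b e)))
      rw [hmax, hv]
      exact hp

end Vale.Agent.Lib.P331
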