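import Mathlib
import Vale.Agent.Lib.P331.Defs
import Vale.Agent.Lib.P331.Run
import Vale.Agent.Lib.P331.Pointwise
import Vale.Agent.Lib.P331.LLDefs
import Vale.Agent.Lib.P331.LLCls
import Vale.Agent.Lib.P331.LLCountA
import Vale.Agent.Lib.P331.LLGreedyA
import Vale.Agent.Lib.P331.LLGreedyB
import Vale.Agent.Lib.P331.LLItem
import Vale.Agent.Lib.P331.LLSums

/-!
The combinatorial core: for fixed item weights, summed over all configurations, the optimum is
bounded by the largest weight and the sums of `QS` and `QD`.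
-/

namespace Vale.Agent.Lib.P331

open scoped NNReal

variable {E : Type*} [Fintype E] [DecidableEq E]

omit [DecidableEq E] in
/-- Without non-loop elements the optimum vanishes. -/
lemma opt_eq_zero_of_no_nonloop (M : Matroid E) (h : ∀ e, ¬ M.Indep {e}) (v : E → ℝ≥0) :
    opt M v = 0 := by
  classical
  unfold opt
  apply le_antisymm _ (zero_le)
  apply Finset.sup_le
  intro I hI
  rw [Finset.mem_filter] at hI
  have hI0 : I = ∅ := by
    rw [Finset.eq_empty_iff_forall_notMem]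
    intro e he
    exact h e (hI.2.subset (by simpa using he))
  rw [hI0]
  simp

omit [DecidableEq E] in
/-- With a non-loop element, some item of a non-loop element has the largest weight. -/
lemma exists_top_item (M : Matroid E) (W : E × Bool → ℝ≥0) (e₀ : E) (h₀ : M.Indep {e₀}) :
    ∃ (e₁ : E) (β₁ : Bool), M.Indep {e₁} ∧ W (e₁, β₁) = wstar M W := by
  classical
  have hne : (Finset.univ.filter (fun f : E => M.Indep {f})).Nonempty :=
    ⟨e₀, Finset.mem_filter.mpr ⟨Finset.mem_univ _, h₀⟩⟩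
  obtain ⟨e₁, he₁, hmax⟩ := Finset.exists_max_image _
    (fun e => max (W (e, true)) (W (e, false))) hne
  rw [Finset.mem_filter] at he₁
  have hw : wstar M W = max (W (e₁, true)) (W (e₁, false)) := by
    unfold wstar maxS
    apply le_antisymm
    · apply Finset.sup_le
      intro f hf
      exact hmax f hf
    · exact Finset.le_sup (f := fun e => max (W (e, true)) (W (e, false)))
        (Finset.mem_filter.mpr ⟨Finset.mem_univ _, he₁.2⟩)
  rcases le_total (W (e₁, true)) (W (e₁, false)) with h | h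
  · exact ⟨e₁, false, he₁.2, by rw [hw, max_eq_right h]⟩
  · exact ⟨e₁, true, he₁.2, by rw [hw, max_eq_left h]⟩

/-- The weight of `Bo` is covered by the sums of `QS` and `QD` over all configurations. -/
lemma Bo_weight_le (M : Matroid E) (ord : E → ℕ) (L Jn : ℕ) (hJ : L ≤ 2 ^ Jn)
    (W : E × Bool → ℝ≥0) (e₁ : E) (β₁ : Bool) (he₁ : M.Indep {e₁})
    (hβ₁ : W (e₁, β₁) = wstar M W) :
    (2 : ℝ≥0) ^ Jn * 2 ^ Fintype.card E * ∑ i ∈ Bo M ord L W e₁, W i
      ≤ 4 * (∑ j ∈ Finset.range Jn, ∑ o ∈ Finset.range (3 * 2 ^ Jn), ∑ b : E → Bool,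
              QS M L (2 ^ j) (3 * 2 ^ j) o (sOf W b) (vOf W b)
          + 2 ^ Jn * ∑ b : E → Bool, QD M ord L (sOf W b) (vOf W b) b) := by
  classical
  have hitem : ∀ i ∈ Bo M ord L W e₁,
      (2 : ℝ≥0) ^ Jn * 2 ^ Fintype.card E * W i
        ≤ 4 * (∑ j ∈ Finset.range Jn, ∑ o ∈ Finset.range (3 * 2 ^ Jn),
                W i * (ncert M L W e₁ β₁ i.1 i.2 (2 ^ j) (3 * 2 ^ j) o : ℝ≥0)
            + 2 ^ Jn * (W i * (nlev M L W e₁ β₁ i.1 i.2 (cls (wstar M W) L (W i)) : ℝ≥0))) := by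
    intro i hi
    unfold Bo at hi
    rw [Finset.mem_filter] at hi
    obtain ⟨_, hB, hne, hθ⟩ := hi
    have hnl : M.Indep {i.1} := hB.1
    have hc : 1 ≤ cls (wstar M W) L (W i) := cls_pos_of _ _ _ (le_wstar M W i hnl) hθ
    have h1 := item_count M L W e₁ β₁ he₁ hβ₁ i.1 i.2 hne hnl hc Jn hJ
    have h2 := card_Tset e₁ β₁ i.1 i.2 hne
    have h3 : 2 ^ Jn * 2 ^ Fintype.card E
        ≤ 4 * (∑ j ∈ Finset.range Jn, ∑ o ∈ Finset.range (3 * 2 ^ Jn),
                ncert M L W e₁ β₁ i.1 i.2 (2 ^ j) (3 * 2 ^ j) o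
            + 2 ^ Jn * nlev M L W e₁ β₁ i.1 i.2 (cls (wstar M W) L (W (i.1, i.2)))) := by
      calc 2 ^ Jn * 2 ^ Fintype.card E = 4 * (2 ^ Jn * (Tset e₁ β₁ i.1 i.2).card) := by
            rw [← h2]; ring
        _ ≤ _ := Nat.mul_le_mul_left 4 h1
    have h4 : ((2 ^ Jn * 2 ^ Fintype.card E : ℕ) : ℝ≥0)
        ≤ ((4 * (∑ j ∈ Finset.range Jn, ∑ o ∈ Finset.range (3 * 2 ^ Jn),
                ncert M L W e₁ β₁ i.1 i.2 (2 ^ j) (3 * 2 ^ j) o
            + 2 ^ Jn * nlev M L W e₁ β₁ i.1 i.2 (cls (wstar M W) L (W (i.1, i.2)))) : ℕ) : ℝ≥0) :=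
      Nat.cast_le.mpr h3
    push_cast at h4
    have h5 := mul_le_mul_of_nonneg_right h4 (zero_le (a := W i))
    calc (2 : ℝ≥0) ^ Jn * 2 ^ Fintype.card E * W i
        ≤ 4 * (∑ j ∈ Finset.range Jn, ∑ o ∈ Finset.range (3 * 2 ^ Jn),
                (ncert M L W e₁ β₁ i.1 i.2 (2 ^ j) (3 * 2 ^ j) o : ℝ≥0)
            + 2 ^ Jn * (nlev M L W e₁ β₁ i.1 i.2 (cls (wstar M W) L (W (i.1, i.2))) : ℝ≥0))
          * W i := h5
      _ = _ := by
        rw [mul_assoc 4, add_mul, Finset.sum_mul]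
        congr 2
        · apply Finset.sum_congr rfl
          intro j _
          rw [Finset.sum_mul]
          apply Finset.sum_congr rfl
          intro o _
          rw [mul_comm]
        · ring
  calc (2 : ℝ≥0) ^ Jn * 2 ^ Fintype.card E * ∑ i ∈ Bo M ord L W e₁, W i
      = ∑ i ∈ Bo M ord L W e₁, (2 : ℝ≥0) ^ Jn * 2 ^ Fintype.card E * W i := by
        rw [Finset.mul_sum]
    _ ≤ ∑ i ∈ Bo M ord L W e₁,
          4 * (∑ j ∈ Finset.range Jn, ∑ o ∈ Finset.range (3 * 2 ^ Jn),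
                W i * (ncert M L W e₁ β₁ i.1 i.2 (2 ^ j) (3 * 2 ^ j) o : ℝ≥0)
            + 2 ^ Jn * (W i * (nlev M L W e₁ β₁ i.1 i.2 (cls (wstar M W) L (W i)) : ℝ≥0))) :=
        Finset.sum_le_sum hitem
    _ = 4 * (∑ j ∈ Finset.range Jn, ∑ o ∈ Finset.range (3 * 2 ^ Jn),
              ∑ i ∈ Bo M ord L W e₁, W i * (ncert M L W e₁ β₁ i.1 i.2 (2 ^ j) (3 * 2 ^ j) o : ℝ≥0)
          + 2 ^ Jn * ∑ i ∈ Bo M ord L W e₁,
              W i * (nlev M L W e₁ β₁ i.1 i.2 (cls (wstar M W) L (W i)) : ℝ≥0)) := by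
        rw [← Finset.mul_sum, Finset.sum_add_distrib, ← Finset.mul_sum]
        congr 2
        rw [Finset.sum_comm]
        apply Finset.sum_congr rfl
        intro j _
        rw [Finset.sum_comm]
    _ ≤ _ := by
        refine mul_le_mul_right (add_le_add ?_ ?_) 4
        · apply Finset.sum_le_sum
          intro j _
          apply Finset.sum_le_sum
          intro o _
          exact sum_ncert_le M ord L W e₁ β₁ (2 ^ j) (3 * 2 ^ j) o
        · exact mul_le_mul_right (sum_nlev_le M ord L W e₁ β₁ he₁ hβ₁) _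

/-- The combinatorial core. -/
theorem core (M : Matroid E) (ord : E → ℕ) (L Jn : ℕ) (hL : M.eRank.toNat ≤ 2 ^ L)
    (hJ : L ≤ 2 ^ Jn) (W : E × Bool → ℝ≥0) :
    (3 * 2 ^ Jn : ℝ≥0) * ∑ b : E → Bool, opt M (vOf W b)
      ≤ 2 ^ (Fintype.card E + 1) * (3 * 2 ^ Jn) * wstar M W
        + 12 * ∑ j ∈ Finset.range Jn, ∑ o ∈ Finset.range (3 * 2 ^ Jn), ∑ b : E → Bool,
            QS M L (2 ^ j) (3 * 2 ^ j) o (sOf W b) (vOf W b)
        + 4 * (3 * 2 ^ Jn) * ∑ b : E → Bool, QD M ord L (sOf W b) (vOf W b) b := by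
  classical
  by_cases hnl : ∀ e, ¬ M.Indep {e}
  · have : ∑ b : E → Bool, opt M (vOf W b) = 0 :=
      Finset.sum_eq_zero (fun b _ => opt_eq_zero_of_no_nonloop M hnl _)
    rw [this, mul_zero]
    exact zero_le
  · push Not at hnl
    obtain ⟨e₀, h₀⟩ := hnl
    obtain ⟨e₁, β₁, he₁, hβ₁⟩ := exists_top_item M W e₀ h₀
    have hopt : ∑ b : E → Bool, opt M (vOf W b)
        ≤ 2 ^ Fintype.card E * (2 * wstar M W + ∑ i ∈ Bo M ord L W e₁, W i) := by
      calc ∑ b : E → Bool, opt M (vOf W b)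
          ≤ ∑ _b : E → Bool, (2 * wstar M W + ∑ i ∈ Bo M ord L W e₁, W i) :=
            Finset.sum_le_sum (fun b _ => opt_le_B M ord L hL W e₁ b)
        _ = 2 ^ Fintype.card E * (2 * wstar M W + ∑ i ∈ Bo M ord L W e₁, W i) := by
            rw [Finset.sum_const, Finset.card_univ, Fintype.card_fun, Fintype.card_bool,
              nsmul_eq_mul]
            push_cast
            rfl
    have hB := Bo_weight_le M ord L Jn hJ W e₁ β₁ he₁ hβ₁
    set S := ∑ j ∈ Finset.range Jn, ∑ o ∈ Finset.range (3 * 2 ^ Jn), ∑ b : E → Bool,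
      QS M L (2 ^ j) (3 * 2 ^ j) o (sOf W b) (vOf W b) with hS
    set Dq := ∑ b : E → Bool, QD M ord L (sOf W b) (vOf W b) b with hDq
    set B := ∑ i ∈ Bo M ord L W e₁, W i with hBd
    calc (3 * 2 ^ Jn : ℝ≥0) * ∑ b : E → Bool, opt M (vOf W b)
        ≤ (3 * 2 ^ Jn : ℝ≥0) * (2 ^ Fintype.card E * (2 * wstar M W + B)) :=
          mul_le_mul_right hopt _
      _ = 2 ^ (Fintype.card E + 1) * (3 * 2 ^ Jn) * wstar M W
          + 3 * ((2 : ℝ≥0) ^ Jn * 2 ^ Fintype.card E * B) := by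
          rw [pow_succ]; ring
      _ ≤ 2 ^ (Fintype.card E + 1) * (3 * 2 ^ Jn) * wstar M W
          + 3 * (4 * (S + 2 ^ Jn * Dq)) :=
          add_le_add le_rfl (mul_le_mul_right hB 3)
      _ = _ := by ring

end Vale.Agent.Lib.P331
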