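import Mathlib
import Vale.Agent.Lib.P331.Defs
import Vale.Agent.Lib.P331.Run
import Vale.Agent.Lib.P331.Pointwise
import Vale.Agent.Lib.P331.Swap
import Vale.Agent.Lib.P331.Integral
import Vale.Agent.Lib.P331.LLDefs

/-!
Measurability tools for P331: a property of a set of elements cut out by measurable conditions
is measurable; the class of a value is measurable; the optimum of the values is measurable.
-/

namespace Vale.Agent.Lib.P331

open MeasureTheory
open scoped NNReal ENNReal

variable {E : Type*} [Fintype E] [DecidableEq E]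

omit [DecidableEq E] in
/-- If each condition `χ f` is measurable, then any property `Φ` of the set `{f | χ f ω}` is a
measurable condition on `ω`. -/
lemma measurableSet_set_pattern {Ω : Type*} [MeasurableSpace Ω] (χ : E → Ω → Prop)
    (hχ : ∀ f, MeasurableSet {ω | χ f ω}) (Φ : Set E → Prop) :
    MeasurableSet {ω | Φ {f | χ f ω}} := by
  have heq : {ω | Φ {f | χ f ω}} = ⋃ S ∈ {S : Set E | Φ S}, ⋂ f, {ω | χ f ω ↔ f ∈ S} := by
    ext ω
    simp only [Set.mem_ofPred_eq, Set.mem_iUnion, Set.mem_iInter, exists_prop]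
    constructor
    · intro h
      exact ⟨{f | χ f ω}, h, fun f => Iff.rfl⟩
    · rintro ⟨S, hS, hf⟩
      have hSeq : {f | χ f ω} = S := Set.ext fun f => hf f
      rw [hSeq]
      exact hS
  rw [heq]
  refine MeasurableSet.biUnion (Set.to_countable _) fun S _ => ?_
  refine MeasurableSet.iInter fun f => ?_
  by_cases hfS : f ∈ S
  · have h1 : {ω | χ f ω ↔ f ∈ S} = {ω | χ f ω} := by
      ext ω
      simp only [Set.mem_ofPred_eq, hfS, iff_true]
    rw [h1]
    exact hχ f
  · have h1 : {ω | χ f ω ↔ f ∈ S} = {ω | χ f ω}ᶜ := by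
      ext ω
      simp only [Set.mem_ofPred_eq, hfS, iff_false, Set.mem_compl_iff]
    rw [h1]
    exact (hχ f).compl

/-- The class of a measurable value below a measurable bound is measurable. -/
lemma measurable_cls {Ω : Type*} [MeasurableSpace Ω] (m x : Ω → ℝ≥0) (hm : Measurable m)
    (hx : Measurable x) (L : ℕ) : Measurable (fun ω => cls (m ω) L (x ω)) := by
  classical
  unfold cls
  apply Finset.measurable_fun_sum
  intro j _
  refine Measurable.ite ?_ measurable_const measurable_const
  have h1 : MeasurableSet {ω | m ω / 2 ^ j < x ω} := measurableSet_lt (hm.div_const _) hx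
  have h2 : MeasurableSet {ω | x ω ≤ m ω / 2 ^ (j - 1)} :=
    measurableSet_le hx (hm.div_const _)
  exact h1.inter h2

omit [DecidableEq E] in
/-- The class of the value of `e` below the largest sample is measurable. -/
lemma measurable_cls_val (M : Matroid E) (L : ℕ) (e : E) :
    Measurable (fun ω : E → ℝ≥0 × ℝ≥0 => cls (maxS M (fun f => (ω f).1)) L ((ω e).2)) := by
  exact measurable_cls (fun ω : E → ℝ≥0 × ℝ≥0 => maxS M (fun f => (ω f).1))
    (fun ω : E → ℝ≥0 × ℝ≥0 => (ω e).2) (measurable_maxS_smp M)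
    (measurable_snd.comp (measurable_pi_apply e)) L

omit [DecidableEq E] in
/-- Membership in a level set at a measurable level is a measurable condition. -/
lemma measurableSet_Klev (M : Matroid E) (L : ℕ) (f : E) (x : (E → ℝ≥0 × ℝ≥0) → ℕ)
    (hx : Measurable x) :
    MeasurableSet {ω : E → ℝ≥0 × ℝ≥0 |
      f ∈ Klev M L (maxS M (fun g => (ω g).1)) (fun g => (ω g).1) (x ω)} := by
  unfold Klev
  simp only [Set.mem_ofPred_eq]
  by_cases hf : M.Indep {f}
  · have h1 : MeasurableSet {ω : E → ℝ≥0 × ℝ≥0 | L ≤ x ω} :=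
      hx (MeasurableSet.of_discrete (s := {n : ℕ | L ≤ n}))
    have hpow : Measurable (fun ω : E → ℝ≥0 × ℝ≥0 => (2 : ℝ≥0) ^ (x ω)) :=
      (Measurable.of_discrete (f := fun n : ℕ => (2 : ℝ≥0) ^ n)).comp hx
    have hdiv : Measurable
        (fun ω : E → ℝ≥0 × ℝ≥0 => maxS M (fun g => (ω g).1) / 2 ^ (x ω)) :=
      (measurable_maxS_smp M).div hpow
    have h2 : MeasurableSet
        {ω : E → ℝ≥0 × ℝ≥0 | maxS M (fun g => (ω g).1) / 2 ^ (x ω) < (ω f).1} :=
      measurableSet_lt hdiv (measurable_fst.comp (measurable_pi_apply f))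
    have heq : {ω : E → ℝ≥0 × ℝ≥0 | M.Indep {f} ∧
        (L ≤ x ω ∨ maxS M (fun g => (ω g).1) / 2 ^ (x ω) < (ω f).1)} =
        {ω | L ≤ x ω} ∪ {ω | maxS M (fun g => (ω g).1) / 2 ^ (x ω) < (ω f).1} := by
      ext ω
      simp only [Set.mem_ofPred_eq, Set.mem_union, hf, true_and]
    rw [heq]
    exact h1.union h2
  · have heq : {ω : E → ℝ≥0 × ℝ≥0 | M.Indep {f} ∧
        (L ≤ x ω ∨ maxS M (fun g => (ω g).1) / 2 ^ (x ω) < (ω f).1)} = ∅ := by
      ext ω
      simp only [Set.mem_ofPred_eq, hf, false_and, Set.mem_empty_iff_false]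
    rw [heq]
    exact MeasurableSet.empty

omit [DecidableEq E] in
/-- The optimum of the values is measurable. -/
lemma measurable_opt_val (M : Matroid E) :
    Measurable (fun ω : E → ℝ≥0 × ℝ≥0 => (opt M (fun e => (ω e).2) : ℝ≥0∞)) := by
  classical
  apply measurable_coe_nnreal_ennreal.comp
  unfold opt
  apply measurable_finset_sup
  intro I _
  apply Finset.measurable_fun_sum
  intro e _
  fun_prop

end Vale.Agent.Lib.P331
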