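import Mathlib
import Vale.Agent.Lib.P331.Defs
import Vale.Agent.Lib.P331.Run
import Vale.Agent.Lib.P331.Pointwise
import Vale.Agent.Lib.P331.Swap
import Vale.Agent.Lib.P331.Integral
import Vale.Agent.Lib.P331.LLDefs
import Vale.Agent.Lib.P331.LLMeasA

/-!
Measurability of `QS`, the total value of the elements certain to be accepted.
-/

namespace Vale.Agent.Lib.P331

open MeasureTheory
open scoped NNReal ENNReal

variable {E : Type*} [Fintype E] [DecidableEq E]

omit [DecidableEq E] in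
lemma measurableSet_certain (M : Matroid E) (L ℓ P o : ℕ) (e : E) :
    MeasurableSet {ω : E → ℝ≥0 × ℝ≥0 |
      Certain M L ℓ P o (fun f => (ω f).1) (fun f => (ω f).2) e} := by
  classical
  obtain ⟨c, hc⟩ : ∃ c : E → (E → ℝ≥0 × ℝ≥0) → ℕ,
      c = fun f ω => cls (maxS M (fun g => (ω g).1)) L ((ω f).2) := ⟨_, rfl⟩
  have hcm : ∀ f, Measurable (c f) := by
    intro f
    rw [hc]
    exact measurable_cls_val M L f
  have hcomp : ∀ (f : E) (g : ℕ → ℕ), Measurable (fun ω => g (c f ω)) :=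
    fun f g => (measurable_from_nat (f := g)).comp (hcm f)
  have hpre : ∀ (f : E) (p : ℕ → Prop), MeasurableSet {ω | p (c f ω)} :=
    fun f p => (hcm f) (MeasurableSet.of_discrete (s := {n | p n}))
  have h1 : MeasurableSet {ω : E → ℝ≥0 × ℝ≥0 | inWin ℓ P o (c e ω)} := hpre e _
  have key : ∀ χ : E → (E → ℝ≥0 × ℝ≥0) → Prop, (∀ f, MeasurableSet {ω | χ f ω}) →
      MeasurableSet {ω | e ∈ M.closure {f | χ f ω}} :=
    fun χ hχ => measurableSet_set_pattern χ hχ (fun S => e ∈ M.closure S)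
  have hK : ∀ (f : E) (g : ℕ → ℕ), MeasurableSet {ω : E → ℝ≥0 × ℝ≥0 |
      f ∈ Klev M L (maxS M (fun g' => (ω g').1)) (fun g' => (ω g').1) (g (c e ω))} :=
    fun f g => measurableSet_Klev M L f _ (hcomp e g)
  have hb : ∀ f : E, MeasurableSet {ω : E → ℝ≥0 × ℝ≥0 | f ≠ e ∧ M.Indep {f} ∧
      inWin ℓ P o (c f ω) ∧ widx P o (c f ω) = widx P o (c e ω)} := by
    intro f
    have hb1 : MeasurableSet {_ω : E → ℝ≥0 × ℝ≥0 | f ≠ e} := MeasurableSet.const _
    have hb2 : MeasurableSet {_ω : E → ℝ≥0 × ℝ≥0 | M.Indep {f}} := MeasurableSet.const _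
    have hb3 : MeasurableSet {ω : E → ℝ≥0 × ℝ≥0 | inWin ℓ P o (c f ω)} := hpre f _
    have hb4 : MeasurableSet {ω : E → ℝ≥0 × ℝ≥0 |
        widx P o (c f ω) = widx P o (c e ω)} :=
      measurableSet_eq_fun (hcomp f (fun n => widx P o n)) (hcomp e (fun n => widx P o n))
    exact hb1.inter (hb2.inter (hb3.inter hb4))
  have h2 : MeasurableSet {ω : E → ℝ≥0 × ℝ≥0 |
      e ∈ M.closure {f | f ∈ Klev M L (maxS M (fun g => (ω g).1)) (fun g => (ω g).1)
        (loLev P o (widx P o (c e ω) + 1))}} :=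
    key _ (fun f => hK f (fun n => loLev P o (widx P o n + 1)))
  have h3 : MeasurableSet {ω : E → ℝ≥0 × ℝ≥0 |
      e ∈ M.closure {f | f ∈ Klev M L (maxS M (fun g => (ω g).1)) (fun g => (ω g).1)
          (loLev P o (widx P o (c e ω))) ∨
        (f ≠ e ∧ M.Indep {f} ∧ inWin ℓ P o (c f ω) ∧
          widx P o (c f ω) = widx P o (c e ω))}} :=
    key _ (fun f => (hK f (fun n => loLev P o (widx P o n))).union (hb f))
  have hset : {ω : E → ℝ≥0 × ℝ≥0 |
      Certain M L ℓ P o (fun f => (ω f).1) (fun f => (ω f).2) e} =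
      {ω : E → ℝ≥0 × ℝ≥0 | inWin ℓ P o (c e ω)} ∩
      ({ω : E → ℝ≥0 × ℝ≥0 |
        e ∈ M.closure {f | f ∈ Klev M L (maxS M (fun g => (ω g).1)) (fun g => (ω g).1)
          (loLev P o (widx P o (c e ω) + 1))}} ∩
      {ω : E → ℝ≥0 × ℝ≥0 |
        e ∈ M.closure {f | f ∈ Klev M L (maxS M (fun g => (ω g).1)) (fun g => (ω g).1)
            (loLev P o (widx P o (c e ω))) ∨
          (f ≠ e ∧ M.Indep {f} ∧ inWin ℓ P o (c f ω) ∧
            widx P o (c f ω) = widx P o (c e ω))}}ᶜ) := by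
    rw [hc]
    rfl
  rw [hset]
  exact h1.inter (h2.inter h3.compl)

omit [DecidableEq E] in
lemma measurable_QS (M : Matroid E) (L ℓ P o : ℕ) :
    Measurable (fun ω : E → ℝ≥0 × ℝ≥0 =>
      (QS M L ℓ P o (fun e => (ω e).1) (fun e => (ω e).2) : ℝ≥0∞)) := by
  classical
  apply measurable_coe_nnreal_ennreal.comp
  unfold QS
  apply Finset.measurable_fun_sum
  intro e _
  exact Measurable.ite (measurableSet_certain M L ℓ P o e) (by fun_prop) measurable_const

end Vale.Agent.Lib.P331
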