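import Mathlib
import Vale.Agent.Lib.P331.Defs
import Vale.Agent.Lib.P331.Run
import Vale.Agent.Lib.P331.Pointwise
import Vale.Agent.Lib.P331.Swap
import Vale.Agent.Lib.P331.Integral
import Vale.Agent.Lib.P331.LLDefs
import Vale.Agent.Lib.P331.LLMeasA

/-!
Measurability of `QD`.
-/

namespace Vale.Agent.Lib.P331

open MeasureTheory
open scoped NNReal ENNReal

variable {E : Type*} [Fintype E] [DecidableEq E]

omit [Fintype E] [DecidableEq E] in
lemma measurable_Wof (b : E → Bool) (i : E × Bool) :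
    Measurable (fun ω : E → ℝ≥0 × ℝ≥0 => Wof (fun f => (ω f).1) (fun f => (ω f).2) b i) := by
  unfold Wof
  by_cases h : i.2 = b i.1
  · simp only [if_pos h]
    exact measurable_snd.comp (measurable_pi_apply i.1)
  · simp only [if_neg h]
    exact measurable_fst.comp (measurable_pi_apply i.1)

omit [Fintype E] [DecidableEq E] in
/-- Being heavier is a measurable condition. -/
private lemma measurableSet_Hv_aux (ord : E → ℕ) (b : E → Bool) (i j : E × Bool) :
    MeasurableSet {ω : E → ℝ≥0 × ℝ≥0 |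
      Hv ord (Wof (fun f => (ω f).1) (fun f => (ω f).2) b) i j} := by
  unfold Hv
  have h1 : MeasurableSet {ω : E → ℝ≥0 × ℝ≥0 |
      Wof (fun f => (ω f).1) (fun f => (ω f).2) b j
        < Wof (fun f => (ω f).1) (fun f => (ω f).2) b i} :=
    measurableSet_lt (measurable_Wof b j) (measurable_Wof b i)
  have h2 : MeasurableSet {ω : E → ℝ≥0 × ℝ≥0 |
      Wof (fun f => (ω f).1) (fun f => (ω f).2) b j
        = Wof (fun f => (ω f).1) (fun f => (ω f).2) b i} :=
    measurableSet_eq_fun (measurable_Wof b j) (measurable_Wof b i)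
  have h3 : MeasurableSet {_ω : E → ℝ≥0 × ℝ≥0 | tbk ord j < tbk ord i} :=
    MeasurableSet.const _
  exact h1.union (h2.inter h3)

omit [DecidableEq E] in
lemma measurableSet_inB (M : Matroid E) (ord : E → ℕ) (b : E → Bool) (i : E × Bool) :
    MeasurableSet {ω : E → ℝ≥0 × ℝ≥0 |
      InB M ord (Wof (fun f => (ω f).1) (fun f => (ω f).2) b) i} := by
  unfold InB
  have hχ : ∀ f : E, MeasurableSet {ω : E → ℝ≥0 × ℝ≥0 |
      ∃ β, Hv ord (Wof (fun f => (ω f).1) (fun f => (ω f).2) b) (f, β) i} := by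
    intro f
    have hu : {ω : E → ℝ≥0 × ℝ≥0 |
        ∃ β, Hv ord (Wof (fun f => (ω f).1) (fun f => (ω f).2) b) (f, β) i}
        = {ω : E → ℝ≥0 × ℝ≥0 |
            Hv ord (Wof (fun f => (ω f).1) (fun f => (ω f).2) b) (f, false) i}
          ∪ {ω : E → ℝ≥0 × ℝ≥0 |
            Hv ord (Wof (fun f => (ω f).1) (fun f => (ω f).2) b) (f, true) i} := by
      ext ω
      constructor
      · rintro ⟨β, hβ⟩
        cases β
        · exact Or.inl hβ
        · exact Or.inr hβ
      · rintro (h | h)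
        · exact ⟨false, h⟩
        · exact ⟨true, h⟩
    rw [hu]
    exact (measurableSet_Hv_aux ord b (f, false) i).union (measurableSet_Hv_aux ord b (f, true) i)
  have hpat := measurableSet_set_pattern
    (fun (f : E) (ω : E → ℝ≥0 × ℝ≥0) =>
      ∃ β, Hv ord (Wof (fun f => (ω f).1) (fun f => (ω f).2) b) (f, β) i) hχ
    (fun S => i.1 ∈ M.closure S)
  have h1 : MeasurableSet {_ω : E → ℝ≥0 × ℝ≥0 | M.Indep {i.1}} := MeasurableSet.const _
  exact h1.inter hpat.compl

omit [DecidableEq E] in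
lemma measurable_QD (M : Matroid E) (ord : E → ℕ) (L : ℕ) (b : E → Bool) :
    Measurable (fun ω : E → ℝ≥0 × ℝ≥0 =>
      (QD M ord L (fun e => (ω e).1) (fun e => (ω e).2) b : ℝ≥0∞)) := by
  refine measurable_coe_nnreal_ennreal.comp ?_
  unfold QD
  refine Finset.measurable_fun_sum _ (fun e _ => ?_)
  refine Measurable.ite ?_ (measurable_snd.comp (measurable_pi_apply e)) measurable_const
  have hA := measurableSet_inB M ord b (e, b e)
  have hc := measurable_cls_val M L e
  have hB : MeasurableSet {ω : E → ℝ≥0 × ℝ≥0 |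
      1 ≤ cls (maxS M (fun f => (ω f).1)) L ((ω e).2)} :=
    hc (MeasurableSet.of_discrete (s := {n : ℕ | 1 ≤ n}))
  have hC : MeasurableSet {ω : E → ℝ≥0 × ℝ≥0 |
      e ∈ M.closure (Klev M L (maxS M (fun g => (ω g).1)) (fun g => (ω g).1)
        (cls (maxS M (fun f => (ω f).1)) L ((ω e).2)))} :=
    measurableSet_set_pattern
      (fun (f : E) (ω : E → ℝ≥0 × ℝ≥0) =>
        f ∈ Klev M L (maxS M (fun g => (ω g).1)) (fun g => (ω g).1)
          (cls (maxS M (fun f => (ω f).1)) L ((ω e).2)))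
      (fun f => measurableSet_Klev M L f _ hc) (fun S => e ∈ M.closure S)
  exact hA.inter (hB.inter hC)

end Vale.Agent.Lib.P331
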