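import Mathlib
import Vale.Agent.Lib.P331.Defs
import Vale.Agent.Lib.P331.Run
import Vale.Agent.Lib.P331.Pointwise
import Vale.Agent.Lib.P331.LLDefs
import Vale.Agent.Lib.P331.LLCls
import Vale.Agent.Lib.P331.LLMatA

/-!
The window rule keeps its accepted set independent, whatever the arrival order.
-/

namespace Vale.Agent.Lib.P331

open Matroid
open scoped NNReal

variable {E R : Type*} [Fintype E] [DecidableEq E]

/-- The state invariant of the window rule: every accepted element `a` has its class in a
window, lies in the span of the sample elements of the classes below the next window, and does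
not lie in the span of the sample elements of the classes below its own window. -/
def Inv2 (M : Matroid E) (L ℓ P o : ℕ) (s v : E → ℝ≥0) (A : Finset E) : Prop :=
  ∀ a ∈ A, inWin ℓ P o (cls (maxS M s) L (v a)) ∧
    a ∈ M.closure (Glev M L s P o (widx P o (cls (maxS M s) L (v a)) + 1)) ∧
    a ∉ M.closure (Glev M L s P o (widx P o (cls (maxS M s) L (v a))))

/-- The state invariant of the window rule: for every `k`, the accepted elements in the span
`G (k + 1)` but not in the span `G k` are independent in the contraction by `G k`, where `G k`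
is the span of the sample elements of the classes below window `k`. -/
def Inv1 (M : Matroid E) (L P o : ℕ) (s : E → ℝ≥0) (A : Finset E) : Prop :=
  ∀ k, (M ／ M.closure (Glev M L s P o k)).Indep
    (((A : Set E) ∩ M.closure (Glev M L s P o (k + 1))) \ M.closure (Glev M L s P o k))

omit [DecidableEq E] in
/-- The spans `G k` of the sample elements of the classes below window `k` increase with `k`. -/
lemma closure_Glev_mono (M : Matroid E) (L P o : ℕ) (s : E → ℝ≥0) {k k' : ℕ} (h : k ≤ k') :
    M.closure (Glev M L s P o k) ⊆ M.closure (Glev M L s P o k') := by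
  unfold Glev
  exact closure_Klev_mono M L (maxS M s) s (loLev_mono P o h)

/-- The first invariant is kept by one arrival. -/
lemma inv1_step (M : Matroid E) (L ℓ P o : ℕ) (ρ : Rule E R) (s : E → ℝ≥0)
    (r : R) (v : E → ℝ≥0) (hρ : ActsAs ρ s r M L ℓ P o)
    (st : Finset E × List (E × ℝ≥0)) (e : E) (h : Inv1 M L P o s st.1) :
    Inv1 M L P o s (ρ.step s r v st e).1 := by
  show Inv1 M L P o s
    (if ρ.accept s r st.1 st.2 e (v e) = true then insert e st.1 else st.1)
  by_cases hacc : ρ.accept s r st.1 st.2 e (v e) = true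
  · rw [if_pos hacc]
    obtain ⟨-, hin, hnot⟩ := (hρ st.1 st.2 e (v e)).mp hacc
    generalize widx P o (cls (maxS M s) L (v e)) = k at hin hnot
    have hnotk : e ∉ M.closure (Glev M L s P o k) := fun hmem =>
      hnot (M.closure_subset_closure Set.subset_union_left hmem)
    intro k'
    rcases lt_trichotomy k' k with hlt | heq | hgt
    · have hnot' : e ∉ M.closure (Glev M L s P o (k' + 1)) := fun hmem =>
        hnotk (closure_Glev_mono M L P o s (by omega) hmem)
      have hset : ((↑(insert e st.1) : Set E) ∩ M.closure (Glev M L s P o (k' + 1))) \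
          M.closure (Glev M L s P o k') =
          ((st.1 : Set E) ∩ M.closure (Glev M L s P o (k' + 1))) \
            M.closure (Glev M L s P o k') := by
        ext x
        simp only [Finset.coe_insert, Set.mem_sdiff, Set.mem_inter_iff, Set.mem_insert_iff]
        constructor
        · rintro ⟨⟨rfl | hx, hx2⟩, hx3⟩
          · exact absurd hx2 hnot'
          · exact ⟨⟨hx, hx2⟩, hx3⟩
        · rintro ⟨⟨hx, hx2⟩, hx3⟩
          exact ⟨⟨Or.inr hx, hx2⟩, hx3⟩
      rw [hset]
      exact h k'
    · subst heq
      have hset : ((↑(insert e st.1) : Set E) ∩ M.closure (Glev M L s P o (k' + 1))) \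
          M.closure (Glev M L s P o k') =
          insert e (((st.1 : Set E) ∩ M.closure (Glev M L s P o (k' + 1))) \
            M.closure (Glev M L s P o k')) := by
        ext x
        simp only [Finset.coe_insert, Set.mem_sdiff, Set.mem_inter_iff, Set.mem_insert_iff]
        constructor
        · rintro ⟨⟨rfl | hx, hx2⟩, hx3⟩
          · exact Or.inl rfl
          · exact Or.inr ⟨⟨hx, hx2⟩, hx3⟩
        · rintro (rfl | ⟨⟨hx, hx2⟩, hx3⟩)
          · exact ⟨⟨Or.inl rfl, hin⟩, hnotk⟩
          · exact ⟨⟨Or.inr hx, hx2⟩, hx3⟩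
      rw [hset]
      refine contract_insert_indep M (Glev M L s P o k') _ e (h k')
        (M.closure_subset_ground _ hin) (fun hmem => hnot ?_)
      refine M.closure_subset_closure ?_ hmem
      exact Set.union_subset_union_right _ Set.sdiff_subset
    · have hin' : e ∈ M.closure (Glev M L s P o k') :=
        closure_Glev_mono M L P o s (by omega) hin
      have hset : ((↑(insert e st.1) : Set E) ∩ M.closure (Glev M L s P o (k' + 1))) \
          M.closure (Glev M L s P o k') =
          ((st.1 : Set E) ∩ M.closure (Glev M L s P o (k' + 1))) \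
            M.closure (Glev M L s P o k') := by
        ext x
        simp only [Finset.coe_insert, Set.mem_sdiff, Set.mem_inter_iff, Set.mem_insert_iff]
        constructor
        · rintro ⟨⟨rfl | hx, hx2⟩, hx3⟩
          · exact absurd hin' hx3
          · exact ⟨⟨hx, hx2⟩, hx3⟩
        · rintro ⟨⟨hx, hx2⟩, hx3⟩
          exact ⟨⟨Or.inr hx, hx2⟩, hx3⟩
      rw [hset]
      exact h k'
  · rw [if_neg hacc]
    exact h

/-- The second invariant is kept by one arrival. -/
lemma inv2_step (M : Matroid E) (L ℓ P o : ℕ) (ρ : Rule E R) (s : E → ℝ≥0)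
    (r : R) (v : E → ℝ≥0) (hρ : ActsAs ρ s r M L ℓ P o)
    (st : Finset E × List (E × ℝ≥0)) (e : E) (h : Inv2 M L ℓ P o s v st.1) :
    Inv2 M L ℓ P o s v (ρ.step s r v st e).1 := by
  show Inv2 M L ℓ P o s v
    (if ρ.accept s r st.1 st.2 e (v e) = true then insert e st.1 else st.1)
  by_cases hacc : ρ.accept s r st.1 st.2 e (v e) = true
  · rw [if_pos hacc]
    obtain ⟨hw, hin, hnot⟩ := (hρ st.1 st.2 e (v e)).mp hacc
    intro a ha
    rcases Finset.mem_insert.mp ha with rfl | ha'
    · exact ⟨hw, hin, fun hmem =>
        hnot (M.closure_subset_closure Set.subset_union_left hmem)⟩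
    · exact h a ha'
  · rw [if_neg hacc]
    exact h

/-- Both invariants hold along every run of a rule acting as the window rule. -/
lemma scheme_inv (M : Matroid E) (L ℓ P o : ℕ) (hP : 0 < P) (ρ : Rule E R) (s : E → ℝ≥0)
    (r : R) (v : E → ℝ≥0) (hρ : ActsAs ρ s r M L ℓ P o) :
    ∀ (l : List E) (st : Finset E × List (E × ℝ≥0)),
      Inv1 M L P o s st.1 → Inv2 M L ℓ P o s v st.1 →
      Inv1 M L P o s (l.foldl (ρ.step s r v) st).1 ∧
        Inv2 M L ℓ P o s v (l.foldl (ρ.step s r v) st).1 := by
  intro l
  induction l with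
  | nil =>
    intro st h1 h2
    exact ⟨h1, h2⟩
  | cons e l ih =>
    intro st h1 h2
    rw [List.foldl_cons]
    exact ih _ (inv1_step M L ℓ P o ρ s r v hρ st e h1)
      (inv2_step M L ℓ P o ρ s r v hρ st e h2)

lemma scheme_inv_accepted (M : Matroid E) (L ℓ P o : ℕ) (hP : 0 < P) (ρ : Rule E R)
    (s : E → ℝ≥0) (r : R) (v : E → ℝ≥0) (hρ : ActsAs ρ s r M L ℓ P o) (π : List E) :
    Inv1 M L P o s (ρ.accepted s r v π) ∧ Inv2 M L ℓ P o s v (ρ.accepted s r v π) := by
  unfold Rule.accepted
  refine scheme_inv M L ℓ P o hP ρ s r v hρ π (∅, []) ?_ ?_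
  · intro k
    have hset : (((∅ : Finset E) : Set E) ∩ M.closure (Glev M L s P o (k + 1))) \
        M.closure (Glev M L s P o k) = ∅ := by
      simp
    show (M ／ M.closure (Glev M L s P o k)).Indep
      ((((∅ : Finset E) : Set E) ∩ M.closure (Glev M L s P o (k + 1))) \
        M.closure (Glev M L s P o k))
    rw [hset]
    exact Matroid.empty_indep _
  · intro a ha
    exact absurd ha (Finset.notMem_empty a)

/-- A finite set satisfying both invariants is independent. -/
lemma indep_of_inv (M : Matroid E) (L ℓ P o : ℕ) (hP : 0 < P) (s v : E → ℝ≥0) (A : Finset E)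
    (h1 : Inv1 M L P o s A) (h2 : Inv2 M L ℓ P o s v A) : M.Indep (A : Set E) := by
  refine indep_of_chain M (fun k => M.closure (Glev M L s P o k))
    (fun k => closure_Glev_mono M L P o s (Nat.le_succ k)) (A : Set E) ?_ h1 (L + o + 1) ?_
  · ext a
    simp only [Set.mem_inter_iff, Set.mem_empty_iff_false, iff_false]
    rintro ⟨ha, ha0⟩
    exact (h2 a (Finset.mem_coe.mp ha)).2.2
      (closure_Glev_mono M L P o s (Nat.zero_le _) ha0)
  · intro a ha
    have hmem := (h2 a (Finset.mem_coe.mp ha)).2.1
    refine closure_Glev_mono M L P o s ?_ hmem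
    have hw := widx_le P o (cls (maxS M s) L (v a)) hP
    have hc := cls_le (maxS M s) L (v a)
    omega

/-- The set accepted by a rule acting as the window rule is independent. -/
lemma scheme_indep (M : Matroid E) (L ℓ P o : ℕ) (hP : 0 < P) (ρ : Rule E R) (s : E → ℝ≥0)
    (r : R) (v : E → ℝ≥0) (hρ : ActsAs ρ s r M L ℓ P o) (π : List E) :
    M.Indep ((ρ.accepted s r v π : Finset E) : Set E) := by
  obtain ⟨h1, h2⟩ := scheme_inv_accepted M L ℓ P o hP ρ s r v hρ π
  exact indep_of_inv M L ℓ P o hP s v _ h1 h2

end Vale.Agent.Lib.P331
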