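import Mathlib
import Vale.Agent.Lib.P331.Defs
import Vale.Agent.Lib.P331.Run
import Vale.Agent.Lib.P331.Pointwise
import Vale.Agent.Lib.P331.LLDefs
import Vale.Agent.Lib.P331.LLCls
import Vale.Agent.Lib.P331.LLMatA
import Vale.Agent.Lib.P331.LLRunA

/-!
An element that is `Certain` is accepted by the window rule, whatever the arrival order.
-/

namespace Vale.Agent.Lib.P331

open Matroid
open scoped NNReal

variable {E R : Type*} [Fintype E] [DecidableEq E]

omit [Fintype E] in
/-- The accepted set only grows along a run. -/
lemma foldl_step_subset (ρ : Rule E R) (s : E → ℝ≥0) (r : R) (v : E → ℝ≥0) :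
    ∀ (l : List E) (st : Finset E × List (E × ℝ≥0)),
      st.1 ⊆ (l.foldl (ρ.step s r v) st).1 := by
  intro l
  induction l with
  | nil => intro st; exact Finset.Subset.refl _
  | cons e l ih =>
    intro st
    rw [List.foldl_cons]
    refine Finset.Subset.trans ?_ (ih _)
    unfold Rule.step
    dsimp only
    split_ifs
    · exact Finset.subset_insert _ _
    · exact Finset.Subset.refl _

omit [Fintype E] in
/-- Every accepted element was in the starting state or has arrived. -/
lemma foldl_step_mem (ρ : Rule E R) (s : E → ℝ≥0) (r : R) (v : E → ℝ≥0) :
    ∀ (l : List E) (st : Finset E × List (E × ℝ≥0)) (a : E),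
      a ∈ (l.foldl (ρ.step s r v) st).1 → a ∈ st.1 ∨ a ∈ l := by
  intro l
  induction l with
  | nil => intro st a h; exact Or.inl h
  | cons e l ih =>
    intro st a h
    rw [List.foldl_cons] at h
    rcases ih _ a h with h1 | h1
    · unfold Rule.step at h1
      dsimp only at h1
      split_ifs at h1
      · rw [Finset.mem_insert] at h1
        rcases h1 with rfl | h1
        · exact Or.inr List.mem_cons_self
        · exact Or.inl h1
      · exact Or.inl h1
    · exact Or.inr (List.mem_cons_of_mem _ h1)

/-- A certain element is accepted when it arrives, if not accepted before. -/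
lemma scheme_cert_run (M : Matroid E) (L ℓ P o : ℕ) (hP : 0 < P) (ρ : Rule E R) (s : E → ℝ≥0)
    (r : R) (v : E → ℝ≥0) (hρ : ActsAs ρ s r M L ℓ P o) (e : E)
    (hc : Certain M L ℓ P o s v e) :
    ∀ (l : List E) (st : Finset E × List (E × ℝ≥0)),
      Inv2 M L ℓ P o s v st.1 → (e ∈ st.1 ∨ e ∈ l) →
      e ∈ (l.foldl (ρ.step s r v) st).1 := by
  intro l
  induction l with
  | nil =>
    intro st _ h
    rcases h with h | h
    · exact h
    · simp at h
  | cons f l ih =>
    intro st hinv h
    rw [List.foldl_cons]
    have hinv' := inv2_step M L ℓ P o ρ s r v hρ st f hinv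
    by_cases hest : e ∈ st.1
    · apply ih _ hinv'
      left
      exact foldl_step_subset ρ s r v [f] st hest
    · have hel : e ∈ f :: l := h.resolve_left hest
      by_cases hfe : f = e
      · subst hfe
        have hacc : ρ.accept s r st.1 st.2 f (v f) = true := by
          rw [hρ]
          obtain ⟨hc1, hc2, hc3⟩ := hc
          refine ⟨hc1, hc2, ?_⟩
          intro hcl
          apply hc3
          set k := widx P o (cls (maxS M s) L (v f)) with hk
          set R' : Set E := {g | g ≠ f ∧ M.Indep {g} ∧ inWin ℓ P o (cls (maxS M s) L (v g)) ∧
            widx P o (cls (maxS M s) L (v g)) = k} with hR'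
          have hsub : Glev M L s P o k ∪ ((st.1 : Set E) ∩ M.closure (Glev M L s P o (k + 1)))
              ⊆ Glev M L s P o k ∪ M.closure (Glev M L s P o k ∪ R') := by
            rintro a (ha | ⟨haA, haG⟩)
            · exact Or.inl ha
            · right
              have haA' : a ∈ st.1 := by exact_mod_cast haA
              obtain ⟨hw, hin, hout⟩ := hinv a haA'
              set ka := widx P o (cls (maxS M s) L (v a)) with hka
              rcases lt_trichotomy ka k with hlt | heq | hgt
              · have h1 : a ∈ M.closure (Glev M L s P o k) :=
                  closure_Glev_mono M L P o s (by omega) hin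
                exact M.closure_subset_closure Set.subset_union_left h1
              · have haE : a ∈ M.E := M.closure_subset_ground _ hin
                have hnl : M.Indep {a} := by
                  rw [indep_singleton, ← not_isLoop_iff haE]
                  intro hloop
                  apply hout
                  have : a ∈ M.closure ∅ := hloop
                  exact M.closure_subset_closure (Set.empty_subset _) this
                have hane : a ≠ f := by
                  rintro rfl
                  exact hest haA'
                have : a ∈ R' := ⟨hane, hnl, hw, heq⟩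
                exact M.mem_closure_of_mem' (Or.inr this) haE
              · exfalso
                apply hout
                exact closure_Glev_mono M L P o s (by omega) haG
          have h2 := M.closure_subset_closure hsub hcl
          rw [closure_union_closure_right_eq, ← Set.union_assoc, Set.union_self] at h2
          exact h2
        apply ih _ hinv'
        left
        unfold Rule.step
        dsimp only
        rw [if_pos hacc]
        exact Finset.mem_insert_self _ _
      · apply ih _ hinv'
        right
        rcases List.mem_cons.mp hel with h1 | h1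
        · exact absurd h1.symm hfe
        · exact h1

/-- A certain element is accepted by a rule acting as the window rule, whatever the order. -/
lemma scheme_cert (M : Matroid E) (L ℓ P o : ℕ) (hP : 0 < P) (ρ : Rule E R) (s : E → ℝ≥0)
    (r : R) (v : E → ℝ≥0) (hρ : ActsAs ρ s r M L ℓ P o) (π : List E) (e : E) (he : e ∈ π)
    (hc : Certain M L ℓ P o s v e) : e ∈ ρ.accepted s r v π := by
  unfold Rule.accepted
  apply scheme_cert_run M L ℓ P o hP ρ s r v hρ e hc π (∅, [])
  · intro a ha
    simp at ha
  · exact Or.inr he

/-- The rule collects at least the total value of the certain elements. -/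
lemma QS_le (M : Matroid E) (L ℓ P o : ℕ) (hP : 0 < P) (ρ : Rule E R) (s : E → ℝ≥0)
    (r : R) (v : E → ℝ≥0) (hρ : ActsAs ρ s r M L ℓ P o) (π : List E) (hπ : ∀ e, e ∈ π) :
    QS M L ℓ P o s v ≤ ∑ e ∈ ρ.accepted s r v π, v e := by
  classical
  unfold QS
  rw [← Finset.sum_filter]
  apply Finset.sum_le_sum_of_subset
  intro e he
  rw [Finset.mem_filter] at he
  exact scheme_cert M L ℓ P o hP ρ s r v hρ π e (hπ e) he.2

end Vale.Agent.Lib.P331
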