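import Mathlib
import Vale.Agent.Lib.P331.LLMatA

/-!
Matroid fact for P331: a finite set whose elements, taken in decreasing order of a key, are each
outside the span of `K` and the earlier elements, is independent in the contraction by the span
of `K`.
-/

namespace Vale.Agent.Lib.P331

open Matroid

variable {E : Type*}

/-- Let `D` be a finite set with an injective key into a linear order.  If every `e ∈ D` is in
the ground set and not in the closure of `K` together with the elements of `D` of larger key,
then `D` is independent in the contraction `M ／ M.closure K`. -/
lemma contract_indep_of_order {κ : Type*} [LinearOrder κ] (M : Matroid E) (K : Set E)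
    (D : Finset E) (key : E → κ) (hinj : Set.InjOn key (D : Set E))
    (h : ∀ e ∈ D, e ∈ M.E ∧ e ∉ M.closure (K ∪ {e' | e' ∈ D ∧ key e < key e'})) :
    (M ／ M.closure K).Indep (D : Set E) := by
  classical
  revert hinj h
  refine Finset.induction_on_min_value key D ?_ ?_
  · intro _ _
    rw [Finset.coe_empty]
    exact Matroid.empty_indep _
  · intro a s has hmin ih hinj h
    have hlt : ∀ x ∈ s, key a < key x := by
      intro x hx
      refine lt_of_le_of_ne (hmin x hx) ?_
      intro heq
      have hax : a = x :=
        hinj (Finset.mem_coe.mpr (Finset.mem_insert_self a s))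
          (Finset.mem_coe.mpr (Finset.mem_insert_of_mem hx)) heq
      exact has (hax ▸ hx)
    have ihs : (M ／ M.closure K).Indep (s : Set E) := by
      apply ih
      · exact hinj.mono (Finset.coe_subset.mpr (Finset.subset_insert a s))
      · intro e he
        obtain ⟨h1, h2⟩ := h e (Finset.mem_insert_of_mem he)
        refine ⟨h1, fun hc => h2 (M.closure_subset_closure ?_ hc)⟩
        apply Set.union_subset_union_right
        intro e' he'
        exact ⟨Finset.mem_insert_of_mem he'.1, he'.2⟩
    obtain ⟨ha1, ha2⟩ := h a (Finset.mem_insert_self a s)
    have hset : {e' | e' ∈ insert a s ∧ key a < key e'} = (s : Set E) := by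
      ext e'
      constructor
      · rintro ⟨h1, h2⟩
        rcases Finset.mem_insert.mp h1 with rfl | h1
        · exact absurd h2 (lt_irrefl _)
        · exact h1
      · intro h1
        exact ⟨Finset.mem_insert_of_mem h1, hlt e' h1⟩
    rw [hset] at ha2
    rw [Finset.coe_insert]
    exact contract_insert_indep M K s a ihs ha1 ha2

end Vale.Agent.Lib.P331
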