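import Mathlib
import Vale.Agent.Lib.P331.Defs
import Vale.Agent.Lib.P331.Run
import Vale.Agent.Lib.P331.Pointwise
import Vale.Agent.Lib.P331.LLDefs
import Vale.Agent.Lib.P331.LLCls
import Vale.Agent.Lib.P331.LLMatA
import Vale.Agent.Lib.P331.LLRunA
import Vale.Agent.Lib.P331.LLRunB

/-!
The window rule with windows of length one and period one: in every class it accepts as many
elements as any set that is independent over the sample elements of the classes above.
-/

namespace Vale.Agent.Lib.P331

open Matroid
open scoped NNReal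

variable {E R : Type*} [Fintype E] [DecidableEq E]

omit [DecidableEq E] in
/-- With windows `(1, 1, 0)` the sample elements of the classes below window `k` are the
sample elements of the classes up to `k - 1`. -/
lemma unit_glev (M : Matroid E) (L : ℕ) (s : E → ℝ≥0) (k : ℕ) :
    Glev M L s 1 0 k = Klev M L (maxS M s) s (k - 1) := by
  simp [Glev, loLev]

omit [DecidableEq E] in
/-- The acceptance test of the window rule with windows `(1, 1, 0)`. -/
lemma unit_schemeAcc (M : Matroid E) (L : ℕ) (s : E → ℝ≥0) (A : Finset E) (e : E) (x : ℝ≥0) :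
    SchemeAcc M L 1 1 0 s A e x ↔
      (1 ≤ cls (maxS M s) L x ∧
        e ∈ M.closure (Klev M L (maxS M s) s (cls (maxS M s) L x)) ∧
        e ∉ M.closure (Klev M L (maxS M s) s (cls (maxS M s) L x - 1) ∪
          ((A : Set E) ∩ M.closure (Klev M L (maxS M s) s (cls (maxS M s) L x))))) := by
  simp [SchemeAcc, inWin, widx, unit_glev, Nat.mod_one]

omit [DecidableEq E] in
/-- The second invariant with windows `(1, 1, 0)`. -/
lemma unit_inv2 (M : Matroid E) (L : ℕ) (s v : E → ℝ≥0) (A : Finset E)
    (h : Inv2 M L 1 1 0 s v A) (a : E) (ha : a ∈ A) :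
    1 ≤ cls (maxS M s) L (v a) ∧
      a ∈ M.closure (Klev M L (maxS M s) s (cls (maxS M s) L (v a))) ∧
      a ∉ M.closure (Klev M L (maxS M s) s (cls (maxS M s) L (v a) - 1)) := by
  have h' := h a ha
  simpa [inWin, widx, unit_glev, Nat.mod_one] using h'

omit [DecidableEq E] in
/-- The first invariant with windows `(1, 1, 0)`. -/
lemma unit_inv1 (M : Matroid E) (L : ℕ) (s : E → ℝ≥0) (A : Finset E)
    (h : Inv1 M L 1 0 s A) (k : ℕ) :
    (M ／ M.closure (Klev M L (maxS M s) s (k - 1))).Indep
      (((A : Set E) ∩ M.closure (Klev M L (maxS M s) s k)) \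
        M.closure (Klev M L (maxS M s) s (k - 1))) := by
  have h' := h k
  simpa [unit_glev] using h'

/-- The fold form of `unit_maximal`. -/
lemma unit_maximal_fold (M : Matroid E) (L : ℕ) (ρ : Rule E R) (s : E → ℝ≥0) (r : R)
    (v : E → ℝ≥0) (hρ : ActsAs ρ s r M L 1 1 0) (f : E)
    (hc : 1 ≤ cls (maxS M s) L (v f))
    (hspan : f ∈ M.closure (Klev M L (maxS M s) s (cls (maxS M s) L (v f)))) :
    ∀ (l : List E) (st : Finset E × List (E × ℝ≥0)), f ∈ l →
      f ∉ (l.foldl (ρ.step s r v) st).1 →
      f ∈ M.closure (Klev M L (maxS M s) s (cls (maxS M s) L (v f) - 1) ∪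
        (((l.foldl (ρ.step s r v) st).1 : Set E) ∩
          M.closure (Klev M L (maxS M s) s (cls (maxS M s) L (v f))))) := by
  intro l
  induction l with
  | nil =>
    intro st hf
    simp at hf
  | cons e l ih =>
    intro st hf hnot
    rw [List.foldl_cons] at hnot ⊢
    by_cases hfe : f = e
    · subst hfe
      have hsub1 := foldl_step_subset ρ s r v l (ρ.step s r v st f)
      have hacc : ρ.accept s r st.1 st.2 f (v f) ≠ true := by
        intro hacc
        apply hnot
        apply hsub1
        simp [Rule.step, hacc]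
      have hns : ¬ SchemeAcc M L 1 1 0 s st.1 f (v f) :=
        fun h => hacc ((hρ st.1 st.2 f (v f)).mpr h)
      rw [unit_schemeAcc] at hns
      have hmem : f ∈ M.closure (Klev M L (maxS M s) s (cls (maxS M s) L (v f) - 1) ∪
          ((st.1 : Set E) ∩
            M.closure (Klev M L (maxS M s) s (cls (maxS M s) L (v f))))) := by
        by_contra h
        exact hns ⟨hc, hspan, h⟩
      have hsub2 : st.1 ⊆ (l.foldl (ρ.step s r v) (ρ.step s r v st f)).1 := by
        have h := foldl_step_subset ρ s r v (f :: l) st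
        rw [List.foldl_cons] at h
        exact h
      refine M.closure_subset_closure ?_ hmem
      exact Set.union_subset_union_right _
        (Set.inter_subset_inter_left _ (Finset.coe_subset.mpr hsub2))
    · have hfl : f ∈ l := by
        rcases List.mem_cons.mp hf with h | h
        · exact absurd h hfe
        · exact h
      exact ih (ρ.step s r v st e) hfl hnot

/-- With windows `(1, 1, 0)`: an element whose value has class `c ≥ 1`, which lies in the span
of the sample elements of the classes up to `c`, and which is not accepted at the end, lies in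
the span of the sample elements of the classes up to `c - 1` together with the accepted
elements in the span of the sample elements of the classes up to `c`. -/
lemma unit_maximal (M : Matroid E) (L : ℕ) (ρ : Rule E R) (s : E → ℝ≥0) (r : R)
    (v : E → ℝ≥0) (hρ : ActsAs ρ s r M L 1 1 0) (π : List E) (f : E) (hf : f ∈ π)
    (hc : 1 ≤ cls (maxS M s) L (v f))
    (hspan : f ∈ M.closure (Klev M L (maxS M s) s (cls (maxS M s) L (v f))))
    (hnot : f ∉ ρ.accepted s r v π) :
    f ∈ M.closure (Klev M L (maxS M s) s (cls (maxS M s) L (v f) - 1) ∪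
      ((ρ.accepted s r v π : Set E) ∩
        M.closure (Klev M L (maxS M s) s (cls (maxS M s) L (v f))))) := by
  exact unit_maximal_fold M L ρ s r v hρ f hc hspan π (∅, []) hf hnot

/-- With windows `(1, 1, 0)`: for each class `c ≥ 1`, the accepted elements of class `c` are at
least as many as the elements of class `c` of any set `D` whose class-`c` elements lie in the
span of the sample elements of the classes up to `c` and are independent in the contraction by
the span of the sample elements of the classes up to `c - 1`. -/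
lemma unit_class_card (M : Matroid E) (L : ℕ) (ρ : Rule E R) (s : E → ℝ≥0) (r : R)
    (v : E → ℝ≥0) (hρ : ActsAs ρ s r M L 1 1 0) (π : List E) (hπ : ∀ e, e ∈ π)
    (D : Finset E) (c : ℕ) (hc : 1 ≤ c)
    (hD1 : ∀ e ∈ D, cls (maxS M s) L (v e) = c ∧
      e ∈ M.closure (Klev M L (maxS M s) s c))
    (hD2 : (M ／ M.closure (Klev M L (maxS M s) s (c - 1))).Indep (D : Set E)) :
    D.card ≤ ((ρ.accepted s r v π).filter (fun a => cls (maxS M s) L (v a) = c)).card := by
  obtain ⟨hI1, hI2⟩ := scheme_inv_accepted M L 1 1 0 (by norm_num) ρ s r v hρ π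
  have hAmem : ∀ a, a ∈ (ρ.accepted s r v π).filter (fun a => cls (maxS M s) L (v a) = c) ↔
      a ∈ ρ.accepted s r v π ∧ cls (maxS M s) L (v a) = c := fun a => Finset.mem_filter
  have hA3 : ∀ a ∈ (ρ.accepted s r v π).filter (fun a => cls (maxS M s) L (v a) = c),
      a ∈ M.closure (Klev M L (maxS M s) s c) ∧
        a ∉ M.closure (Klev M L (maxS M s) s (c - 1)) := by
    intro a ha
    obtain ⟨ha1, ha2⟩ := (hAmem a).mp ha
    have h := unit_inv2 M L s v _ hI2 a ha1
    rw [ha2] at h
    exact ⟨h.2.1, h.2.2⟩
  refine card_le_of_maximal (M ／ M.closure (Klev M L (maxS M s) s (c - 1)))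
    {f | cls (maxS M s) L (v f) = c ∧ f ∈ M.closure (Klev M L (maxS M s) s c)} _ D
    ?_ ?_ ?_ hD2 ?_
  · refine (unit_inv1 M L s _ hI1 c).subset ?_
    intro a ha
    have ha' := Finset.mem_coe.mp ha
    exact ⟨⟨Finset.mem_coe.mpr ((hAmem a).mp ha').1, (hA3 a ha').1⟩, (hA3 a ha').2⟩
  · intro a ha
    have ha' := Finset.mem_coe.mp ha
    exact ⟨((hAmem a).mp ha').2, (hA3 a ha').1⟩
  · intro f hfX hfA
    obtain ⟨hfc, hfspan⟩ := hfX
    have hnot : f ∉ ρ.accepted s r v π := fun h => hfA ((hAmem f).mpr ⟨h, hfc⟩)
    have hmax := unit_maximal M L ρ s r v hρ π f (hπ f) (by rw [hfc]; exact hc)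
      (by rw [hfc]; exact hfspan) hnot
    rw [hfc] at hmax
    have hsub : Klev M L (maxS M s) s (c - 1) ∪
        ((ρ.accepted s r v π : Set E) ∩ M.closure (Klev M L (maxS M s) s c)) ⊆
        M.closure (Klev M L (maxS M s) s (c - 1) ∪
          (((ρ.accepted s r v π).filter (fun a => cls (maxS M s) L (v a) = c) : Finset E)
            : Set E)) := by
      rintro x (hx | ⟨hx1, hx2⟩)
      · exact M.mem_closure_of_mem' (Or.inl hx) (Klev_subset_ground M L _ s _ hx)
      · have hx1' : x ∈ ρ.accepted s r v π := Finset.mem_coe.mp hx1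
        obtain ⟨_, h2, h3⟩ := unit_inv2 M L s v _ hI2 x hx1'
        have hxE : x ∈ M.E := M.closure_subset_ground _ hx2
        have hle : cls (maxS M s) L (v x) ≤ c := by
          by_contra hlt
          push Not at hlt
          exact h3 (closure_Klev_mono M L _ s (by omega) hx2)
        rcases Nat.lt_or_eq_of_le hle with hlt | heq
        · exact M.closure_subset_closure Set.subset_union_left
            (closure_Klev_mono M L _ s (by omega) h2)
        · exact M.mem_closure_of_mem'
            (Or.inr (Finset.mem_coe.mpr ((hAmem x).mpr ⟨hx1', heq⟩))) hxE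
    have hcl := M.closure_subset_closure_of_subset_closure hsub hmax
    exact contract_insert_not_indep M _ _ f (fun h => hfA (Finset.mem_coe.mp h)) hcl
  · intro e he
    exact hD1 e (Finset.mem_coe.mp he)

/-- With windows `(1, 1, 0)`, twice the accepted value is at least the value of any set `D` of
elements with a class `c ≥ 1`, spanned by the sample elements of the classes up to `c`, whose
class-`c` elements are independent in the contraction by the span of the sample elements of the
classes up to `c - 1`, for every `c`. -/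
lemma scheme_D_gain (M : Matroid E) (L : ℕ) (ρ : Rule E R) (s : E → ℝ≥0) (r : R)
    (v : E → ℝ≥0) (hρ : ActsAs ρ s r M L 1 1 0) (π : List E) (hπ : ∀ e, e ∈ π)
    (D : Finset E)
    (hD1 : ∀ e ∈ D, 1 ≤ cls (maxS M s) L (v e) ∧
      e ∈ M.closure (Klev M L (maxS M s) s (cls (maxS M s) L (v e))))
    (hD2 : ∀ c, (M ／ M.closure (Klev M L (maxS M s) s (c - 1))).Indep
      ((D.filter (fun e => cls (maxS M s) L (v e) = c) : Finset E) : Set E)) :
    ∑ e ∈ D, v e ≤ 2 * ∑ e ∈ ρ.accepted s r v π, v e := by
  obtain ⟨_, hI2⟩ := scheme_inv_accepted M L 1 1 0 (by norm_num) ρ s r v hρ π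
  have hDmap : ∀ e ∈ D, cls (maxS M s) L (v e) ∈ Finset.Icc 1 L := fun e he =>
    Finset.mem_Icc.mpr ⟨(hD1 e he).1, cls_le _ _ _⟩
  have hAmap : ∀ a ∈ ρ.accepted s r v π, cls (maxS M s) L (v a) ∈ Finset.Icc 1 L :=
    fun a ha => Finset.mem_Icc.mpr ⟨(unit_inv2 M L s v _ hI2 a ha).1, cls_le _ _ _⟩
  rw [← Finset.sum_fiberwise_of_maps_to hDmap, ← Finset.sum_fiberwise_of_maps_to hAmap,
    Finset.mul_sum]
  refine Finset.sum_le_sum (fun c hc => ?_)
  have hc1 : 1 ≤ c := (Finset.mem_Icc.mp hc).1
  refine bucket_value (maxS M s) c (by omega) v _ _ ?_ ?_ ?_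
  · intro f hf
    obtain ⟨_, hfc⟩ := Finset.mem_filter.mp hf
    have h := cls_spec (maxS M s) L (v f) (by rw [hfc]; exact hc1)
    rw [hfc] at h
    exact h.2
  · intro f hf
    obtain ⟨_, hfc⟩ := Finset.mem_filter.mp hf
    have h := cls_spec (maxS M s) L (v f) (by rw [hfc]; exact hc1)
    rw [hfc] at h
    exact h.2
  · refine unit_class_card M L ρ s r v hρ π hπ _ c hc1 ?_ (hD2 c)
    intro e he
    obtain ⟨heD, hec⟩ := Finset.mem_filter.mp he
    refine ⟨hec, ?_⟩
    have h := (hD1 e heD).2
    rw [hec] at h
    exact h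

end Vale.Agent.Lib.P331
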