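import Mathlib
import Vale.Agent.Lib.P331.Defs
import Vale.Agent.Lib.P331.Run
import Vale.Agent.Lib.P331.Pointwise
import Vale.Agent.Lib.P331.LLDefs
import Vale.Agent.Lib.P331.LLCls
import Vale.Agent.Lib.P331.LLMatA
import Vale.Agent.Lib.P331.LLMatB
import Vale.Agent.Lib.P331.LLRunA
import Vale.Agent.Lib.P331.LLRunB
import Vale.Agent.Lib.P331.LLRunC

/-!
The window rule with windows of length one and period one collects at least half of `QD`.
-/

namespace Vale.Agent.Lib.P331

open Matroid
open scoped NNReal

variable {E R : Type*} [Fintype E] [DecidableEq E]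

omit [Fintype E] [DecidableEq E] in
lemma tbk_injective (ord : E → ℕ) (hord : Function.Injective ord) :
    Function.Injective (tbk ord) := by
  rintro ⟨e, β⟩ ⟨e', β'⟩ h
  have h' : 2 * ord e + (if β = true then 1 else 0)
      = 2 * ord e' + (if β' = true then 1 else 0) := h
  have hf : (if false = true then (1 : ℕ) else 0) = 0 := if_neg Bool.false_ne_true
  have ht : (if true = true then (1 : ℕ) else 0) = 1 := if_pos rfl
  cases β <;> cases β'
  · rw [hf] at h'
    have he : e = e' := hord (by omega)
    rw [he]
  · exfalso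
    rw [hf, ht] at h'
    omega
  · exfalso
    rw [ht, hf] at h'
    omega
  · rw [ht] at h'
    have he : e = e' := hord (by omega)
    rw [he]

omit [Fintype E] [DecidableEq E] in
/-- The weight of the value item of `e` is the value of `e`. -/
lemma llRunD_Wof_val (s v : E → ℝ≥0) (b : E → Bool) (e : E) : Wof s v b (e, b e) = v e := by
  unfold Wof
  exact if_pos rfl

omit [Fintype E] [DecidableEq E] in
/-- The weight of the sample item of `f` is the sample of `f`. -/
lemma llRunD_Wof_smp (s v : E → ℝ≥0) (b : E → Bool) (f : E) : Wof s v b (f, !b f) = s f := by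
  unfold Wof
  exact if_neg (by cases b f <;> simp)

/-- The elements counted by `QD`, of a fixed class `c`, are independent in the contraction by
the span of the sample elements of the classes up to `c - 1`. -/
lemma QD_class_indep (M : Matroid E) (ord : E → ℕ) (hord : Function.Injective ord) (L : ℕ)
    (s v : E → ℝ≥0) (b : E → Bool) (c : ℕ) :
    (M ／ M.closure (Klev M L (maxS M s) s (c - 1))).Indep
      {e | (InB M ord (Wof s v b) (e, b e) ∧ 1 ≤ cls (maxS M s) L (v e) ∧
          e ∈ M.closure (Klev M L (maxS M s) s (cls (maxS M s) L (v e)))) ∧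
        cls (maxS M s) L (v e) = c} := by
  -- the decidable equality of the ambient section is not needed below
  have _ : DecidableEq E := inferInstance
  classical
  rcases Nat.eq_zero_or_pos c with hc0 | hcpos
  · refine (Matroid.empty_indep _).subset ?_
    rintro e ⟨⟨_, h1, _⟩, h2⟩
    exfalso
    omega
  · obtain ⟨D, hD⟩ : ∃ D : Finset E, D = Finset.univ.filter (fun e =>
        (InB M ord (Wof s v b) (e, b e) ∧ 1 ≤ cls (maxS M s) L (v e) ∧
          e ∈ M.closure (Klev M L (maxS M s) s (cls (maxS M s) L (v e)))) ∧
        cls (maxS M s) L (v e) = c) := ⟨_, rfl⟩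
    have hmem : ∀ e, e ∈ D ↔ (InB M ord (Wof s v b) (e, b e) ∧ 1 ≤ cls (maxS M s) L (v e) ∧
          e ∈ M.closure (Klev M L (maxS M s) s (cls (maxS M s) L (v e)))) ∧
        cls (maxS M s) L (v e) = c := by
      intro e
      rw [hD, Finset.mem_filter]
      simp only [Finset.mem_univ, true_and]
    have hind : (M ／ M.closure (Klev M L (maxS M s) s (c - 1))).Indep (D : Set E) := by
      apply contract_indep_of_order M _ D (fun e => toLex (v e, tbk ord (e, b e)))
      · intro e _ e' _ h
        have h1 : (v e, tbk ord (e, b e)) = (v e', tbk ord (e', b e')) := toLex.injective h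
        have h2 : tbk ord (e, b e) = tbk ord (e', b e') := congrArg Prod.snd h1
        exact congrArg Prod.fst (tbk_injective ord hord h2)
      · intro e he
        obtain ⟨⟨hInB, h1, _⟩, hc⟩ := (hmem e).mp he
        have hInd : M.Indep {e} := hInB.1
        have hncl : e ∉ M.closure {f | ∃ β, Hv ord (Wof s v b) (f, β) (e, b e)} := hInB.2
        refine ⟨hInd.subset_ground (Set.mem_singleton e), ?_⟩
        intro hin
        apply hncl
        refine M.closure_subset_closure ?_ hin
        rintro f (hf | ⟨_, hlt⟩)
        · have hf' : M.Indep {f} ∧ (L ≤ c - 1 ∨ maxS M s / 2 ^ (c - 1) < s f) := hf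
          refine ⟨!b f, Or.inl ?_⟩
          rw [llRunD_Wof_val, llRunD_Wof_smp]
          have hcL : cls (maxS M s) L (v e) ≤ L := cls_le _ _ _
          have hve := (cls_pos_imp (maxS M s) L (v e) h1).2.2.2.2
          rw [hc] at hve hcL
          rcases hf'.2 with hL | hlt
          · exfalso
            omega
          · exact lt_of_le_of_lt hve hlt
        · refine ⟨b f, ?_⟩
          unfold Hv
          rw [llRunD_Wof_val, llRunD_Wof_val]
          exact Prod.Lex.toLex_lt_toLex.mp hlt
    refine hind.subset ?_
    intro e he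
    exact Finset.mem_coe.mpr ((hmem e).mpr he)

/-- Twice the value accepted by a rule acting as the window rule `(1, 1, 0)` is at least
`QD`. -/
lemma QD_le (M : Matroid E) (ord : E → ℕ) (hord : Function.Injective ord) (L : ℕ)
    (ρ : Rule E R) (s : E → ℝ≥0) (r : R) (v : E → ℝ≥0) (hρ : ActsAs ρ s r M L 1 1 0)
    (π : List E) (hπ : ∀ e, e ∈ π) (b : E → Bool) :
    QD M ord L s v b ≤ 2 * ∑ e ∈ ρ.accepted s r v π, v e := by
  classical
  have hQD : QD M ord L s v b = ∑ e ∈ Finset.univ.filter (fun e =>
      InB M ord (Wof s v b) (e, b e) ∧ 1 ≤ cls (maxS M s) L (v e) ∧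
        e ∈ M.closure (Klev M L (maxS M s) s (cls (maxS M s) L (v e)))), v e := by
    rw [Finset.sum_filter]
    unfold QD
    refine Finset.sum_congr rfl (fun e _ => ?_)
    by_cases h : InB M ord (Wof s v b) (e, b e) ∧ 1 ≤ cls (maxS M s) L (v e) ∧
        e ∈ M.closure (Klev M L (maxS M s) s (cls (maxS M s) L (v e)))
    · simp only [if_pos h]
    · simp only [if_neg h]
  rw [hQD]
  apply scheme_D_gain M L ρ s r v hρ π hπ
  · intro e he
    exact ((Finset.mem_filter.mp he).2).2
  · intro c
    refine (QD_class_indep M ord hord L s v b c).subset ?_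
    intro e he
    have h1 := Finset.mem_filter.mp (Finset.mem_coe.mp he)
    have h2 := Finset.mem_filter.mp h1.1
    exact ⟨h2.2, h1.2⟩

end Vale.Agent.Lib.P331
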