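import Mathlib
import Vale.Agent.Lib.P331.Defs
import Vale.Agent.Lib.P331.Run
import Vale.Agent.Lib.P331.Pointwise
import Vale.Agent.Lib.P331.LLDefs
import Vale.Agent.Lib.P331.LLCls
import Vale.Agent.Lib.P331.LLRunA
import Vale.Agent.Lib.P331.LLRunB
import Vale.Agent.Lib.P331.LLRunD

/-!
The rule `llRule`: independence of the accepted set and what each mode collects, for every
arrival order.
-/

namespace Vale.Agent.Lib.P331

open scoped NNReal

variable {E : Type*} [Fintype E] [DecidableEq E]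

lemma ll_actsAs_unit (M : Matroid E) (ord : E → ℕ) (L Jn : ℕ) (s : E → ℝ≥0) (b : E → Bool)
    (t : Fin (Jn + 2)) (o : Fin (3 * 2 ^ Jn)) (ht : (t : ℕ) = 1) :
    ActsAs (llRule M ord L Jn) s (b, t, o) M L 1 1 0 := by
  classical
  intro A h e x
  simp only [llRule, ht]
  simp

lemma ll_actsAs_scale (M : Matroid E) (ord : E → ℕ) (L Jn : ℕ) (s : E → ℝ≥0) (b : E → Bool)
    (t : Fin (Jn + 2)) (o : Fin (3 * 2 ^ Jn)) (ht0 : (t : ℕ) ≠ 0) (ht1 : (t : ℕ) ≠ 1) :
    ActsAs (llRule M ord L Jn) s (b, t, o) M L (2 ^ ((t : ℕ) - 2)) (3 * 2 ^ ((t : ℕ) - 2)) o := by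
  classical
  intro A h e x
  simp only [llRule, ht0, ht1, if_false]
  simp

lemma ll_single_eq (M : Matroid E) (ord : E → ℕ) (L Jn : ℕ) (s : E → ℝ≥0) (b : E → Bool)
    (t : Fin (Jn + 2)) (o : Fin (3 * 2 ^ Jn)) (ht : (t : ℕ) = 0) (v : E → ℝ≥0) (π : List E) :
    (llRule M ord L Jn).accepted s (b, t, o) v π = (theRule M ord 0).accepted s (b, 0) v π := by
  classical
  unfold Rule.accepted
  have hstep : (llRule M ord L Jn).step s (b, t, o) v = (theRule M ord 0).step s (b, 0) v := by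
    funext st e
    unfold Rule.step
    simp only [llRule, theRule, ht]
    simp
  rw [hstep]

/-- The accepted set is always independent. -/
lemma ll_accepted_indep (M : Matroid E) (ord : E → ℕ) (L Jn : ℕ) (s : E → ℝ≥0)
    (r : (E → Bool) × Fin (Jn + 2) × Fin (3 * 2 ^ Jn)) (v : E → ℝ≥0) (π : List E) :
    M.Indep (((llRule M ord L Jn).accepted s r v π : Finset E) : Set E) := by
  obtain ⟨b, t, o⟩ := r
  by_cases ht0 : (t : ℕ) = 0
  · rw [ll_single_eq M ord L Jn s b t o ht0 v π]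
    exact accepted_indep M ord 0 s (b, 0) v π
  · by_cases ht1 : (t : ℕ) = 1
    · exact scheme_indep M L 1 1 0 (by norm_num) _ s _ v
        (ll_actsAs_unit M ord L Jn s b t o ht1) π
    · exact scheme_indep M L _ _ _ (by positivity) _ s _ v
        (ll_actsAs_scale M ord L Jn s b t o ht0 ht1) π

/-- Mode `0` collects the value of a unique active element. -/
lemma ll_single_gain (M : Matroid E) (ord : E → ℕ) (L Jn : ℕ) (s : E → ℝ≥0) (b : E → Bool)
    (t : Fin (Jn + 2)) (o : Fin (3 * 2 ^ Jn)) (ht : (t : ℕ) = 0) (v : E → ℝ≥0) (π : List E)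
    (hπ : ∀ e, e ∈ π) :
    (∑ e, open Classical in if UniqueActive M ord s b v e then v e else 0)
      ≤ ∑ e ∈ (llRule M ord L Jn).accepted s (b, t, o) v π, v e := by
  rw [ll_single_eq M ord L Jn s b t o ht v π]
  exact single_gain M ord 0 s b v 0 (by simp) π hπ

/-- Mode `1` collects at least half of `QD`. -/
lemma ll_unit_gain (M : Matroid E) (ord : E → ℕ) (hord : Function.Injective ord) (L Jn : ℕ)
    (s : E → ℝ≥0) (b : E → Bool) (t : Fin (Jn + 2)) (o : Fin (3 * 2 ^ Jn)) (ht : (t : ℕ) = 1)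
    (v : E → ℝ≥0) (π : List E) (hπ : ∀ e, e ∈ π) :
    QD M ord L s v b ≤ 2 * ∑ e ∈ (llRule M ord L Jn).accepted s (b, t, o) v π, v e :=
  QD_le M ord hord L _ s _ v (ll_actsAs_unit M ord L Jn s b t o ht) π hπ b

/-- Mode `j + 2` collects at least `QS` for the windows of length `2^j`. -/
lemma ll_scale_gain (M : Matroid E) (ord : E → ℕ) (L Jn : ℕ) (s : E → ℝ≥0) (b : E → Bool)
    (t : Fin (Jn + 2)) (o : Fin (3 * 2 ^ Jn)) (ht0 : (t : ℕ) ≠ 0) (ht1 : (t : ℕ) ≠ 1)
    (v : E → ℝ≥0) (π : List E) (hπ : ∀ e, e ∈ π) :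
    QS M L (2 ^ ((t : ℕ) - 2)) (3 * 2 ^ ((t : ℕ) - 2)) o s v
      ≤ ∑ e ∈ (llRule M ord L Jn).accepted s (b, t, o) v π, v e :=
  QS_le M L _ _ _ (by positivity) _ s _ v (ll_actsAs_scale M ord L Jn s b t o ht0 ht1) π hπ

end Vale.Agent.Lib.P331
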