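import Mathlib
import Vale.Agent.Lib.P331.Defs
import Vale.Agent.Lib.P331.Run
import Vale.Agent.Lib.P331.Pointwise
import Vale.Agent.Lib.P331.Swap
import Vale.Agent.Lib.P331.Integral

/-!
The single mode: summed over the seed bits, the value of a unique active element is at least
a quarter of the largest value, in expectation.
-/

namespace Vale.Agent.Lib.P331

open MeasureTheory
open scoped NNReal ENNReal

variable {E : Type*} [Fintype E] [DecidableEq E]

/-- The value of `e` if it is the top, else `0`. -/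
noncomputable def gTop (M : Matroid E) (ord : E → ℕ) (e : E) (ω : E → ℝ≥0 × ℝ≥0)
    (b : E → Bool) : ℝ≥0∞ :=
  open Classical in
  if Top M ord (fun f => (ω f).1) (fun f => (ω f).2) b e then ((ω e).2 : ℝ≥0∞) else 0

/-- The value of `e` if it is the top and the only active element, else `0`. -/
noncomputable def gTopU (M : Matroid E) (ord : E → ℕ) (e : E) (ω : E → ℝ≥0 × ℝ≥0)
    (b : E → Bool) : ℝ≥0∞ :=
  open Classical in
  if TopU M ord (fun f => (ω f).1) (fun f => (ω f).2) b e then ((ω e).2 : ℝ≥0∞) else 0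

omit [DecidableEq E] in
lemma measurable_gTop (M : Matroid E) (ord : E → ℕ) (e : E) (b : E → Bool) :
    Measurable (fun ω => gTop M ord e ω b) := by
  classical
  unfold gTop
  refine Measurable.ite (Measurable.setOf ?_) (by fun_prop) measurable_const
  unfold Top Act Beats AboveVals
  fun_prop

omit [DecidableEq E] in
lemma measurable_gTopU (M : Matroid E) (ord : E → ℕ) (e : E) (b : E → Bool) :
    Measurable (fun ω => gTopU M ord e ω b) := by
  classical
  unfold gTopU
  refine Measurable.ite (Measurable.setOf ?_) (by fun_prop) measurable_const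
  unfold TopU Top Act Beats AboveVals
  fun_prop

omit [Fintype E] in
lemma gTop_le (M : Matroid E) (ord : E → ℕ) (e : E) (ω : E → ℝ≥0 × ℝ≥0) (b : E → Bool) :
    gTop M ord e ω b ≤ gTopU M ord e ω b
      + gTopU M ord e (swapFun (fun f => f ≠ e) ω) (flipOn (fun f => f ≠ e) b) := by
  classical
  unfold gTop
  by_cases hT : Top M ord (fun f => (ω f).1) (fun f => (ω f).2) b e
  · rw [if_pos hT]
    rcases topU_or M ord _ _ b e hT with h | h
    · unfold gTopU
      rw [if_pos h]
      exact le_self_add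
    · have h' : TopU M ord (fun f => (swapFun (fun f => f ≠ e) ω f).1)
          (fun f => (swapFun (fun f => f ≠ e) ω f).2) (flipOn (fun f => f ≠ e) b) e := by
        rw [smp_swap, val_swap]
        exact h
      have hv : (swapFun (fun f => f ≠ e) ω e).2 = (ω e).2 := by
        simp [swapFun]
      have h2 : gTopU M ord e (swapFun (fun f => f ≠ e) ω) (flipOn (fun f => f ≠ e) b)
          = ((ω e).2 : ℝ≥0∞) := by
        unfold gTopU
        rw [if_pos h', hv]
      rw [h2]
      exact le_add_self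
  · rw [if_neg hT]
    exact zero_le

omit [DecidableEq E] in
lemma maxS_le_gTop (M : Matroid E) (ord : E → ℕ) (hord : Function.Injective ord)
    (ω : E → ℝ≥0 × ℝ≥0) (b : E → Bool) :
    (maxS M (fun e => (ω e).2) : ℝ≥0∞)
      ≤ ∑ e, (gTop M ord e ω b
        + gTop M ord e (swapFun (fun _ => True) ω) (flipOn (fun _ => True) b)) := by
  classical
  have h := maxV_le_top M ord hord (fun f => (ω f).1) (fun f => (ω f).2) b
  have h' := ENNReal.coe_le_coe.mpr h
  refine h'.trans (le_of_eq ?_)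
  rw [ENNReal.ofNNReal_finsetSum]
  apply Finset.sum_congr rfl
  intro e _
  unfold gTop
  rw [smp_swap, val_swap, sw1_true, sw2_true, flipOn_true, ENNReal.coe_add]
  have hs : (swapFun (fun _ => True) ω e).2 = (ω e).1 := by
    simp [swapFun]
  rw [hs]
  congr 1 <;> split_ifs <;> simp

/-- Summed over the seed bits, the expected value of a unique active element is at least a
quarter of the expected largest value of a non-loop element. -/
lemma single_part (M : Matroid E) (ord : E → ℕ) (hord : Function.Injective ord)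
    (μ : Measure (E → ℝ≥0 × ℝ≥0)) (hμ : SwapInv μ) :
    (2 : ℝ≥0∞) ^ Fintype.card E * ∫⁻ ω, (maxS M (fun e => (ω e).2) : ℝ≥0∞) ∂μ
      ≤ 4 * ∑ b : E → Bool, ∫⁻ ω, (∑ e, open Classical in
          if UniqueActive M ord (fun f => (ω f).1) b (fun f => (ω f).2) e
            then ((ω e).2 : ℝ≥0∞) else 0) ∂μ := by
  classical
  have mT := measurable_gTop M ord
  have mU := measurable_gTopU M ord
  have stepA : ∀ e, ∑ b : E → Bool, ∫⁻ ω, gTop M ord e ω b ∂μ
      ≤ 2 * ∑ b : E → Bool, ∫⁻ ω, gTopU M ord e ω b ∂μ := by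
    intro e
    calc ∑ b : E → Bool, ∫⁻ ω, gTop M ord e ω b ∂μ
        ≤ ∑ b : E → Bool, ∫⁻ ω, (gTopU M ord e ω b
            + gTopU M ord e (swapFun (fun f => f ≠ e) ω) (flipOn (fun f => f ≠ e) b)) ∂μ :=
          Finset.sum_le_sum (fun b _ => lintegral_mono (fun ω => gTop_le M ord e ω b))
      _ = ∑ b : E → Bool, (∫⁻ ω, gTopU M ord e ω b ∂μ
            + ∫⁻ ω, gTopU M ord e (swapFun (fun f => f ≠ e) ω)
                (flipOn (fun f => f ≠ e) b) ∂μ) := by
          apply Finset.sum_congr rfl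
          intro b _
          exact lintegral_add_left (mU e b) _
      _ = ∑ b : E → Bool, ∫⁻ ω, gTopU M ord e ω b ∂μ
            + ∑ b : E → Bool, ∫⁻ ω, gTopU M ord e (swapFun (fun f => f ≠ e) ω)
                (flipOn (fun f => f ≠ e) b) ∂μ := Finset.sum_add_distrib
      _ = 2 * ∑ b : E → Bool, ∫⁻ ω, gTopU M ord e ω b ∂μ := by
          rw [sum_lintegral_swapInv μ hμ (fun f => f ≠ e) (gTopU M ord e), two_mul]
  have stepB : (2 : ℝ≥0∞) ^ Fintype.card E * ∫⁻ ω, (maxS M (fun e => (ω e).2) : ℝ≥0∞) ∂μ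
      ≤ 2 * ∑ e, ∑ b : E → Bool, ∫⁻ ω, gTop M ord e ω b ∂μ := by
    have h1 : ∀ b : E → Bool, ∫⁻ ω, (maxS M (fun e => (ω e).2) : ℝ≥0∞) ∂μ
        ≤ ∑ e, (∫⁻ ω, gTop M ord e ω b ∂μ
          + ∫⁻ ω, gTop M ord e (swapFun (fun _ => True) ω) (flipOn (fun _ => True) b) ∂μ) := by
      intro b
      calc ∫⁻ ω, (maxS M (fun e => (ω e).2) : ℝ≥0∞) ∂μ
          ≤ ∫⁻ ω, ∑ e, (gTop M ord e ω b
              + gTop M ord e (swapFun (fun _ => True) ω) (flipOn (fun _ => True) b)) ∂μ :=
            lintegral_mono (fun ω => maxS_le_gTop M ord hord ω b)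
        _ = ∑ e, ∫⁻ ω, (gTop M ord e ω b
              + gTop M ord e (swapFun (fun _ => True) ω) (flipOn (fun _ => True) b)) ∂μ :=
            lintegral_finsetSum _
              (fun e _ => (mT e b).add ((mT e _).comp (measurable_swapFun _)))
        _ = ∑ e, (∫⁻ ω, gTop M ord e ω b ∂μ
              + ∫⁻ ω, gTop M ord e (swapFun (fun _ => True) ω)
                  (flipOn (fun _ => True) b) ∂μ) := by
            apply Finset.sum_congr rfl
            intro e _
            exact lintegral_add_left (mT e b) _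
    have h2 : (2 : ℝ≥0∞) ^ Fintype.card E * ∫⁻ ω, (maxS M (fun e => (ω e).2) : ℝ≥0∞) ∂μ
        = ∑ _b : E → Bool, ∫⁻ ω, (maxS M (fun e => (ω e).2) : ℝ≥0∞) ∂μ := by
      rw [Finset.sum_const, Finset.card_univ, Fintype.card_fun, Fintype.card_bool, nsmul_eq_mul]
      push_cast
      rfl
    rw [h2]
    calc ∑ _b : E → Bool, ∫⁻ ω, (maxS M (fun e => (ω e).2) : ℝ≥0∞) ∂μ
        ≤ ∑ b : E → Bool, ∑ e, (∫⁻ ω, gTop M ord e ω b ∂μ
            + ∫⁻ ω, gTop M ord e (swapFun (fun _ => True) ω)
                (flipOn (fun _ => True) b) ∂μ) :=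
          Finset.sum_le_sum (fun b _ => h1 b)
      _ = ∑ e, (∑ b : E → Bool, ∫⁻ ω, gTop M ord e ω b ∂μ
            + ∑ b : E → Bool, ∫⁻ ω, gTop M ord e (swapFun (fun _ => True) ω)
                (flipOn (fun _ => True) b) ∂μ) := by
          rw [Finset.sum_comm]
          apply Finset.sum_congr rfl
          intro e _
          exact Finset.sum_add_distrib
      _ = ∑ e, 2 * ∑ b : E → Bool, ∫⁻ ω, gTop M ord e ω b ∂μ := by
          apply Finset.sum_congr rfl
          intro e _
          rw [sum_lintegral_swapInv μ hμ (fun _ => True) (gTop M ord e), two_mul]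
      _ = 2 * ∑ e, ∑ b : E → Bool, ∫⁻ ω, gTop M ord e ω b ∂μ := by rw [Finset.mul_sum]
  have stepC : ∑ e, ∑ b : E → Bool, ∫⁻ ω, gTopU M ord e ω b ∂μ
      ≤ ∑ b : E → Bool, ∫⁻ ω, (∑ e,
          if UniqueActive M ord (fun f => (ω f).1) b (fun f => (ω f).2) e
            then ((ω e).2 : ℝ≥0∞) else 0) ∂μ := by
    rw [Finset.sum_comm]
    apply Finset.sum_le_sum
    intro b _
    rw [← lintegral_finsetSum _ (fun e _ => mU e b)]
    apply lintegral_mono
    intro ω
    beta_reduce
    apply Finset.sum_le_sum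
    intro e _
    unfold gTopU
    by_cases h : TopU M ord (fun f => (ω f).1) (fun f => (ω f).2) b e
    · rw [if_pos h, if_pos (topU_unique M ord _ _ b e h)]
    · rw [if_neg h]
      exact zero_le
  calc (2 : ℝ≥0∞) ^ Fintype.card E * ∫⁻ ω, (maxS M (fun e => (ω e).2) : ℝ≥0∞) ∂μ
      ≤ 2 * ∑ e, ∑ b : E → Bool, ∫⁻ ω, gTop M ord e ω b ∂μ := stepB
    _ ≤ 2 * ∑ e, (2 * ∑ b : E → Bool, ∫⁻ ω, gTopU M ord e ω b ∂μ) :=
        mul_le_mul_right (Finset.sum_le_sum (fun e _ => stepA e)) 2
    _ = 4 * ∑ e, ∑ b : E → Bool, ∫⁻ ω, gTopU M ord e ω b ∂μ := by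
        rw [← Finset.mul_sum, ← mul_assoc]
        norm_num
    _ ≤ 4 * ∑ b : E → Bool, ∫⁻ ω, (∑ e,
          if UniqueActive M ord (fun f => (ω f).1) b (fun f => (ω f).2) e
            then ((ω e).2 : ℝ≥0∞) else 0) ∂μ := mul_le_mul_right stepC 4

end Vale.Agent.Lib.P331
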