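import Mathlib
import Vale.Agent.Lib.P331.Defs
import Vale.Agent.Lib.P331.Run
import Vale.Agent.Lib.P331.Pointwise
import Vale.Agent.Lib.P331.Swap
import Vale.Agent.Lib.P331.Integral
import Vale.Agent.Lib.P331.Single

/-!
Assembly: the rule is `1 / (8 (1 + L))`-competitive against every arrival order chosen with
full knowledge of the outcome, where `2 ^ L` is at least the rank.
-/

namespace Vale.Agent.Lib.P331

open MeasureTheory
open scoped NNReal ENNReal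

variable {E : Type*} [Fintype E] [DecidableEq E]

/-- The optimum of the values restricted to the `j`-th bucket below the largest sample. -/
noncomputable def optB (M : Matroid E) (j : ℕ) (ω : E → ℝ≥0 × ℝ≥0) : ℝ≥0 :=
  opt M (fun e => open Classical in
    if InBucket (maxS M (fun f => (ω f).1)) j ((ω e).2) then (ω e).2 else 0)

omit [DecidableEq E] in
lemma measurable_optB (M : Matroid E) (j : ℕ) :
    Measurable (fun ω => (optB M j ω : ℝ≥0∞)) := by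
  classical
  apply measurable_coe_nnreal_ennreal.comp
  unfold optB opt
  apply measurable_finset_sup
  intro I _
  apply Finset.measurable_fun_sum
  intro e _
  have hm := measurable_maxS_smp M
  refine Measurable.ite (Measurable.setOf ?_) (by fun_prop) measurable_const
  unfold InBucket
  fun_prop

lemma measurable_topSum (M : Matroid E) (ord : E → ℕ) :
    Measurable (fun ω : E → ℝ≥0 × ℝ≥0 =>
      (topSum M ord (fun e => (ω e).1) (fun e => (ω e).2) : ℝ≥0∞)) := by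
  classical
  apply measurable_coe_nnreal_ennreal.comp
  unfold topSum
  apply Finset.measurable_fun_sum
  intro e _
  refine Measurable.ite (Measurable.setOf ?_) (by fun_prop) measurable_const
  fun_prop

lemma sum_Icc_le_sum_fin (f : ℕ → ℝ≥0) (L : ℕ) :
    ∑ j ∈ Finset.Icc 1 L, f j ≤ ∑ j : Fin (L + 1), if (j : ℕ) = 0 then 0 else f j := by
  rw [Fin.sum_univ_eq_sum_range (fun j => if j = 0 then 0 else f j) (L + 1)]
  have h1 : ∑ j ∈ Finset.Icc 1 L, f j = ∑ j ∈ Finset.Icc 1 L, if j = 0 then 0 else f j := by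
    apply Finset.sum_congr rfl
    intro j hj
    rw [Finset.mem_Icc] at hj
    rw [if_neg (by omega)]
  rw [h1]
  apply Finset.sum_le_sum_of_subset
  intro j hj
  rw [Finset.mem_Icc] at hj
  rw [Finset.mem_range]
  omega

/-- The expected optimum, for a fixed choice of the seed bits. -/
lemma opt_le_per_bits (M : Matroid E) (ord : E → ℕ) (L : ℕ) (hL : M.eRank.toNat ≤ 2 ^ L)
    (μ : Measure (E → ℝ≥0 × ℝ≥0)) (hμ : SwapInv μ)
    (adv : (E → ℝ≥0 × ℝ≥0) → ((E → Bool) × Fin (L + 1)) → List E)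
    (hadv : ∀ ω r, ∀ e, e ∈ adv ω r) (b : E → Bool) :
    ∫⁻ ω, (opt M (fun e => (ω e).2) : ℝ≥0∞) ∂μ
      ≤ 2 * ∫⁻ ω, (maxS M (fun e => (ω e).2) : ℝ≥0∞) ∂μ
        + ∑ j : Fin (L + 1), (if (j : ℕ) = 0 then 0 else
            2 * ∫⁻ ω, ((∑ e ∈ (theRule M ord L).accepted (fun e => (ω e).1) (b, j)
              (fun e => (ω e).2) (adv ω (b, j)), (ω e).2 : ℝ≥0) : ℝ≥0∞) ∂μ) := by
  classical
  have pw : ∀ ω : E → ℝ≥0 × ℝ≥0, (opt M (fun e => (ω e).2) : ℝ≥0∞)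
      ≤ ((topSum M ord (fun e => (ω e).1) (fun e => (ω e).2) : ℝ≥0∞)
          + (maxS M (fun e => (ω e).1) : ℝ≥0∞))
        + ∑ j : Fin (L + 1), (if (j : ℕ) = 0 then 0 else (optB M j ω : ℝ≥0∞)) := by
    intro ω
    have h1 := opt_decomp M ord L hL (fun e => (ω e).1) (fun e => (ω e).2)
    have h2 := sum_Icc_le_sum_fin (fun j => optB M j ω) L
    have h3 : opt M (fun e => (ω e).2)
        ≤ topSum M ord (fun e => (ω e).1) (fun e => (ω e).2) + maxS M (fun e => (ω e).1)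
          + ∑ j : Fin (L + 1), if (j : ℕ) = 0 then 0 else optB M j ω :=
      h1.trans (add_le_add le_rfl h2)
    have h4 := ENNReal.coe_le_coe.mpr h3
    refine h4.trans (le_of_eq ?_)
    rw [ENNReal.coe_add, ENNReal.coe_add, ENNReal.ofNNReal_finsetSum]
    congr 1
    apply Finset.sum_congr rfl
    intro j _
    split_ifs <;> simp
  have hmeasB : ∀ j : Fin (L + 1),
      Measurable (fun ω => if (j : ℕ) = 0 then (0 : ℝ≥0∞) else (optB M j ω : ℝ≥0∞)) := by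
    intro j
    split_ifs
    · exact measurable_const
    · exact measurable_optB M j
  have hstep : ∫⁻ ω, (opt M (fun e => (ω e).2) : ℝ≥0∞) ∂μ
      ≤ (∫⁻ ω, (topSum M ord (fun e => (ω e).1) (fun e => (ω e).2) : ℝ≥0∞) ∂μ
          + ∫⁻ ω, (maxS M (fun e => (ω e).1) : ℝ≥0∞) ∂μ)
        + ∑ j : Fin (L + 1),
            ∫⁻ ω, (if (j : ℕ) = 0 then (0 : ℝ≥0∞) else (optB M j ω : ℝ≥0∞)) ∂μ := by
    refine (lintegral_mono pw).trans (le_of_eq ?_)
    have hm2 : Measurable (fun ω : E → ℝ≥0 × ℝ≥0 => (maxS M (fun e => (ω e).1) : ℝ≥0∞)) :=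
      measurable_coe_nnreal_ennreal.comp (measurable_maxS_smp M)
    have hm1 : Measurable (fun ω : E → ℝ≥0 × ℝ≥0 =>
        (topSum M ord (fun e => (ω e).1) (fun e => (ω e).2) : ℝ≥0∞)
          + (maxS M (fun e => (ω e).1) : ℝ≥0∞)) := (measurable_topSum M ord).add hm2
    rw [lintegral_add_left hm1, lintegral_add_left (measurable_topSum M ord),
      lintegral_finsetSum _ (fun j _ => hmeasB j)]
  have hbuck : ∀ j : Fin (L + 1),
      ∫⁻ ω, (if (j : ℕ) = 0 then (0 : ℝ≥0∞) else (optB M j ω : ℝ≥0∞)) ∂μ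
        ≤ (if (j : ℕ) = 0 then 0 else
            2 * ∫⁻ ω, ((∑ e ∈ (theRule M ord L).accepted (fun e => (ω e).1) (b, j)
              (fun e => (ω e).2) (adv ω (b, j)), (ω e).2 : ℝ≥0) : ℝ≥0∞) ∂μ) := by
    intro j
    by_cases hj : (j : ℕ) = 0
    · simp [hj]
    · simp only [hj, if_false]
      rw [← lintegral_const_mul' _ _ (by norm_num : (2 : ℝ≥0∞) ≠ ∞)]
      apply lintegral_mono
      intro ω
      have h := bucket_gain M ord L (fun e => (ω e).1) b (fun e => (ω e).2) j hj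
        (adv ω (b, j)) (hadv ω (b, j))
      have h' := ENNReal.coe_le_coe.mpr h
      rw [ENNReal.coe_mul] at h'
      exact h'
  calc ∫⁻ ω, (opt M (fun e => (ω e).2) : ℝ≥0∞) ∂μ
      ≤ (∫⁻ ω, (topSum M ord (fun e => (ω e).1) (fun e => (ω e).2) : ℝ≥0∞) ∂μ
          + ∫⁻ ω, (maxS M (fun e => (ω e).1) : ℝ≥0∞) ∂μ)
        + ∑ j : Fin (L + 1),
            ∫⁻ ω, (if (j : ℕ) = 0 then (0 : ℝ≥0∞) else (optB M j ω : ℝ≥0∞)) ∂μ := hstep
    _ ≤ (∫⁻ ω, (maxS M (fun e => (ω e).2) : ℝ≥0∞) ∂μ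
          + ∫⁻ ω, (maxS M (fun e => (ω e).2) : ℝ≥0∞) ∂μ)
        + ∑ j : Fin (L + 1), (if (j : ℕ) = 0 then 0 else
            2 * ∫⁻ ω, ((∑ e ∈ (theRule M ord L).accepted (fun e => (ω e).1) (b, j)
              (fun e => (ω e).2) (adv ω (b, j)), (ω e).2 : ℝ≥0) : ℝ≥0∞) ∂μ) := by
        refine add_le_add (add_le_add (lintegral_topSum_le M ord μ hμ) ?_)
          (Finset.sum_le_sum (fun j _ => hbuck j))
        rw [lintegral_maxS_smp M μ hμ]
    _ = 2 * ∫⁻ ω, (maxS M (fun e => (ω e).2) : ℝ≥0∞) ∂μ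
        + ∑ j : Fin (L + 1), (if (j : ℕ) = 0 then 0 else
            2 * ∫⁻ ω, ((∑ e ∈ (theRule M ord L).accepted (fun e => (ω e).1) (b, j)
              (fun e => (ω e).2) (adv ω (b, j)), (ω e).2 : ℝ≥0) : ℝ≥0∞) ∂μ) := by
        rw [two_mul]

lemma fin_sum_bound (L : ℕ) (a : Fin (L + 1) → ℝ≥0∞) :
    8 * a 0 + ∑ j : Fin (L + 1), (if (j : ℕ) = 0 then 0 else 2 * a j) ≤ 8 * ∑ j, a j := by
  rw [Fin.sum_univ_succ, Fin.sum_univ_succ]
  simp only [Fin.val_zero, if_true, zero_add, Fin.val_succ, Nat.succ_ne_zero, if_false]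
  rw [mul_add, ← Finset.mul_sum]
  refine add_le_add le_rfl ?_
  exact mul_le_mul_left (by norm_num) _

/-- Main inequality, before normalising by the number of seeds. -/
theorem main_bound (M : Matroid E) (ord : E → ℕ) (hord : Function.Injective ord) (L : ℕ)
    (hL : M.eRank.toNat ≤ 2 ^ L) (μ : Measure (E → ℝ≥0 × ℝ≥0)) (hμ : SwapInv μ)
    (adv : (E → ℝ≥0 × ℝ≥0) → ((E → Bool) × Fin (L + 1)) → List E)
    (hadv : ∀ ω r, ∀ e, e ∈ adv ω r) :
    (2 : ℝ≥0∞) ^ Fintype.card E * ∫⁻ ω, (opt M (fun e => (ω e).2) : ℝ≥0∞) ∂μ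
      ≤ 8 * ∑ r : (E → Bool) × Fin (L + 1),
          ∫⁻ ω, ((∑ e ∈ (theRule M ord L).accepted (fun e => (ω e).1) r
            (fun e => (ω e).2) (adv ω r), (ω e).2 : ℝ≥0) : ℝ≥0∞) ∂μ := by
  classical
  set γ : (E → Bool) × Fin (L + 1) → ℝ≥0∞ := fun r =>
    ∫⁻ ω, ((∑ e ∈ (theRule M ord L).accepted (fun e => (ω e).1) r
      (fun e => (ω e).2) (adv ω r), (ω e).2 : ℝ≥0) : ℝ≥0∞) ∂μ with hγ
  have h1 : ∀ b : E → Bool, ∫⁻ ω, (opt M (fun e => (ω e).2) : ℝ≥0∞) ∂μ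
      ≤ 2 * ∫⁻ ω, (maxS M (fun e => (ω e).2) : ℝ≥0∞) ∂μ
        + ∑ j : Fin (L + 1), (if (j : ℕ) = 0 then 0 else 2 * γ (b, j)) :=
    fun b => opt_le_per_bits M ord L hL μ hμ adv hadv b
  have h2 : (2 : ℝ≥0∞) ^ Fintype.card E * ∫⁻ ω, (opt M (fun e => (ω e).2) : ℝ≥0∞) ∂μ
      = ∑ _b : E → Bool, ∫⁻ ω, (opt M (fun e => (ω e).2) : ℝ≥0∞) ∂μ := by
    rw [Finset.sum_const, Finset.card_univ, Fintype.card_fun, Fintype.card_bool, nsmul_eq_mul]
    push_cast
    rfl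
  have h3 : ∑ _b : E → Bool, 2 * ∫⁻ ω, (maxS M (fun e => (ω e).2) : ℝ≥0∞) ∂μ
      = 2 * ((2 : ℝ≥0∞) ^ Fintype.card E * ∫⁻ ω, (maxS M (fun e => (ω e).2) : ℝ≥0∞) ∂μ) := by
    rw [Finset.sum_const, Finset.card_univ, Fintype.card_fun, Fintype.card_bool, nsmul_eq_mul]
    push_cast
    ring
  have h4 := single_part M ord hord μ hμ
  have h5 : ∀ b : E → Bool, ∫⁻ ω, (∑ e,
        if UniqueActive M ord (fun f => (ω f).1) b (fun f => (ω f).2) e
          then ((ω e).2 : ℝ≥0∞) else 0) ∂μ ≤ γ (b, 0) := by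
    intro b
    apply lintegral_mono
    intro ω
    have h := single_gain M ord L (fun e => (ω e).1) b (fun e => (ω e).2) 0 (by simp)
      (adv ω (b, 0)) (hadv ω (b, 0))
    have h' := ENNReal.coe_le_coe.mpr h
    refine le_trans (le_of_eq ?_) h'
    rw [ENNReal.ofNNReal_finsetSum]
    apply Finset.sum_congr rfl
    intro e _
    split_ifs <;> simp
  rw [h2]
  calc ∑ _b : E → Bool, ∫⁻ ω, (opt M (fun e => (ω e).2) : ℝ≥0∞) ∂μ
      ≤ ∑ b : E → Bool, (2 * ∫⁻ ω, (maxS M (fun e => (ω e).2) : ℝ≥0∞) ∂μ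
          + ∑ j : Fin (L + 1), (if (j : ℕ) = 0 then 0 else 2 * γ (b, j))) :=
        Finset.sum_le_sum (fun b _ => h1 b)
    _ = 2 * ((2 : ℝ≥0∞) ^ Fintype.card E * ∫⁻ ω, (maxS M (fun e => (ω e).2) : ℝ≥0∞) ∂μ)
          + ∑ b : E → Bool, ∑ j : Fin (L + 1), (if (j : ℕ) = 0 then 0 else 2 * γ (b, j)) := by
        rw [Finset.sum_add_distrib, h3]
    _ ≤ 2 * (4 * ∑ b : E → Bool, γ (b, 0))
          + ∑ b : E → Bool, ∑ j : Fin (L + 1), (if (j : ℕ) = 0 then 0 else 2 * γ (b, j)) := by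
        refine add_le_add ?_ le_rfl
        refine mul_le_mul_right ?_ 2
        exact h4.trans (mul_le_mul_right (Finset.sum_le_sum (fun b _ => h5 b)) 4)
    _ = ∑ b : E → Bool, (8 * γ (b, 0)
          + ∑ j : Fin (L + 1), (if (j : ℕ) = 0 then 0 else 2 * γ (b, j))) := by
        rw [Finset.sum_add_distrib, ← Finset.mul_sum, ← mul_assoc]
        norm_num
    _ ≤ ∑ b : E → Bool, 8 * ∑ j : Fin (L + 1), γ (b, j) :=
        Finset.sum_le_sum (fun b _ => fin_sum_bound L (fun j => γ (b, j)))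
    _ = 8 * ∑ r : (E → Bool) × Fin (L + 1), γ r := by
        rw [← Finset.mul_sum, Fintype.sum_prod_type]

omit [DecidableEq E] in
lemma swapInv_pi (D : E → Measure ℝ≥0) [∀ e, IsProbabilityMeasure (D e)] :
    SwapInv (Measure.pi fun e => (D e).prod (D e)) := by
  intro F inst g
  exact lintegral_swap D F g

/-- The guarantee in normalised form. -/
theorem main_ratio (M : Matroid E) (ord : E → ℕ) (hord : Function.Injective ord) (L : ℕ)
    (hL : M.eRank.toNat ≤ 2 ^ L)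
    (D : E → Measure ℝ≥0) [∀ e, IsProbabilityMeasure (D e)]
    (adv : (E → ℝ≥0 × ℝ≥0) → ((E → Bool) × Fin (L + 1)) → List E)
    (hadv : ∀ ω r, ∀ e, e ∈ adv ω r) :
    ∫⁻ ω, (opt M (fun e => (ω e).2) : ℝ≥0∞) ∂(Measure.pi fun e => (D e).prod (D e))
      ≤ 8 * (1 + (L : ℝ≥0∞)) *
        ((Fintype.card ((E → Bool) × Fin (L + 1)) : ℝ≥0∞)⁻¹ *
          ∑ r : (E → Bool) × Fin (L + 1),
            ∫⁻ ω, ((∑ e ∈ (theRule M ord L).accepted
              (fun e => (ω e).1) r (fun e => (ω e).2) (adv ω r), (ω e).2 : ℝ≥0) : ℝ≥0∞)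
              ∂(Measure.pi fun e => (D e).prod (D e))) := by
  classical
  have key := main_bound M ord hord L hL (Measure.pi fun e => (D e).prod (D e))
    (swapInv_pi D) adv hadv
  set X := ∫⁻ ω, (opt M (fun e => (ω e).2) : ℝ≥0∞) ∂(Measure.pi fun e => (D e).prod (D e))
    with hX
  set S := ∑ r : (E → Bool) × Fin (L + 1),
    ∫⁻ ω, ((∑ e ∈ (theRule M ord L).accepted (fun e => (ω e).1) r (fun e => (ω e).2)
      (adv ω r), (ω e).2 : ℝ≥0) : ℝ≥0∞) ∂(Measure.pi fun e => (D e).prod (D e)) with hS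
  set c : ℝ≥0∞ := (2 : ℝ≥0∞) ^ Fintype.card E with hc
  have hc0 : c ≠ 0 := by
    rw [hc]
    exact pow_ne_zero _ (by norm_num)
  have hcT : c ≠ ∞ := by
    rw [hc]
    exact ENNReal.pow_ne_top (by norm_num)
  have hl0 : (1 + (L : ℝ≥0∞)) ≠ 0 := by
    simp
  have hlT : (1 + (L : ℝ≥0∞)) ≠ ∞ := by
    simp
  have hcard : (Fintype.card ((E → Bool) × Fin (L + 1)) : ℝ≥0∞) = c * (1 + (L : ℝ≥0∞)) := by
    rw [Fintype.card_prod, Fintype.card_fun, Fintype.card_bool, Fintype.card_fin, hc]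
    push_cast
    ring
  rw [hcard, ENNReal.mul_inv (Or.inl hc0) (Or.inl hcT)]
  have h1 : 8 * (1 + (L : ℝ≥0∞)) * (c⁻¹ * (1 + (L : ℝ≥0∞))⁻¹ * S)
      = c⁻¹ * (8 * S) * ((1 + (L : ℝ≥0∞)) * (1 + (L : ℝ≥0∞))⁻¹) := by ring
  rw [h1, ENNReal.mul_inv_cancel hl0 hlT, mul_one]
  calc X = c⁻¹ * (c * X) := by
        rw [← mul_assoc, ENNReal.inv_mul_cancel hc0 hcT, one_mul]
    _ ≤ c⁻¹ * (8 * S) := mul_le_mul_right key _

end Vale.Agent.Lib.P331
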