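import Mathlib
import Vale.Agent.Lib.P331.Defs
import Vale.Agent.Lib.P331.Run
import Vale.Agent.Lib.P331.Pointwise
import Vale.Agent.Lib.P331.Swap
import Vale.Agent.Lib.P331.Integral
import Vale.Agent.Lib.P331.Single
import Vale.Agent.Lib.P331.Main
import Vale.Agent.Lib.P331.LLDefs
import Vale.Agent.Lib.P331.LLCore
import Vale.Agent.Lib.P331.LLRule
import Vale.Agent.Lib.P331.LLMeasA
import Vale.Agent.Lib.P331.LLMeasB
import Vale.Agent.Lib.P331.LLMeasC

/-!
Assembly for the window rule: it is `1 / (16 (2 + Jn))`-competitive against every arrival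
order chosen with full knowledge of the outcome, where `2 ^ L` is at least the rank and
`2 ^ Jn` is at least `L`.
-/

namespace Vale.Agent.Lib.P331

open MeasureTheory
open scoped NNReal ENNReal

variable {E : Type*} [Fintype E] [DecidableEq E]

/-- The outcome with item weights `W` in the configuration `b`. -/
def ωof (W : E × Bool → ℝ≥0) (b : E → Bool) : E → ℝ≥0 × ℝ≥0 := fun e => (sOf W b e, vOf W b e)

/-- Pointwise exclusive or of two configurations. -/
def xorB (b t : E → Bool) : E → Bool := fun e => xor (b e) (t e)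

omit [Fintype E] [DecidableEq E] in
lemma xorB_invol (b : E → Bool) : Function.Involutive (xorB b) := by
  intro t
  funext e
  unfold xorB
  cases b e <;> cases t e <;> rfl

omit [Fintype E] [DecidableEq E] in
lemma xorB_eq_flipOn (b t : E → Bool) : xorB b t = flipOn (fun e => t e = true) b := by
  funext e
  show xor (b e) (t e) = if t e = true then !b e else b e
  cases b e <;> cases t e <;> simp

omit [Fintype E] [DecidableEq E] in
lemma ωof_Wof (ω : E → ℝ≥0 × ℝ≥0) (b t : E → Bool) :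
    ωof (Wof (fun e => (ω e).1) (fun e => (ω e).2) b) (xorB b t)
      = swapFun (fun e => t e = true) ω := by
  funext e
  have hsw : swapFun (fun e => t e = true) ω e = if t e = true then (ω e).swap else ω e := rfl
  rw [hsw]
  apply Prod.ext
  · show (if (!(xor (b e) (t e))) = b e then (ω e).2 else (ω e).1) = _
    cases b e <;> cases t e <;> simp
  · show (if (xor (b e) (t e)) = b e then (ω e).2 else (ω e).1) = _
    cases b e <;> cases t e <;> simp

/-- Summing over all configurations of the item weights of `(ω, b)` is summing over all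
exchange patterns. -/
lemma sum_config {α : Type*} [AddCommMonoid α] (g : (E → ℝ≥0 × ℝ≥0) → (E → Bool) → α)
    (ω : E → ℝ≥0 × ℝ≥0) (b : E → Bool) :
    ∑ b' : E → Bool, g (ωof (Wof (fun e => (ω e).1) (fun e => (ω e).2) b) b') b'
      = ∑ t : E → Bool, g (swapFun (fun e => t e = true) ω) (flipOn (fun e => t e = true) b) := by
  rw [← Equiv.sum_comp (xorB_invol b).toPerm]
  apply Finset.sum_congr rfl
  intro t _
  show g (ωof _ (xorB b t)) (xorB b t) = _
  rw [ωof_Wof, xorB_eq_flipOn]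

omit [Fintype E] [DecidableEq E] in
lemma Wof_le_max (s v : E → ℝ≥0) (b : E → Bool) (i : E × Bool) :
    Wof s v b i ≤ max (s i.1) (v i.1) := by
  unfold Wof
  split_ifs
  · exact le_max_right _ _
  · exact le_max_left _ _

omit [DecidableEq E] in
lemma wstar_Wof_le (M : Matroid E) (s v : E → ℝ≥0) (b : E → Bool) :
    wstar M (Wof s v b) ≤ maxS M s + maxS M v := by
  classical
  unfold wstar maxS
  apply Finset.sup_le
  intro e he
  have h1 : s e ≤ (Finset.univ.filter (fun f : E => M.Indep {f})).sup s :=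
    Finset.le_sup (f := s) he
  have h2 : v e ≤ (Finset.univ.filter (fun f : E => M.Indep {f})).sup v :=
    Finset.le_sup (f := v) he
  have h3 : max (s e) (v e) ≤ (Finset.univ.filter (fun f : E => M.Indep {f})).sup s
      + (Finset.univ.filter (fun f : E => M.Indep {f})).sup v :=
    max_le (h1.trans le_self_add) (h2.trans le_add_self)
  exact (max_le (Wof_le_max s v b (e, true)) (Wof_le_max s v b (e, false))).trans h3

/-- The core inequality at the item weights of `(ω, b)`, as a sum over exchange patterns. -/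
lemma core_pw (M : Matroid E) (ord : E → ℕ) (L Jn : ℕ) (hL : M.eRank.toNat ≤ 2 ^ L)
    (hJ : L ≤ 2 ^ Jn) (ω : E → ℝ≥0 × ℝ≥0) (b : E → Bool) :
    (3 * 2 ^ Jn : ℝ≥0) * ∑ t : E → Bool,
        opt M (fun e => (swapFun (fun e => t e = true) ω e).2)
      ≤ 2 ^ (Fintype.card E + 1) * (3 * 2 ^ Jn)
          * (maxS M (fun e => (ω e).1) + maxS M (fun e => (ω e).2))
        + 12 * ∑ j ∈ Finset.range Jn, ∑ o ∈ Finset.range (3 * 2 ^ Jn), ∑ t : E → Bool,
            QS M L (2 ^ j) (3 * 2 ^ j) o (fun e => (swapFun (fun e => t e = true) ω e).1)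
              (fun e => (swapFun (fun e => t e = true) ω e).2)
        + 4 * (3 * 2 ^ Jn) * ∑ t : E → Bool,
            QD M ord L (fun e => (swapFun (fun e => t e = true) ω e).1)
              (fun e => (swapFun (fun e => t e = true) ω e).2)
              (flipOn (fun e => t e = true) b) := by
  have h := core M ord L Jn hL hJ (Wof (fun e => (ω e).1) (fun e => (ω e).2) b)
  have e1 := sum_config (fun ω' _ => opt M (fun e => (ω' e).2)) ω b
  have e2 : ∀ j o, _ = _ := fun j o => sum_config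
    (fun ω' _ => QS M L (2 ^ j) (3 * 2 ^ j) o (fun e => (ω' e).1) (fun e => (ω' e).2)) ω b
  have e3 := sum_config
    (fun ω' b' => QD M ord L (fun e => (ω' e).1) (fun e => (ω' e).2) b') ω b
  have e1' : ∑ b' : E → Bool, opt M (vOf (Wof (fun e => (ω e).1) (fun e => (ω e).2) b) b')
      = ∑ t : E → Bool, opt M (fun e => (swapFun (fun e => t e = true) ω e).2) := e1
  have e2' : ∀ j o, ∑ b' : E → Bool, QS M L (2 ^ j) (3 * 2 ^ j) o
        (sOf (Wof (fun e => (ω e).1) (fun e => (ω e).2) b) b')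
        (vOf (Wof (fun e => (ω e).1) (fun e => (ω e).2) b) b')
      = ∑ t : E → Bool, QS M L (2 ^ j) (3 * 2 ^ j) o
          (fun e => (swapFun (fun e => t e = true) ω e).1)
          (fun e => (swapFun (fun e => t e = true) ω e).2) := fun j o => e2 j o
  have e3' : ∑ b' : E → Bool, QD M ord L
        (sOf (Wof (fun e => (ω e).1) (fun e => (ω e).2) b) b')
        (vOf (Wof (fun e => (ω e).1) (fun e => (ω e).2) b) b') b'
      = ∑ t : E → Bool, QD M ord L (fun e => (swapFun (fun e => t e = true) ω e).1)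
          (fun e => (swapFun (fun e => t e = true) ω e).2)
          (flipOn (fun e => t e = true) b) := e3
  rw [e1', e3'] at h
  simp_rw [e2'] at h
  refine h.trans ?_
  refine add_le_add (add_le_add ?_ le_rfl) le_rfl
  exact mul_le_mul_right (wstar_Wof_le M _ _ b) _

lemma sum_const_bool_fun (x : ℝ≥0∞) :
    ∑ _t : E → Bool, x = (2 : ℝ≥0∞) ^ Fintype.card E * x := by
  classical
  rw [Finset.sum_const, Finset.card_univ, Fintype.card_fun, Fintype.card_bool, nsmul_eq_mul]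
  push_cast
  rfl

/-- The core inequality, integrated against a measure invariant under exchanges. -/
lemma core_integrated (M : Matroid E) (ord : E → ℕ) (L Jn : ℕ) (hL : M.eRank.toNat ≤ 2 ^ L)
    (hJ : L ≤ 2 ^ Jn) (μ : Measure (E → ℝ≥0 × ℝ≥0)) (hμ : SwapInv μ) :
    (3 * 2 ^ Jn : ℝ≥0∞) * ((2 : ℝ≥0∞) ^ Fintype.card E
        * ∫⁻ ω, (opt M (fun e => (ω e).2) : ℝ≥0∞) ∂μ)
      ≤ 4 * (3 * 2 ^ Jn) * ((2 : ℝ≥0∞) ^ Fintype.card E
          * ∫⁻ ω, (maxS M (fun e => (ω e).2) : ℝ≥0∞) ∂μ)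
        + 12 * ∑ j ∈ Finset.range Jn, ∑ o ∈ Finset.range (3 * 2 ^ Jn),
            ((2 : ℝ≥0∞) ^ Fintype.card E * ∫⁻ ω, (QS M L (2 ^ j) (3 * 2 ^ j) o
              (fun e => (ω e).1) (fun e => (ω e).2) : ℝ≥0∞) ∂μ)
        + 4 * (3 * 2 ^ Jn) * ∑ b : E → Bool,
            ∫⁻ ω, (QD M ord L (fun e => (ω e).1) (fun e => (ω e).2) b : ℝ≥0∞) ∂μ := by
  classical
  set c2 : ℝ≥0∞ := (2 : ℝ≥0∞) ^ Fintype.card E with hc2
  set N : ℝ≥0∞ := (3 * 2 ^ Jn : ℝ≥0∞) with hN
  set X := ∫⁻ ω, (opt M (fun e => (ω e).2) : ℝ≥0∞) ∂μ with hXdef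
  set Mx := ∫⁻ ω, (maxS M (fun e => (ω e).2) : ℝ≥0∞) ∂μ with hMx
  set qs : ℕ → ℕ → ℝ≥0∞ := fun j o => ∫⁻ ω, (QS M L (2 ^ j) (3 * 2 ^ j) o
    (fun e => (ω e).1) (fun e => (ω e).2) : ℝ≥0∞) ∂μ with hqs
  set qd : (E → Bool) → ℝ≥0∞ := fun b =>
    ∫⁻ ω, (QD M ord L (fun e => (ω e).1) (fun e => (ω e).2) b : ℝ≥0∞) ∂μ with hqd
  have hc0 : c2 ≠ 0 := pow_ne_zero _ (by norm_num)
  have hcT : c2 ≠ ∞ := ENNReal.pow_ne_top (by norm_num)
  have hNT : N ≠ ∞ := by
    rw [hN]
    exact ENNReal.mul_ne_top (by norm_num) (ENNReal.pow_ne_top (by norm_num))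
  -- invariance under exchanges
  have hX : ∀ t : E → Bool,
      ∫⁻ ω, (opt M (fun e => (swapFun (fun e => t e = true) ω e).2) : ℝ≥0∞) ∂μ = X :=
    fun t => hμ (fun e => t e = true) inferInstance
      (fun ω => (opt M (fun e => (ω e).2) : ℝ≥0∞))
  have hQS : ∀ (j o : ℕ) (t : E → Bool),
      ∫⁻ ω, (QS M L (2 ^ j) (3 * 2 ^ j) o (fun e => (swapFun (fun e => t e = true) ω e).1)
        (fun e => (swapFun (fun e => t e = true) ω e).2) : ℝ≥0∞) ∂μ = qs j o :=
    fun j o t => hμ (fun e => t e = true) inferInstance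
      (fun ω => (QS M L (2 ^ j) (3 * 2 ^ j) o (fun e => (ω e).1) (fun e => (ω e).2) : ℝ≥0∞))
  have hMs : ∫⁻ ω, (maxS M (fun e => (ω e).1) : ℝ≥0∞) ∂μ = Mx := lintegral_maxS_smp M μ hμ
  -- measurability
  have mO : ∀ t : E → Bool, Measurable (fun ω : E → ℝ≥0 × ℝ≥0 =>
      (opt M (fun e => (swapFun (fun e => t e = true) ω e).2) : ℝ≥0∞)) :=
    fun t => (measurable_opt_val M).comp (measurable_swapFun _)
  have mQS : ∀ (j o : ℕ) (t : E → Bool), Measurable (fun ω : E → ℝ≥0 × ℝ≥0 =>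
      (QS M L (2 ^ j) (3 * 2 ^ j) o (fun e => (swapFun (fun e => t e = true) ω e).1)
        (fun e => (swapFun (fun e => t e = true) ω e).2) : ℝ≥0∞)) :=
    fun j o t => (measurable_QS M L _ _ o).comp (measurable_swapFun _)
  have mQD : ∀ (b t : E → Bool), Measurable (fun ω : E → ℝ≥0 × ℝ≥0 =>
      (QD M ord L (fun e => (swapFun (fun e => t e = true) ω e).1)
        (fun e => (swapFun (fun e => t e = true) ω e).2)
        (flipOn (fun e => t e = true) b) : ℝ≥0∞)) :=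
    fun b t => (measurable_QD M ord L _).comp (measurable_swapFun _)
  have mMs : Measurable (fun ω : E → ℝ≥0 × ℝ≥0 => (maxS M (fun e => (ω e).1) : ℝ≥0∞)) :=
    measurable_coe_nnreal_ennreal.comp (measurable_maxS_smp M)
  have mMv : Measurable (fun ω : E → ℝ≥0 × ℝ≥0 => (maxS M (fun e => (ω e).2) : ℝ≥0∞)) :=
    measurable_coe_nnreal_ennreal.comp (measurable_maxS_val M)
  -- one configuration of the seed bits
  have hb : ∀ b : E → Bool, N * (c2 * X)
      ≤ 2 ^ (Fintype.card E + 1) * N * (Mx + Mx)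
        + 12 * ∑ j ∈ Finset.range Jn, ∑ o ∈ Finset.range (3 * 2 ^ Jn), c2 * qs j o
        + 4 * N * ∑ t : E → Bool,
            ∫⁻ ω, (QD M ord L (fun e => (swapFun (fun e => t e = true) ω e).1)
              (fun e => (swapFun (fun e => t e = true) ω e).2)
              (flipOn (fun e => t e = true) b) : ℝ≥0∞) ∂μ := by
    intro b
    have pw : ∀ ω : E → ℝ≥0 × ℝ≥0,
        N * ∑ t : E → Bool, (opt M (fun e => (swapFun (fun e => t e = true) ω e).2) : ℝ≥0∞)
          ≤ (2 ^ (Fintype.card E + 1) * N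
              * ((maxS M (fun e => (ω e).1) : ℝ≥0∞) + (maxS M (fun e => (ω e).2) : ℝ≥0∞))
            + 12 * ∑ j ∈ Finset.range Jn, ∑ o ∈ Finset.range (3 * 2 ^ Jn), ∑ t : E → Bool,
                (QS M L (2 ^ j) (3 * 2 ^ j) o (fun e => (swapFun (fun e => t e = true) ω e).1)
                  (fun e => (swapFun (fun e => t e = true) ω e).2) : ℝ≥0∞))
            + 4 * N * ∑ t : E → Bool,
                (QD M ord L (fun e => (swapFun (fun e => t e = true) ω e).1)
                  (fun e => (swapFun (fun e => t e = true) ω e).2)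
                  (flipOn (fun e => t e = true) b) : ℝ≥0∞) := by
      intro ω
      have h := core_pw M ord L Jn hL hJ ω b
      have h' := ENNReal.coe_le_coe.mpr h
      push_cast at h'
      exact h'
    have mA : Measurable (fun ω : E → ℝ≥0 × ℝ≥0 => 2 ^ (Fintype.card E + 1) * N
        * ((maxS M (fun e => (ω e).1) : ℝ≥0∞) + (maxS M (fun e => (ω e).2) : ℝ≥0∞))) :=
      (mMs.add mMv).const_mul _
    have mB : Measurable (fun ω : E → ℝ≥0 × ℝ≥0 =>
        12 * ∑ j ∈ Finset.range Jn, ∑ o ∈ Finset.range (3 * 2 ^ Jn), ∑ t : E → Bool,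
          (QS M L (2 ^ j) (3 * 2 ^ j) o (fun e => (swapFun (fun e => t e = true) ω e).1)
            (fun e => (swapFun (fun e => t e = true) ω e).2) : ℝ≥0∞)) :=
      (Finset.measurable_fun_sum _ (fun j _ => Finset.measurable_fun_sum _
        (fun o _ => Finset.measurable_fun_sum _ (fun t _ => mQS j o t)))).const_mul _
    calc N * (c2 * X)
        = N * ∑ t : E → Bool,
            ∫⁻ ω, (opt M (fun e => (swapFun (fun e => t e = true) ω e).2) : ℝ≥0∞) ∂μ := by
          rw [Finset.sum_congr rfl (fun t _ => hX t), sum_const_bool_fun]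
      _ = ∫⁻ ω, N * ∑ t : E → Bool,
            (opt M (fun e => (swapFun (fun e => t e = true) ω e).2) : ℝ≥0∞) ∂μ := by
          rw [lintegral_const_mul' _ _ hNT, lintegral_finsetSum _ (fun t _ => mO t)]
      _ ≤ ∫⁻ ω, ((2 ^ (Fintype.card E + 1) * N
              * ((maxS M (fun e => (ω e).1) : ℝ≥0∞) + (maxS M (fun e => (ω e).2) : ℝ≥0∞))
            + 12 * ∑ j ∈ Finset.range Jn, ∑ o ∈ Finset.range (3 * 2 ^ Jn), ∑ t : E → Bool,
                (QS M L (2 ^ j) (3 * 2 ^ j) o (fun e => (swapFun (fun e => t e = true) ω e).1)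
                  (fun e => (swapFun (fun e => t e = true) ω e).2) : ℝ≥0∞))
            + 4 * N * ∑ t : E → Bool,
                (QD M ord L (fun e => (swapFun (fun e => t e = true) ω e).1)
                  (fun e => (swapFun (fun e => t e = true) ω e).2)
                  (flipOn (fun e => t e = true) b) : ℝ≥0∞)) ∂μ := lintegral_mono pw
      _ = _ := by
          have mAB : Measurable (fun ω : E → ℝ≥0 × ℝ≥0 => 2 ^ (Fintype.card E + 1) * N
                * ((maxS M (fun e => (ω e).1) : ℝ≥0∞) + (maxS M (fun e => (ω e).2) : ℝ≥0∞))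
              + 12 * ∑ j ∈ Finset.range Jn, ∑ o ∈ Finset.range (3 * 2 ^ Jn), ∑ t : E → Bool,
                (QS M L (2 ^ j) (3 * 2 ^ j) o (fun e => (swapFun (fun e => t e = true) ω e).1)
                  (fun e => (swapFun (fun e => t e = true) ω e).2) : ℝ≥0∞)) := mA.add mB
          rw [lintegral_add_left mAB, lintegral_add_left mA]
          have hT1 : (2 : ℝ≥0∞) ^ (Fintype.card E + 1) * N ≠ ∞ :=
            ENNReal.mul_ne_top (ENNReal.pow_ne_top (by norm_num)) hNT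
          have hT2 : (4 : ℝ≥0∞) * N ≠ ∞ := ENNReal.mul_ne_top (by norm_num) hNT
          rw [lintegral_const_mul' _ _ hT1, lintegral_add_left mMs, hMs,
            lintegral_const_mul' _ _ (by norm_num : (12 : ℝ≥0∞) ≠ ∞),
            lintegral_const_mul' _ _ hT2,
            lintegral_finsetSum _ (fun t _ => mQD b t)]
          congr 2
          rw [lintegral_finsetSum _ (fun j _ => Finset.measurable_fun_sum _
            (fun o _ => Finset.measurable_fun_sum _ (fun t _ => mQS j o t)))]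
          congr 1
          apply Finset.sum_congr rfl
          intro j _
          rw [lintegral_finsetSum _ (fun o _ => Finset.measurable_fun_sum _
            (fun t _ => mQS j o t))]
          apply Finset.sum_congr rfl
          intro o _
          rw [lintegral_finsetSum _ (fun t _ => mQS j o t),
            Finset.sum_congr rfl (fun t _ => hQS j o t), sum_const_bool_fun]
  -- sum over the seed bits
  have hswap : ∑ b : E → Bool, ∑ t : E → Bool,
      ∫⁻ ω, (QD M ord L (fun e => (swapFun (fun e => t e = true) ω e).1)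
        (fun e => (swapFun (fun e => t e = true) ω e).2)
        (flipOn (fun e => t e = true) b) : ℝ≥0∞) ∂μ = c2 * ∑ b : E → Bool, qd b := by
    rw [Finset.sum_comm]
    have : ∀ t : E → Bool, ∑ b : E → Bool,
        ∫⁻ ω, (QD M ord L (fun e => (swapFun (fun e => t e = true) ω e).1)
          (fun e => (swapFun (fun e => t e = true) ω e).2)
          (flipOn (fun e => t e = true) b) : ℝ≥0∞) ∂μ = ∑ b : E → Bool, qd b :=
      fun t => sum_lintegral_swapInv μ hμ (fun e => t e = true)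
        (fun ω b => (QD M ord L (fun e => (ω e).1) (fun e => (ω e).2) b : ℝ≥0∞))
    rw [Finset.sum_congr rfl (fun t _ => this t), sum_const_bool_fun]
  have hsum : c2 * (N * (c2 * X))
      ≤ c2 * (4 * N * (c2 * Mx)
        + 12 * ∑ j ∈ Finset.range Jn, ∑ o ∈ Finset.range (3 * 2 ^ Jn), c2 * qs j o
        + 4 * N * ∑ b : E → Bool, qd b) := by
    calc c2 * (N * (c2 * X)) = ∑ _b : E → Bool, N * (c2 * X) := (sum_const_bool_fun _).symm
      _ ≤ ∑ b : E → Bool, (2 ^ (Fintype.card E + 1) * N * (Mx + Mx)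
          + 12 * ∑ j ∈ Finset.range Jn, ∑ o ∈ Finset.range (3 * 2 ^ Jn), c2 * qs j o
          + 4 * N * ∑ t : E → Bool,
              ∫⁻ ω, (QD M ord L (fun e => (swapFun (fun e => t e = true) ω e).1)
                (fun e => (swapFun (fun e => t e = true) ω e).2)
                (flipOn (fun e => t e = true) b) : ℝ≥0∞) ∂μ) :=
          Finset.sum_le_sum (fun b _ => hb b)
      _ = c2 * (2 ^ (Fintype.card E + 1) * N * (Mx + Mx))
          + c2 * (12 * ∑ j ∈ Finset.range Jn, ∑ o ∈ Finset.range (3 * 2 ^ Jn), c2 * qs j o)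
          + 4 * N * (c2 * ∑ b : E → Bool, qd b) := by
          rw [Finset.sum_add_distrib, Finset.sum_add_distrib, sum_const_bool_fun,
            sum_const_bool_fun, ← Finset.mul_sum, hswap]
      _ = _ := by
          rw [pow_succ, ← hc2]
          ring
  exact (ENNReal.mul_le_mul_iff_right hc0 hcT).mp hsum

/-- Main inequality for the window rule, before normalising by the number of seeds. -/
theorem ll_main_bound (M : Matroid E) (ord : E → ℕ) (hord : Function.Injective ord) (L Jn : ℕ)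
    (hL : M.eRank.toNat ≤ 2 ^ L) (hJ : L ≤ 2 ^ Jn)
    (μ : Measure (E → ℝ≥0 × ℝ≥0)) (hμ : SwapInv μ)
    (adv : (E → ℝ≥0 × ℝ≥0) → ((E → Bool) × Fin (Jn + 2) × Fin (3 * 2 ^ Jn)) → List E)
    (hadv : ∀ ω r, ∀ e, e ∈ adv ω r) :
    (3 * 2 ^ Jn : ℝ≥0∞) * ((2 : ℝ≥0∞) ^ Fintype.card E
        * ∫⁻ ω, (opt M (fun e => (ω e).2) : ℝ≥0∞) ∂μ)
      ≤ 16 * ∑ r : (E → Bool) × Fin (Jn + 2) × Fin (3 * 2 ^ Jn),
          ∫⁻ ω, ((∑ e ∈ (llRule M ord L Jn).accepted (fun e => (ω e).1) r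
            (fun e => (ω e).2) (adv ω r), (ω e).2 : ℝ≥0) : ℝ≥0∞) ∂μ := by
  classical
  set γ : (E → Bool) × Fin (Jn + 2) × Fin (3 * 2 ^ Jn) → ℝ≥0∞ := fun r =>
    ∫⁻ ω, ((∑ e ∈ (llRule M ord L Jn).accepted (fun e => (ω e).1) r
      (fun e => (ω e).2) (adv ω r), (ω e).2 : ℝ≥0) : ℝ≥0∞) ∂μ with hγ
  set c2 : ℝ≥0∞ := (2 : ℝ≥0∞) ^ Fintype.card E with hc2
  set Mx := ∫⁻ ω, (maxS M (fun e => (ω e).2) : ℝ≥0∞) ∂μ with hMx
  have key := core_integrated M ord L Jn hL hJ μ hμ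
  -- mode 0
  have h0 : ∀ o : Fin (3 * 2 ^ Jn), c2 * Mx ≤ 4 * ∑ b : E → Bool, γ (b, 0, o) := by
    intro o
    refine (single_part M ord hord μ hμ).trans (mul_le_mul_right ?_ 4)
    apply Finset.sum_le_sum
    intro b _
    apply lintegral_mono
    intro ω
    have h := ll_single_gain M ord L Jn (fun e => (ω e).1) b 0 o (by simp) (fun e => (ω e).2)
      (adv ω (b, 0, o)) (hadv ω (b, 0, o))
    have h' := ENNReal.coe_le_coe.mpr h
    refine le_trans (le_of_eq ?_) h'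
    rw [ENNReal.ofNNReal_finsetSum]
    apply Finset.sum_congr rfl
    intro e _
    split_ifs <;> simp
  -- mode 1
  have h1 : ∀ (o : Fin (3 * 2 ^ Jn)) (b : E → Bool),
      ∫⁻ ω, (QD M ord L (fun e => (ω e).1) (fun e => (ω e).2) b : ℝ≥0∞) ∂μ
        ≤ 2 * γ (b, 1, o) := by
    intro o b
    rw [hγ]
    simp only
    rw [← lintegral_const_mul' _ _ (by norm_num : (2 : ℝ≥0∞) ≠ ∞)]
    apply lintegral_mono
    intro ω
    have h := ll_unit_gain M ord hord L Jn (fun e => (ω e).1) b 1 o (by simp)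
      (fun e => (ω e).2) (adv ω (b, 1, o)) (hadv ω (b, 1, o))
    have h' := ENNReal.coe_le_coe.mpr h
    rw [ENNReal.coe_mul] at h'
    exact h'
  -- modes j + 2
  have h2 : ∀ (j : Fin Jn) (o : Fin (3 * 2 ^ Jn)) (b : E → Bool),
      ∫⁻ ω, (QS M L (2 ^ (j : ℕ)) (3 * 2 ^ (j : ℕ)) o
          (fun e => (ω e).1) (fun e => (ω e).2) : ℝ≥0∞) ∂μ
        ≤ γ (b, j.succ.succ, o) := by
    intro j o b
    apply lintegral_mono
    intro ω
    have h := ll_scale_gain M ord L Jn (fun e => (ω e).1) b j.succ.succ o (by simp) (by simp)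
      (fun e => (ω e).2) (adv ω (b, j.succ.succ, o)) (hadv ω (b, j.succ.succ, o))
    have hj : ((j.succ.succ : Fin (Jn + 2)) : ℕ) - 2 = (j : ℕ) := by simp
    rw [hj] at h
    exact ENNReal.coe_le_coe.mpr h
  have hN : (3 * 2 ^ Jn : ℝ≥0∞) = ((Fintype.card (Fin (3 * 2 ^ Jn)) : ℕ) : ℝ≥0∞) := by
    rw [Fintype.card_fin]
    push_cast
    rfl
  have hNsum : ∀ x : ℝ≥0∞, (3 * 2 ^ Jn : ℝ≥0∞) * x = ∑ _o : Fin (3 * 2 ^ Jn), x := by
    intro x
    rw [Finset.sum_const, Finset.card_univ, nsmul_eq_mul, hN]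
  set G0 := ∑ o : Fin (3 * 2 ^ Jn), ∑ b : E → Bool, γ (b, 0, o) with hG0
  set G1 := ∑ o : Fin (3 * 2 ^ Jn), ∑ b : E → Bool, γ (b, 1, o) with hG1
  set G2 := ∑ j : Fin Jn, ∑ o : Fin (3 * 2 ^ Jn), ∑ b : E → Bool, γ (b, j.succ.succ, o)
    with hG2
  have hA : 4 * (3 * 2 ^ Jn) * (c2 * Mx) ≤ 16 * G0 := by
    calc 4 * (3 * 2 ^ Jn) * (c2 * Mx) = 4 * ((3 * 2 ^ Jn) * (c2 * Mx)) := by ring
      _ = 4 * ∑ _o : Fin (3 * 2 ^ Jn), c2 * Mx := by rw [hNsum]
      _ ≤ 4 * ∑ o : Fin (3 * 2 ^ Jn), 4 * ∑ b : E → Bool, γ (b, 0, o) :=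
          mul_le_mul_right (Finset.sum_le_sum (fun o _ => h0 o)) 4
      _ = 16 * G0 := by
          rw [hG0, ← Finset.mul_sum, ← mul_assoc]
          norm_num
  have hB : ∑ j ∈ Finset.range Jn, ∑ o ∈ Finset.range (3 * 2 ^ Jn),
      (c2 * ∫⁻ ω, (QS M L (2 ^ j) (3 * 2 ^ j) o
        (fun e => (ω e).1) (fun e => (ω e).2) : ℝ≥0∞) ∂μ) ≤ G2 := by
    rw [Finset.sum_range (fun j => ∑ o ∈ Finset.range (3 * 2 ^ Jn),
      (c2 * ∫⁻ ω, (QS M L (2 ^ j) (3 * 2 ^ j) o
        (fun e => (ω e).1) (fun e => (ω e).2) : ℝ≥0∞) ∂μ))]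
    apply Finset.sum_le_sum
    intro j _
    rw [Finset.sum_range (fun o => (c2 * ∫⁻ ω, (QS M L (2 ^ (j : ℕ)) (3 * 2 ^ (j : ℕ)) o
        (fun e => (ω e).1) (fun e => (ω e).2) : ℝ≥0∞) ∂μ))]
    apply Finset.sum_le_sum
    intro o _
    rw [← sum_const_bool_fun]
    exact Finset.sum_le_sum (fun b _ => h2 j o b)
  have hC : 4 * (3 * 2 ^ Jn) * ∑ b : E → Bool,
      ∫⁻ ω, (QD M ord L (fun e => (ω e).1) (fun e => (ω e).2) b : ℝ≥0∞) ∂μ ≤ 8 * G1 := by
    calc 4 * (3 * 2 ^ Jn) * ∑ b : E → Bool,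
          ∫⁻ ω, (QD M ord L (fun e => (ω e).1) (fun e => (ω e).2) b : ℝ≥0∞) ∂μ
        = 4 * ((3 * 2 ^ Jn) * ∑ b : E → Bool,
          ∫⁻ ω, (QD M ord L (fun e => (ω e).1) (fun e => (ω e).2) b : ℝ≥0∞) ∂μ) := by ring
      _ = 4 * ∑ _o : Fin (3 * 2 ^ Jn), ∑ b : E → Bool,
          ∫⁻ ω, (QD M ord L (fun e => (ω e).1) (fun e => (ω e).2) b : ℝ≥0∞) ∂μ := by
          rw [hNsum]
      _ ≤ 4 * ∑ o : Fin (3 * 2 ^ Jn), ∑ b : E → Bool, 2 * γ (b, 1, o) :=
          mul_le_mul_right (Finset.sum_le_sum (fun o _ =>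
            Finset.sum_le_sum (fun b _ => h1 o b))) 4
      _ = 8 * G1 := by
          rw [hG1]
          simp_rw [← Finset.mul_sum]
          rw [← mul_assoc]
          norm_num
  have hR : ∑ r : (E → Bool) × Fin (Jn + 2) × Fin (3 * 2 ^ Jn), γ r = G0 + (G1 + G2) := by
    rw [Fintype.sum_prod_type]
    have hsplit : ∀ b : E → Bool, ∑ y : Fin (Jn + 2) × Fin (3 * 2 ^ Jn), γ (b, y)
        = ∑ o : Fin (3 * 2 ^ Jn), γ (b, 0, o) + (∑ o : Fin (3 * 2 ^ Jn), γ (b, 1, o)
          + ∑ j : Fin Jn, ∑ o : Fin (3 * 2 ^ Jn), γ (b, j.succ.succ, o)) := by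
      intro b
      rw [Fintype.sum_prod_type, Fin.sum_univ_succ, Fin.sum_univ_succ]
      rfl
    rw [Finset.sum_congr rfl (fun b _ => hsplit b), Finset.sum_add_distrib,
      Finset.sum_add_distrib, hG0, hG1, hG2]
    congr 1
    · exact Finset.sum_comm
    · congr 1
      · exact Finset.sum_comm
      · rw [Finset.sum_comm]
        apply Finset.sum_congr rfl
        intro j _
        exact Finset.sum_comm
  rw [hR]
  calc (3 * 2 ^ Jn : ℝ≥0∞) * (c2 * ∫⁻ ω, (opt M (fun e => (ω e).2) : ℝ≥0∞) ∂μ)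
      ≤ 4 * (3 * 2 ^ Jn) * (c2 * Mx)
        + 12 * ∑ j ∈ Finset.range Jn, ∑ o ∈ Finset.range (3 * 2 ^ Jn),
            (c2 * ∫⁻ ω, (QS M L (2 ^ j) (3 * 2 ^ j) o
              (fun e => (ω e).1) (fun e => (ω e).2) : ℝ≥0∞) ∂μ)
        + 4 * (3 * 2 ^ Jn) * ∑ b : E → Bool,
            ∫⁻ ω, (QD M ord L (fun e => (ω e).1) (fun e => (ω e).2) b : ℝ≥0∞) ∂μ := key
    _ ≤ 16 * G0 + 12 * G2 + 8 * G1 :=
        add_le_add (add_le_add hA (mul_le_mul_right hB 12)) hC
    _ ≤ 16 * (G0 + (G1 + G2)) := by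
        have e1 : (16 : ℝ≥0∞) * (G0 + (G1 + G2)) = 16 * G0 + 16 * G2 + 16 * G1 := by ring
        rw [e1]
        exact add_le_add (add_le_add le_rfl (mul_le_mul_left (by norm_num) _))
          (mul_le_mul_left (by norm_num) _)

/-- The guarantee of the window rule in normalised form. -/
theorem ll_main_ratio (M : Matroid E) (ord : E → ℕ) (hord : Function.Injective ord) (L Jn : ℕ)
    (hL : M.eRank.toNat ≤ 2 ^ L) (hJ : L ≤ 2 ^ Jn)
    (D : E → Measure ℝ≥0) [∀ e, IsProbabilityMeasure (D e)]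
    (adv : (E → ℝ≥0 × ℝ≥0) → ((E → Bool) × Fin (Jn + 2) × Fin (3 * 2 ^ Jn)) → List E)
    (hadv : ∀ ω r, ∀ e, e ∈ adv ω r) :
    ∫⁻ ω, (opt M (fun e => (ω e).2) : ℝ≥0∞) ∂(Measure.pi fun e => (D e).prod (D e))
      ≤ 16 * (2 + (Jn : ℝ≥0∞)) *
        ((Fintype.card ((E → Bool) × Fin (Jn + 2) × Fin (3 * 2 ^ Jn)) : ℝ≥0∞)⁻¹ *
          ∑ r : (E → Bool) × Fin (Jn + 2) × Fin (3 * 2 ^ Jn),
            ∫⁻ ω, ((∑ e ∈ (llRule M ord L Jn).accepted
              (fun e => (ω e).1) r (fun e => (ω e).2) (adv ω r), (ω e).2 : ℝ≥0) : ℝ≥0∞)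
              ∂(Measure.pi fun e => (D e).prod (D e))) := by
  classical
  have key := ll_main_bound M ord hord L Jn hL hJ (Measure.pi fun e => (D e).prod (D e))
    (swapInv_pi D) adv hadv
  set X := ∫⁻ ω, (opt M (fun e => (ω e).2) : ℝ≥0∞) ∂(Measure.pi fun e => (D e).prod (D e))
    with hX
  set S := ∑ r : (E → Bool) × Fin (Jn + 2) × Fin (3 * 2 ^ Jn),
    ∫⁻ ω, ((∑ e ∈ (llRule M ord L Jn).accepted (fun e => (ω e).1) r (fun e => (ω e).2)
      (adv ω r), (ω e).2 : ℝ≥0) : ℝ≥0∞) ∂(Measure.pi fun e => (D e).prod (D e)) with hS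
  set c : ℝ≥0∞ := (3 * 2 ^ Jn : ℝ≥0∞) * (2 : ℝ≥0∞) ^ Fintype.card E with hc
  have hc0 : c ≠ 0 := by
    rw [hc]
    exact mul_ne_zero (mul_ne_zero (by norm_num) (pow_ne_zero _ (by norm_num)))
      (pow_ne_zero _ (by norm_num))
  have hcT : c ≠ ∞ := by
    rw [hc]
    exact ENNReal.mul_ne_top (ENNReal.mul_ne_top (by norm_num)
      (ENNReal.pow_ne_top (by norm_num))) (ENNReal.pow_ne_top (by norm_num))
  have hl0 : (2 + (Jn : ℝ≥0∞)) ≠ 0 := by
    simp
  have hlT : (2 + (Jn : ℝ≥0∞)) ≠ ∞ := by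
    simp
  have hcard : (Fintype.card ((E → Bool) × Fin (Jn + 2) × Fin (3 * 2 ^ Jn)) : ℝ≥0∞)
      = c * (2 + (Jn : ℝ≥0∞)) := by
    rw [Fintype.card_prod, Fintype.card_prod, Fintype.card_fun, Fintype.card_bool,
      Fintype.card_fin, Fintype.card_fin, hc]
    push_cast
    ring
  rw [hcard, ENNReal.mul_inv (Or.inl hc0) (Or.inl hcT)]
  have h1 : 16 * (2 + (Jn : ℝ≥0∞)) * (c⁻¹ * (2 + (Jn : ℝ≥0∞))⁻¹ * S)
      = c⁻¹ * (16 * S) * ((2 + (Jn : ℝ≥0∞)) * (2 + (Jn : ℝ≥0∞))⁻¹) := by ring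
  rw [h1, ENNReal.mul_inv_cancel hl0 hlT, mul_one]
  have key' : c * X ≤ 16 * S := by
    rw [hc, mul_assoc]
    exact key
  calc X = c⁻¹ * (c * X) := by
        rw [← mul_assoc, ENNReal.inv_mul_cancel hc0 hcT, one_mul]
    _ ≤ c⁻¹ * (16 * S) := mul_le_mul_right key' _

end Vale.Agent.Lib.P331
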