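import Mathlib
import Vale.Agent.Lib.P331.Defs
import Vale.Agent.Lib.P331.LLDefs

/-!
Measurability of the decisions of the window rule for P331: for a fixed seed, accepted set and
arriving element, the decision is a measurable function of the samples and of the arriving value,
and it does not depend on the list of earlier arrivals.
-/

namespace Vale.Agent.Lib.P331

open scoped NNReal
open MeasureTheory

variable {E : Type*} [Fintype E] [DecidableEq E]

omit [Fintype E] in
lemma measurable_finset_sup_apply (T : Finset E) :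
    Measurable (fun s : E → ℝ≥0 => T.sup s) := by
  classical
  induction T using Finset.induction_on with
  | empty =>
    simp only [Finset.sup_empty]
    exact measurable_const
  | insert a T _ ih =>
    simp only [Finset.sup_insert]
    exact (measurable_pi_apply a).sup ih

lemma measurable_maxS (M : Matroid E) : Measurable (fun s : E → ℝ≥0 => maxS M s) := by
  unfold maxS
  exact measurable_finset_sup_apply _

/-- A property of a countably-valued code is measurable as soon as the fibres of the code are. -/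
lemma measurableSet_of_code {α β : Type*} [MeasurableSpace α] [Countable β] (g : α → β)
    (hg : ∀ b, MeasurableSet {a | g a = b}) (Φ : β → Prop) : MeasurableSet {a | Φ (g a)} := by
  have h : {a | Φ (g a)} = ⋃ b ∈ {b | Φ b}, {a | g a = b} := by
    ext a
    simp
  rw [h]
  exact MeasurableSet.biUnion (Set.to_countable _) (fun b _ => hg b)

omit [DecidableEq E] in
/-- The fibres of a set-valued map with measurable membership are measurable. -/
lemma measurableSet_setEq {α : Type*} [MeasurableSpace α] (G : α → Set E)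
    (hG : ∀ f, MeasurableSet {a | f ∈ G a}) (T : Set E) : MeasurableSet {a | G a = T} := by
  have h : {a | G a = T} = ⋂ f, {a | f ∈ G a ↔ f ∈ T} := by
    ext a
    simp [Set.ext_iff]
  rw [h]
  refine MeasurableSet.iInter (fun f => ?_)
  by_cases hf : f ∈ T
  · have h2 : {a | f ∈ G a ↔ f ∈ T} = {a | f ∈ G a} := by
      ext a
      simp [hf]
    rw [h2]
    exact hG f
  · have h2 : {a | f ∈ G a ↔ f ∈ T} = {a | f ∈ G a}ᶜ := by
      ext a
      simp [hf]
    rw [h2]
    exact (hG f).compl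

lemma measurableSet_mem_Klev (M : Matroid E) (L : ℕ) (j : ℕ) (f : E) :
    MeasurableSet {s : E → ℝ≥0 | f ∈ Klev M L (maxS M s) s j} := by
  have h : {s : E → ℝ≥0 | f ∈ Klev M L (maxS M s) s j}
      = {_s : E → ℝ≥0 | M.Indep {f}} ∩
        ({_s : E → ℝ≥0 | L ≤ j} ∪ {s : E → ℝ≥0 | maxS M s / 2 ^ j < s f}) := by
    ext s
    simp [Klev]
  rw [h]
  exact (MeasurableSet.const _).inter ((MeasurableSet.const _).union
    (measurableSet_lt ((measurable_maxS M).div_const _) (measurable_pi_apply f)))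

lemma measurableSet_cls_eq (M : Matroid E) (L c : ℕ) :
    MeasurableSet {p : (E → ℝ≥0) × ℝ≥0 | cls (maxS M p.1) L p.2 = c} := by
  classical
  have hm : Measurable (fun p : (E → ℝ≥0) × ℝ≥0 => maxS M p.1) :=
    (measurable_maxS M).comp measurable_fst
  have hb : ∀ j : ℕ, MeasurableSet {p : (E → ℝ≥0) × ℝ≥0 | InBucket (maxS M p.1) j p.2} := by
    intro j
    have h : {p : (E → ℝ≥0) × ℝ≥0 | InBucket (maxS M p.1) j p.2}
        = {p : (E → ℝ≥0) × ℝ≥0 | maxS M p.1 / 2 ^ j < p.2} ∩
          {p : (E → ℝ≥0) × ℝ≥0 | p.2 ≤ maxS M p.1 / 2 ^ (j - 1)} := by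
      ext p
      simp [InBucket]
    rw [h]
    exact (measurableSet_lt (hm.div_const _) measurable_snd).inter
      (measurableSet_le measurable_snd (hm.div_const _))
  have hcls : Measurable (fun p : (E → ℝ≥0) × ℝ≥0 => cls (maxS M p.1) L p.2) := by
    unfold cls
    refine Finset.measurable_sum _ (fun j _ => ?_)
    exact Measurable.ite (hb j) measurable_const measurable_const
  exact hcls (measurableSet_singleton c)

lemma measurableSet_schemeAcc (M : Matroid E) (L ℓ P o : ℕ) (A : Finset E) (e : E) :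
    MeasurableSet {p : (E → ℝ≥0) × ℝ≥0 | SchemeAcc M L ℓ P o p.1 A e p.2} := by
  have hG : ∀ (k : ℕ) (T : Set E),
      MeasurableSet {p : (E → ℝ≥0) × ℝ≥0 | Glev M L p.1 P o k = T} := by
    intro k T
    refine measurableSet_setEq (fun p : (E → ℝ≥0) × ℝ≥0 => Glev M L p.1 P o k) (fun f => ?_) T
    exact measurable_fst (measurableSet_mem_Klev M L (loLev P o k) f)
  have hcode := measurableSet_of_code
    (fun p : (E → ℝ≥0) × ℝ≥0 => (cls (maxS M p.1) L p.2,
      Glev M L p.1 P o (widx P o (cls (maxS M p.1) L p.2)),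
      Glev M L p.1 P o (widx P o (cls (maxS M p.1) L p.2) + 1)))
    (by
      rintro ⟨c, T1, T2⟩
      have h : {p : (E → ℝ≥0) × ℝ≥0 | (cls (maxS M p.1) L p.2,
            Glev M L p.1 P o (widx P o (cls (maxS M p.1) L p.2)),
            Glev M L p.1 P o (widx P o (cls (maxS M p.1) L p.2) + 1)) = (c, T1, T2)}
          = {p : (E → ℝ≥0) × ℝ≥0 | cls (maxS M p.1) L p.2 = c} ∩
            ({p : (E → ℝ≥0) × ℝ≥0 | Glev M L p.1 P o (widx P o c) = T1} ∩
              {p : (E → ℝ≥0) × ℝ≥0 | Glev M L p.1 P o (widx P o c + 1) = T2}) := by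
        ext p
        simp only [Set.mem_ofPred_eq, Prod.mk.injEq, Set.mem_inter_iff]
        constructor
        · rintro ⟨h1, h2, h3⟩
          rw [h1] at h2 h3
          exact ⟨h1, h2, h3⟩
        · rintro ⟨h1, h2, h3⟩
          rw [h1]
          exact ⟨rfl, h2, h3⟩
      rw [h]
      exact (measurableSet_cls_eq M L c).inter ((hG _ T1).inter (hG _ T2)))
    (fun b : ℕ × Set E × Set E => inWin ℓ P o b.1 ∧ e ∈ M.closure b.2.2 ∧
      e ∉ M.closure (b.2.1 ∪ ((A : Set E) ∩ M.closure b.2.2)))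
  exact hcode

lemma measurableSet_beats (M : Matroid E) (ord : E → ℕ) (b : E → Bool) (e : E) :
    MeasurableSet {p : (E → ℝ≥0) × ℝ≥0 | Beats M ord p.1 b e p.2} := by
  have hlt : ∀ f : E, MeasurableSet {p : (E → ℝ≥0) × ℝ≥0 | p.1 f < p.2} := fun f =>
    measurableSet_lt ((measurable_pi_apply f).comp measurable_fst) measurable_snd
  have heq : ∀ f : E, MeasurableSet {p : (E → ℝ≥0) × ℝ≥0 | p.1 f = p.2} := fun f =>
    measurableSet_eq_fun ((measurable_pi_apply f).comp measurable_fst) measurable_snd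
  have h : {p : (E → ℝ≥0) × ℝ≥0 | Beats M ord p.1 b e p.2}
      = ({p : (E → ℝ≥0) × ℝ≥0 | p.1 e < p.2} ∪
          ({p : (E → ℝ≥0) × ℝ≥0 | p.1 e = p.2} ∩ {_p : (E → ℝ≥0) × ℝ≥0 | b e = true})) ∩
        ⋂ f, ({_p : (E → ℝ≥0) × ℝ≥0 | ¬ (f ≠ e ∧ M.Indep {f})} ∪
          ({p : (E → ℝ≥0) × ℝ≥0 | p.1 f < p.2} ∪
            ({p : (E → ℝ≥0) × ℝ≥0 | p.1 f = p.2} ∩
              {_p : (E → ℝ≥0) × ℝ≥0 | ord f < ord e}))) := by
    ext p
    simp only [Beats, Set.mem_ofPred_eq, Set.mem_inter_iff, Set.mem_union, Set.mem_iInter]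
    constructor
    · rintro ⟨h1, h2⟩
      refine ⟨h1, fun f => ?_⟩
      by_cases hc : f ≠ e ∧ M.Indep {f}
      · exact Or.inr (h2 f hc.1 hc.2)
      · exact Or.inl hc
    · rintro ⟨h1, h2⟩
      refine ⟨h1, fun f hfe hfi => ?_⟩
      rcases h2 f with h3 | h3
      · exact absurd ⟨hfe, hfi⟩ h3
      · exact h3
  rw [h]
  refine ((hlt e).union ((heq e).inter (MeasurableSet.const _))).inter
    (MeasurableSet.iInter (fun f => ?_))
  exact (MeasurableSet.const _).union ((hlt f).union ((heq f).inter (MeasurableSet.const _)))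

/-- The decisions of the window rule are measurable in the samples and the arriving value. -/
theorem ll_accept_measurable (M : Matroid E) (ord : E → ℕ) (L Jn : ℕ)
    (r : (E → Bool) × Fin (Jn + 2) × Fin (3 * 2 ^ Jn)) (A : Finset E) (h : List (E × ℝ≥0))
    (e : E) :
    Measurable (fun p : (E → ℝ≥0) × ℝ≥0 => (llRule M ord L Jn).accept p.1 r A h e p.2) := by
  classical
  apply measurable_to_bool
  have hset : (fun p : (E → ℝ≥0) × ℝ≥0 => (llRule M ord L Jn).accept p.1 r A h e p.2) ⁻¹' {true}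
      = {p : (E → ℝ≥0) × ℝ≥0 | if (r.2.1 : ℕ) = 0 then
            (A = ∅ ∧ M.Indep {e} ∧ Beats M ord p.1 r.1 e p.2)
          else if (r.2.1 : ℕ) = 1 then SchemeAcc M L 1 1 0 p.1 A e p.2
          else SchemeAcc M L (2 ^ ((r.2.1 : ℕ) - 2)) (3 * 2 ^ ((r.2.1 : ℕ) - 2)) r.2.2
            p.1 A e p.2} := by
    ext p
    simp only [Set.mem_preimage, Set.mem_singleton_iff, Set.mem_ofPred_eq, llRule]
    split_ifs <;> simp
  rw [hset]
  split_ifs with h0 h1
  · have h2 : {p : (E → ℝ≥0) × ℝ≥0 | A = ∅ ∧ M.Indep {e} ∧ Beats M ord p.1 r.1 e p.2}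
        = {_p : (E → ℝ≥0) × ℝ≥0 | A = ∅ ∧ M.Indep {e}} ∩
          {p : (E → ℝ≥0) × ℝ≥0 | Beats M ord p.1 r.1 e p.2} := by
      ext p
      simp only [Set.mem_ofPred_eq, Set.mem_inter_iff]
      tauto
    rw [h2]
    exact (MeasurableSet.const _).inter (measurableSet_beats M ord r.1 e)
  · exact measurableSet_schemeAcc M L 1 1 0 A e
  · exact measurableSet_schemeAcc M L _ _ _ A e

/-- The decisions of the window rule do not depend on the list of earlier arrivals. -/
theorem ll_accept_history (M : Matroid E) (ord : E → ℕ) (L Jn : ℕ) (s : E → ℝ≥0)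
    (r : (E → Bool) × Fin (Jn + 2) × Fin (3 * 2 ^ Jn)) (A : Finset E)
    (h h' : List (E × ℝ≥0)) (e : E) (x : ℝ≥0) :
    (llRule M ord L Jn).accept s r A h e x = (llRule M ord L Jn).accept s r A h' e x := rfl

end Vale.Agent.Lib.P331
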